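import Vale.Agent.P032.R2.H741.TpH
import Vale.Agent.P032.R2.H805.Step

/-!
# P032: the facts give the hypotheses of the certificate checks
-/

set_option autoImplicit false

namespace Vale.Agent.P032.R2.H741.Tp

open Vale.Agent.P032.R2.H805.Step

/-- at most eight rings, colours below six -/
def goodb (G : RD) : Bool :=
  Nat.ble G.R 8 && (List.range G.R).all fun r => six.all fun j => Nat.blt (G.sg r j) 6

theorem goodb_spec {G : RD} (h : goodb G = true) : Good G ∧ G.R ≤ 8 := by
  unfold goodb at h
  rw [Bool.and_eq_true, List.all_eq_true] at h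
  refine ⟨fun r hr j hj => ?_, Nat.le_of_ble_eq_true h.1⟩
  have h1 := h.2 r (List.mem_range.2 hr)
  rw [List.all_eq_true] at h1
  have h2 := h1 j (mem_six.2 hj)
  rwa [Nat.blt_eq] at h2

variable {G : RD} {S : Sem}

/-- the facts about the state and the step -/
theorem ax_of (hg : goodb G = true) (F : SF G S) (F' : TF G S) : Ax G S :=
  ⟨fun _ h => CS.sound (goodb_spec hg).1 F h,
    fun _ h => CL.sound (goodb_spec hg).1 (goodb_spec hg).2 F' h⟩

theorem cs_of (hg : goodb G = true) (F : SF G S) :
    ∀ f : CS, f.ok G = true → Hd (val S) (f.cl G) :=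
  fun _ h => CS.sound (goodb_spec hg).1 F h

theorem ci_of (hg : goodb G = true) (F : IF G S) :
    ∀ f : CI, f.ok G = true → Hd (val S) (f.cl G) :=
  fun _ h => CI.sound (goodb_spec hg).1 F h

theorem cb_of (hg : goodb G = true) (F : BF G S) :
    ∀ f : CB, f.ok G = true → Hd (val S) (f.cl G) :=
  fun _ h => CB.sound (goodb_spec hg).1 F h

end Vale.Agent.P032.R2.H741.Tp
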