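import Vale.Agent.P032.R2.H741.Tp
import Mathlib.Data.Finset.Card
import Mathlib.Data.Set.Card

/-!
# P032: the facts at an instant

`RD`: the rings of two-pair centres (`sg r j`: the colours `a, b, c, d, e, f` of the ring `r`; letters
`0: e`, `1: f`, `2: ab`, `3: cd`).  `SF`: facts about the state just before the instant (`t = 0`);
`TF`: facts about the step; `IF`: the start, `BF`: the end.  One field for every tag of `tp.py`.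
The directions are `x = 3 k + s`, `k < 6`, `s = 0, 1, 2` (just before, at, just after).
-/

set_option autoImplicit false

namespace Vale.Agent.P032.R2.H741.Tp

/-- the rings -/
structure RD where
  /-- number of rings -/
  R : ℕ
  /-- colours `a, b, c, d, e, f` of a ring -/
  sg : ℕ → ℕ → ℕ
  /-- the rings `r < s` have centres at distance one, with a contact variable -/
  adj : ℕ → ℕ → Bool
  /-- what is known about the number of points with the palette number `a` of the ring `r`: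
  `0` nothing, `1` none, `2` exactly one, `3` exactly two, `4` rule two -/
  md : ℕ → ℕ → ℕ
  /-- the ring has no contacts `iq|ef` -/
  nr : ℕ → Bool
  /-- `m + 1`: the anchor is the contact of the ring `r` with the centre `s` at the position `m`;
  `0`: not the anchor -/
  an : ℕ → ℕ → ℕ
  /-- number of the corners of a ring, and the two other centres of a corner -/
  idn : ℕ → ℕ
  id1 : ℕ → ℕ → ℕ
  id2 : ℕ → ℕ → ℕ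
  /-- number of the rings with letters only: the rings `R ≤ s < R + Y` (colours `sg s`) -/
  Y : ℕ
  /-- the ring `s` with letters only belongs to an end contact of the ring `yr s`; it types the arcs
  with the letter `2 + yp s` of that ring -/
  yr : ℕ → ℕ
  yp : ℕ → ℕ
  /-- the end contact of the ring `s` with letters only is the anchor (position `0`) -/
  ya : ℕ → Bool
  /-- the arcs with the letter `2 + p` of the ring `r` have types -/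
  ty : ℕ → ℕ → Bool
  /-- `p + 1`: the anchor is an end of an arc with the letter `2 + p` at the position `0` of the
  ring `r`, with four colours; `0`: nothing -/
  ap : ℕ → ℕ
  /-- `w + 1`: the anchor is at the position `0` of the ring `r` and has the pairs number `w`;
  `0`: nothing -/
  ad : ℕ → ℕ
  /-- the arcs with the letter `2 + p` of the ring `r` do not meet a four-coloured point -/
  nc : ℕ → ℕ → Bool

/-- colours of a letter -/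
def lc (G : RD) (r l : ℕ) : List ℕ :=
  match l with
  | 0 => [G.sg r 4]
  | 1 => [G.sg r 5]
  | 2 => [G.sg r 0, G.sg r 1]
  | _ => [G.sg r 2, G.sg r 3]

/-- local colours of the pairs number `w < 16`: first pair `prt w 0, prt w 1`, second pair
`prt w 2, prt w 3` -/
def prt (w j : ℕ) : ℕ :=
  (([[0, 4, 1, 5], [0, 5, 1, 4], [2, 4, 3, 5], [2, 5, 3, 4],
    [0, 2, 4, 5], [0, 4, 2, 5], [0, 5, 2, 4], [0, 3, 4, 5], [0, 4, 3, 5], [0, 5, 3, 4],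
    [1, 2, 4, 5], [1, 4, 2, 5], [1, 5, 2, 4], [1, 3, 4, 5], [1, 4, 3, 5], [1, 5, 3, 4]] :
    List (List ℕ)).getD w []).getD j 0

/-- colours of the pairs number `w` of the ring `r` -/
def pc (G : RD) (r w j : ℕ) : ℕ := G.sg r (prt w j)

/-- the same two-element set -/
def smq (a b c d : ℕ) : Bool := (Nat.beq a c && Nat.beq b d) || (Nat.beq a d && Nat.beq b c)

/-- the same two pairs: `{a, b | c, d}` and `{a', b' | c', d'}` -/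
def smp (a b c d a' b' c' d' : ℕ) : Bool :=
  (smq a b a' b' && smq c d c' d') || (smq a b c' d' && smq c d a' b')

/-- colours of the palette number `a`: `0: abe`, `1: abf`, `2: cde`, `3: cdf` -/
def tc (G : RD) (r a : ℕ) : List ℕ := lc G r (2 + a / 2) ++ lc G r (a % 2)

/-- the point `(r, k)` is the centre `s` (contact variables are those of `r < s`) -/
def CT (_G : RD) (S : Sem) (r s k : ℕ) : Prop := if r < s then S.ct r s k else S.ct s r ((k + 3) % 6)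

/-- the palette of the point `(r, k)` is the palette number `a` -/
def IsT (G : RD) (S : Sem) (r k a : ℕ) : Prop := ∀ i < 6, (S.C r k i ↔ i ∈ tc G r a)

/-- the two points `(r, k)` and `(s, k)` are not centres of the other ring or antipodal to it -/
def Off (S : Sem) (r s j : ℕ) : Prop :=
  ¬ S.ct (min r s) (max r s) (j % 6) ∧ ¬ S.ct (min r s) (max r s) ((j + 3) % 6)

/-- facts about the state before the instant -/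
structure SF (G : RD) (S : Sem) : Prop where
  some : ∀ r < G.R, ∀ k < 6, S.X 0 r k 0 ∨ S.X 0 r k 1 ∨ S.X 0 r k 2 ∨ S.X 0 r k 3
  uniq : ∀ r < G.R, ∀ k < 6, ∀ l < 4, ∀ m < 4, S.X 0 r k l → S.X 0 r k m → l = m
  legal : ∀ r < G.R, ∀ k < 6, ∀ l < 4, S.X 0 r k l → ¬ S.X 0 r ((k + 1) % 6) l
  legal2 : ∀ r < G.R, ∀ s < G.R, G.adj r s = true → ∀ k < 6, ∀ l < 4, ∀ m < 4, ∀ i ∈ lc G r l,
    i ∈ lc G s m → S.X 0 r k l → ¬ S.X 0 s k m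
  opp : ∀ r < G.R, ∀ j < 4, ∀ k < 3, ¬ (S.n r (G.sg r j) (3 * k) ∧ S.n r (G.sg r j) (3 * k + 9))
  conv : ∀ r < G.R, ∀ j < 4, ∀ k < 6, S.n r (G.sg r j) (3 * k) →
    S.n r (G.sg r j) (3 * ((k + 2) % 6)) → S.n r (G.sg r j) (3 * ((k + 1) % 6))
  mix : ∀ r < G.R, ∀ i < 2, ∀ q, 2 ≤ q → q < 4 → ∀ k < 6, S.n r (G.sg r i) (3 * k) →
    ¬ S.n r (G.sg r q) (3 * ((k + 3) % 6))
  /-- `p = 0`: pair `ab`, letter `2`; `p = 1`: pair `cd`, letter `3` -/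
  letlab : ∀ r < G.R, ∀ k < 6, ∀ p < 2, S.X 0 r k (2 + p) →
    (S.n r (G.sg r (2 * p)) (3 * k) ∧ S.n r (G.sg r (2 * p + 1)) (3 * ((k + 3) % 6))) ∨
    (S.n r (G.sg r (2 * p + 1)) (3 * k) ∧ S.n r (G.sg r (2 * p)) (3 * ((k + 3) % 6)))
  cntmono : ∀ r < G.R, ∀ a < 4, 2 ≤ G.md r a → S.N 0 r a 1 → S.N 0 r a 0
  -- rings with letters only
  ysome : ∀ s, G.R ≤ s → s < G.R + G.Y → ∀ k < 6,
    S.X 0 s k 0 ∨ S.X 0 s k 1 ∨ S.X 0 s k 2 ∨ S.X 0 s k 3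
  yuniq : ∀ s, G.R ≤ s → s < G.R + G.Y → ∀ k < 6, ∀ l < 4, ∀ m < 4, S.X 0 s k l → S.X 0 s k m →
    l = m
  ylegal : ∀ s, G.R ≤ s → s < G.R + G.Y → ∀ k < 6, ∀ l < 4, S.X 0 s k l →
    ¬ S.X 0 s ((k + 1) % 6) l
  ylegal2 : ∀ s, G.R ≤ s → s < G.R + G.Y → ∀ k < 6, ∀ l < 4, ∀ m < 4, ∀ i ∈ lc G (G.yr s) l,
    i ∈ lc G s m → S.X 0 (G.yr s) k l → ¬ S.X 0 s k m

/-- facts about the step; `s = 1` or `5` in `(k + s) % 6`: the neighbours on the ring -/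
structure TF (G : RD) (S : Sem) : Prop where
  -- letters after the instant
  some : ∀ r < G.R, ∀ k < 6, S.X 1 r k 0 ∨ S.X 1 r k 1 ∨ S.X 1 r k 2 ∨ S.X 1 r k 3
  uniq : ∀ r < G.R, ∀ k < 6, ∀ l < 4, ∀ m < 4, S.X 1 r k l → S.X 1 r k m → l = m
  legal : ∀ r < G.R, ∀ k < 6, ∀ l < 4, S.X 1 r k l → ¬ S.X 1 r ((k + 1) % 6) l
  legal2 : ∀ r < G.R, ∀ s < G.R, G.adj r s = true → ∀ k < 6, ∀ l < 4, ∀ m < 4, ∀ i ∈ lc G r l,
    i ∈ lc G s m → S.X 1 r k l → ¬ S.X 1 s k m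
  LC : ∀ t < 2, ∀ r < G.R, ∀ k < 6, ∀ l < 4, ∀ i ∈ lc G r l, S.X t r k l → S.C r k i
  -- the palette of a point
  le4 : ∀ r < G.R, ∀ k < 6, ∀ j < 6, ∃ i < 6, i ≠ j ∧ ¬ S.C r k i
  inside : ∀ r < G.R, ∀ k < 6, ¬ S.C r k (G.sg r 4) → ¬ S.C r k (G.sg r 5) →
    (S.C r k (G.sg r 0) ↔ S.C r k (G.sg r 1)) ∧ (S.C r k (G.sg r 2) ↔ S.C r k (G.sg r 3)) ∧
      ¬ (S.C r k (G.sg r 0) ∧ S.C r k (G.sg r 2))
  q4i : ∀ r < G.R, ∀ k < 6, ∀ i j m n : ℕ, i < j → j < m → m < n → n < 6 → S.C r k i →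
    S.C r k j → S.C r k m → S.C r k n → S.Q r k
  q4e : ∀ r < G.R, ∀ k < 6, S.Q r k → S.C r k (G.sg r 4) ∧ S.C r k (G.sg r 5)
  q4ge : ∀ r < G.R, ∀ k < 6, S.Q r k → ∀ i j m : ℕ, i < j → j < m → m < 6 →
    S.C r k i ∨ S.C r k j ∨ S.C r k m
  dQ : ∀ r < G.R, ∀ k < 6, ∀ w < 16, S.D r k w → S.Q r k
  dC : ∀ r < G.R, ∀ k < 6, ∀ w < 16, S.D r k w → ∀ i < 6,
    (S.C r k i ↔ i = pc G r w 0 ∨ i = pc G r w 1 ∨ i = pc G r w 2 ∨ i = pc G r w 3)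
  dd : ∀ r < G.R, ∀ k < 6, ∀ w < 16, ∀ w' < 16, w ≠ w' → S.D r k w → ¬ S.D r k w'
  dH : ∀ r < G.R, ∀ k < 6, ∀ w < 16, S.D r k w → ¬ S.H r k
  hQ : ∀ r < G.R, ∀ k < 6, S.H r k → S.Q r k
  q4cases : ∀ r < G.R, ∀ k < 6, S.Q r k → S.H r k ∨ ∃ w < 16, S.D r k w
  notri : ∀ r < G.R, ∀ k < 6, S.Q r k → ¬ S.Q r ((k + 1) % 6)
  swap4 : ∀ r < G.R, ∀ k < 6, ∀ s, s = 1 ∨ s = 5 → S.Q r k → S.C r ((k + s) % 6) (G.sg r 4) →
    S.C r ((k + s) % 6) (G.sg r 5) → S.D r k 4 ∨ S.D r k 7 ∨ S.D r k 10 ∨ S.D r k 13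
  flanksame : ∀ r < G.R, ∀ k < 6, ∀ s, s = 1 ∨ s = 5 → ∀ p < 2, S.Q r k →
    S.C r k (G.sg r (2 * p)) → S.C r k (G.sg r (2 * p + 1)) →
    S.C r ((k + s) % 6) (G.sg r (2 - 2 * p)) ∧ S.C r ((k + s) % 6) (G.sg r (3 - 2 * p)) ∧
    ¬ S.C r ((k + s) % 6) (G.sg r (2 * p)) ∧ ¬ S.C r ((k + s) % 6) (G.sg r (2 * p + 1))
  flank4 : ∀ r < G.R, ∀ k < 6, ∀ s, s = 1 ∨ s = 5 → ∀ w < 4, S.D r k w →
    ¬ (S.C r ((k + s) % 6) (G.sg r 4) ∧ S.C r ((k + s) % 6) (G.sg r 5))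
  /-- `i < 2`, `2 ≤ q < 4`: the contact `iq|ef` -/
  flankr : ∀ r < G.R, ∀ k < 6, ∀ s, s = 1 ∨ s = 5 → ∀ i < 2, ∀ q, 2 ≤ q → q < 4 →
    S.D r k (4 + 3 * (2 * i + (q - 2))) →
    S.C r ((k + s) % 6) (G.sg r 4) ∧ S.C r ((k + s) % 6) (G.sg r 5) ∧
    ¬ S.C r ((k + s) % 6) (G.sg r i) ∧ ¬ S.C r ((k + s) % 6) (G.sg r q) ∧
    ¬ (S.C r ((k + s) % 6) (G.sg r (1 - i)) ∧ S.C r ((k + s) % 6) (G.sg r (5 - q)))
  s4word : ∀ r < G.R, ∀ k < 6, ∀ w < 4, S.D r k w →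
    (S.X 0 r k (2 + w / 2) ↔ ¬ S.X 1 r k (2 + w / 2))
  -- a point with one colour
  single : ∀ r < G.R, ∀ k < 6, ∀ s, s = 1 ∨ s = 5 → ∀ i < 6, (∀ j < 6, S.C r k j → j = i) →
    ¬ S.C r ((k + s) % 6) i
  single2 : ∀ r < G.R, ∀ s < G.R, (G.adj r s || G.adj s r) = true → ∀ k < 6, Off S r s k →
    ∀ i < 6, (∀ j < 6, S.C r k j → j = i) → ¬ S.C s k i
  -- a point with at most three colours
  notsub : ∀ r < G.R, ∀ k < 6, ∀ s, s = 1 ∨ s = 5 → ∀ B : Finset ℕ, B.card ≤ 3 →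
    (∀ i < 6, S.C r ((k + s) % 6) i → i ∈ B) → ∃ i < 6, S.C r k i ∧ ¬ S.C r ((k + s) % 6) i
  notsub2 : ∀ r < G.R, ∀ s < G.R, (G.adj r s || G.adj s r) = true → ∀ k < 6, Off S r s k →
    ∀ B : Finset ℕ, B.card ≤ 3 → (∀ i < 6, S.C s k i → i ∈ B) → ∃ i < 6, S.C r k i ∧ ¬ S.C s k i
  /-- `p = (r, k)`, `u = (r, k ± 1)`, `v` = centre -/
  faceA : ∀ r < G.R, ∀ k < 6, ∀ s, s = 1 ∨ s = 5 → ∀ B : Finset ℕ, B.card ≤ 3 →
    (∀ i < 6, S.C r ((k + s) % 6) i → i ∈ B) → ∀ j < 4,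
    ¬ ∀ i < 6, S.C r k i → i = G.sg r j ∨ S.C r ((k + s) % 6) i
  /-- `u = (r, k ± 1)`, `v = (r, k ∓ 1)` -/
  faceB : ∀ r < G.R, ∀ k < 6, ∀ s, s = 1 ∨ s = 5 → ∀ B : Finset ℕ, B.card ≤ 3 →
    (∀ i < 6, S.C r ((k + s) % 6) i → i ∈ B) → ∀ j < 6,
    (∀ i < 6, S.C r k i → i = j ∨ S.C r ((k + s) % 6) i) → ¬ S.C r ((k + 6 - s) % 6) j
  /-- `u = (s, k)`, `v` = centre `r` -/
  faceC : ∀ r < G.R, ∀ s < G.R, (G.adj r s || G.adj s r) = true → ∀ k < 6, Off S r s k →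
    ∀ B : Finset ℕ, B.card ≤ 3 → (∀ i < 6, S.C s k i → i ∈ B) → ∀ j < 4,
    ¬ ∀ i < 6, S.C r k i → i = G.sg r j ∨ S.C s k i
  /-- `u = (s, k)`, `v = (r, k ± 1)` -/
  faceD : ∀ r < G.R, ∀ s < G.R, (G.adj r s || G.adj s r) = true → ∀ k < 6, Off S r s k →
    ∀ m, m = 1 ∨ m = 5 → Off S r s (k + 2 * m) →
    ∀ B : Finset ℕ, B.card ≤ 3 → (∀ i < 6, S.C s k i → i ∈ B) → ∀ j < 6,
    (∀ i < 6, S.C r k i → i = j ∨ S.C s k i) → ¬ S.C r ((k + m) % 6) j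
  /-- `u = (r, k ± 1)`, `v = (s, k)` -/
  faceE : ∀ r < G.R, ∀ s < G.R, (G.adj r s || G.adj s r) = true → ∀ k < 6, Off S r s k →
    ∀ m, m = 1 ∨ m = 5 → Off S r s (k + 2 * m) →
    ∀ B : Finset ℕ, B.card ≤ 3 → (∀ i < 6, S.C r ((k + m) % 6) i → i ∈ B) → ∀ j < 6,
    (∀ i < 6, S.C r k i → i = j ∨ S.C r ((k + m) % 6) i) → ¬ S.C s k j
  /-- `u` = centre, mixed face `i, q`, `v = (r, k ± 1)` -/
  hubA : ∀ r < G.R, ∀ k < 6, ∀ s, s = 1 ∨ s = 5 → ∀ i < 2, ∀ q, 2 ≤ q → q < 4 → ∀ j < 6,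
    (∀ m < 6, S.C r k m → m = G.sg r i ∨ m = G.sg r q ∨ m = j) → j ≠ G.sg r i → j ≠ G.sg r q →
    ¬ S.C r ((k + s) % 6) j
  /-- `u` = centre, mixed face `i, q`, `v = (s, k)` -/
  hubB : ∀ r < G.R, ∀ s < G.R, (G.adj r s || G.adj s r) = true → ∀ k < 6, Off S r s k →
    ∀ i < 2, ∀ q, 2 ≤ q → q < 4 → ∀ j < 6,
    (∀ m < 6, S.C r k m → m = G.sg r i ∨ m = G.sg r q ∨ m = j) → j ≠ G.sg r i → j ≠ G.sg r q →
    ¬ S.C s k j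
  /-- inside a two-pair point `(r, k ± 1)` -/
  insubA : ∀ r < G.R, ∀ k < 6, ∀ s, s = 1 ∨ s = 5 → ∀ w < 16, S.D r ((k + s) % 6) w →
    (∀ i < 6, S.C r k i → S.C r ((k + s) % 6) i) →
    (S.C r k (pc G r w 0) ↔ S.C r k (pc G r w 1)) ∧ (S.C r k (pc G r w 2) ↔ S.C r k (pc G r w 3)) ∧
      ¬ (S.C r k (pc G r w 0) ∧ S.C r k (pc G r w 2))
  /-- inside a two-pair point `(s, k)` -/
  insubB : ∀ r < G.R, ∀ s < G.R, (G.adj r s || G.adj s r) = true → ∀ k < 6, Off S r s k →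
    ∀ w < 16, S.D s k w → (∀ i < 6, S.C r k i → S.C s k i) →
    (S.C r k (pc G s w 0) ↔ S.C r k (pc G s w 1)) ∧ (S.C r k (pc G s w 2) ↔ S.C r k (pc G s w 3)) ∧
      ¬ (S.C r k (pc G s w 0) ∧ S.C r k (pc G s w 2))
  /-- two four-coloured points have at most two common colours -/
  two : ∀ r < G.R, ∀ s < G.R, G.adj r s = true → ∀ k < 6, Off S r s k → ∀ i j m u v : ℕ,
    i < j → j < m → m < 6 → u < 6 → v < 6 → u ≠ i → u ≠ j → u ≠ m → v ≠ i → v ≠ j → v ≠ m →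
    S.C r k i → S.C r k j → S.C r k m → S.C r k u → S.C s k i → S.C s k j → S.C s k m →
    ¬ S.C s k v
  -- directions
  n0L : ∀ r < G.R, ∀ j < 4, ∀ k < 6, S.n r (G.sg r j) (3 * k) → S.n r (G.sg r j) (3 * k + 1)
  n0R : ∀ r < G.R, ∀ j < 4, ∀ k < 6, S.n r (G.sg r j) (3 * k + 2) → S.n r (G.sg r j) (3 * k + 1)
  opp : ∀ r < G.R, ∀ j < 4, ∀ x < 9, ¬ (S.n r (G.sg r j) x ∧ S.n r (G.sg r j) (x + 9))
  conv : ∀ r < G.R, ∀ j < 4, ∀ x < 18, ∀ y w : ℕ, x < w → w < y → y < x + 9 →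
    S.n r (G.sg r j) x → S.n r (G.sg r j) (y % 18) → S.n r (G.sg r j) (w % 18)
  /-- the direction was in the cone at an earlier time at the position `k` -/
  convM : ∀ r < G.R, ∀ j < 4, ∀ k < 6, ∀ y w : ℕ, 3 * k ≤ w → w < y → y < 3 * k + 9 →
    S.M 0 r (G.sg r j) k → S.n r (G.sg r j) (y % 18) → S.n r (G.sg r j) (w % 18)
  /-- the same with `y` in the positions `k - 2`, `k - 1`; numbers plus 18 -/
  convM2 : ∀ r < G.R, ∀ j < 4, ∀ k < 6, ∀ y w : ℕ, 3 * k + 12 ≤ y → y < w → w < 3 * k + 18 →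
    S.M 0 r (G.sg r j) k → S.n r (G.sg r j) (y % 18) → S.n r (G.sg r j) (w % 18)
  M : ∀ r < G.R, ∀ j < 4, ∀ k < 6, (S.M 1 r (G.sg r j) k ↔
    S.M 0 r (G.sg r j) k ∨ S.n r (G.sg r j) (3 * k + 1))
  mix : ∀ r < G.R, ∀ i < 2, ∀ q, 2 ≤ q → q < 4 → ∀ k < 6, S.n r (G.sg r i) (3 * k + 2) →
    ¬ S.n r (G.sg r q) (3 * ((k + 3) % 6) + 2)
  line1 : ∀ r < G.R, ∀ i < 2, ∀ q, 2 ≤ q → q < 4 → ∀ k < 6, ∀ m < 6, k ≠ m →
    S.n r (G.sg r i) (3 * k + 1) → S.n r (G.sg r q) (3 * ((k + 3) % 6) + 1) →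
    S.n r (G.sg r i) (3 * m + 1) → ¬ S.n r (G.sg r q) (3 * ((m + 3) % 6) + 1)
  rkind : ∀ r < G.R, ∀ i < 2, ∀ q, 2 ≤ q → q < 4 → ∀ k < 6,
    S.D r k (4 + 3 * (2 * i + (q - 2))) →
    (S.n r (G.sg r i) (3 * k + 1) ∧ S.n r (G.sg r q) (3 * ((k + 3) % 6) + 1)) ∨
    (S.n r (G.sg r q) (3 * k + 1) ∧ S.n r (G.sg r i) (3 * ((k + 3) % 6) + 1))
  /-- other contacts with the colours `i, q` -/
  mkind : ∀ r < G.R, ∀ i < 2, ∀ q, 2 ≤ q → q < 4 → ∀ k < 6,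
    (S.D r k (5 + 3 * (2 * i + (q - 2))) ∨ S.D r k (6 + 3 * (2 * i + (q - 2))) ∨
      (S.H r k ∧ S.C r k (G.sg r i) ∧ S.C r k (G.sg r q))) →
    ¬ (S.n r (G.sg r i) (3 * k + 1) ∧ S.n r (G.sg r q) (3 * ((k + 3) % 6) + 1)) ∧
    ¬ (S.n r (G.sg r i) (3 * ((k + 3) % 6) + 1) ∧ S.n r (G.sg r q) (3 * k + 1))
  lab1 : ∀ r < G.R, ∀ j < 4, ∀ k < 6, S.C r k (G.sg r j) →
    S.n r (G.sg r j) (3 * k + 1) ∨ S.n r (G.sg r j) (3 * ((k + 3) % 6) + 1)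
  pairlab : ∀ r < G.R, ∀ k < 6, ∀ p < 2, S.C r k (G.sg r (2 * p)) →
    S.C r k (G.sg r (2 * p + 1)) →
    (S.n r (G.sg r (2 * p)) (3 * k + 1) ∧ S.n r (G.sg r (2 * p + 1)) (3 * ((k + 3) % 6) + 1)) ∨
    (S.n r (G.sg r (2 * p + 1)) (3 * k + 1) ∧ S.n r (G.sg r (2 * p)) (3 * ((k + 3) % 6) + 1))
  letlab : ∀ r < G.R, ∀ k < 6, ∀ p < 2, S.X 1 r k (2 + p) →
    (S.n r (G.sg r (2 * p)) (3 * k + 2) ∧
      S.n r (G.sg r (2 * p + 1)) (3 * ((k + 3) % 6) + 2)) ∨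
    (S.n r (G.sg r (2 * p + 1)) (3 * k + 2) ∧ S.n r (G.sg r (2 * p)) (3 * ((k + 3) % 6) + 2))
  /-- `j = 2 i + (q - 2)` -/
  gline : ∀ r < G.R, ∀ i < 2, ∀ q, 2 ≤ q → q < 4 → ∀ k < 6, S.g 0 r (2 * i + (q - 2)) →
    S.n r (G.sg r i) (3 * k + 1) → ¬ S.n r (G.sg r q) (3 * ((k + 3) % 6) + 1)
  gset : ∀ r < G.R, ∀ i < 2, ∀ q, 2 ≤ q → q < 4 → ∀ k < 6,
    S.n r (G.sg r i) (3 * k + 1) → S.n r (G.sg r q) (3 * ((k + 3) % 6) + 1) →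
    S.g 1 r (2 * i + (q - 2))
  gmono : ∀ r < G.R, ∀ j < 4, S.g 0 r j → S.g 1 r j
  -- numbers of points
  E : ∀ r < G.R, ∀ a < 4, ∀ k < 6,
    (S.E r a k ↔ IsT G S r k a ∧ (G.md r a = 4 → S.P r a ∧ S.P r (3 - a)))
  absent : ∀ r < G.R, ∀ a < 4, G.md r a = 1 → ∀ k < 6, ¬ IsT G S r k a
  pres : ∀ r < G.R, ∀ a < 4, G.md r a = 4 → ∀ k < 6, IsT G S r k a → S.P r a
  /-- `c0`: number of the points before the instant (for `md = 4` only if both palettes occur,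
  otherwise `N` and `E` are false) -/
  cnt : ∀ r < G.R, ∀ a < 4, 2 ≤ G.md r a → ∃ c0 : ℕ, (∀ j < 2, S.N 0 r a j ↔ j < c0) ∧
    (∀ j < 2, S.N 1 r a j ↔ j < c0 + {k : ℕ | k < 6 ∧ S.E r a k}.ncard) ∧
    (G.md r a = 2 → c0 + {k : ℕ | k < 6 ∧ S.E r a k}.ncard ≤ 1) ∧
    (G.md r a = 3 → c0 + {k : ℕ | k < 6 ∧ S.E r a k}.ncard ≤ 2) ∧
    (G.md r a = 4 → c0 + {k : ℕ | k < 6 ∧ S.E r a k}.ncard ≤ 2)
  vis : ∀ r < G.R, ∀ a < 4, 2 ≤ G.md r a → (G.md r a = 4 → S.P r a ∧ S.P r (3 - a)) →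
    ∀ k < 6, IsT G S r k a →
    ¬ (S.X 0 r k (2 + a / 2) ∧ S.X 1 r k (2 + a / 2)) ∧
    ¬ (S.X 0 r k (a % 2) ∧ S.X 1 r k (a % 2))
  norz : ∀ r < G.R, G.nr r = true → ∀ k < 6, ∀ w, w = 4 ∨ w = 7 ∨ w = 10 ∨ w = 13 → ¬ S.D r k w
  -- contacts
  first : ¬ S.F 1
  anchor : ∀ r < G.R, ∀ s < G.R, G.adj r s = true → ∀ m < 6, G.an r s = m + 1 → ∀ k < 6,
    (S.ct r s k ↔ k = m ∧ S.F 0)
  /-- a contact which is not the anchor -/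
  done : ∀ r < G.R, ∀ s < G.R, G.adj r s = true → G.an r s = 0 →
    (S.dn 1 r s ↔ S.dn 0 r s ∨ ∃ k < 6, S.ct r s k) ∧
    (∀ k < 6, S.dn 0 r s → ¬ S.ct r s k) ∧
    (∀ k < 6, ∀ m < 6, S.ct r s k → S.ct r s m → k = m)
  /-- corners: `id1 r j + id2 r j - r` -/
  ident : ∀ r < G.R, ∀ j < G.idn r, ∀ k < 6,
    (CT G S r (G.id2 r j) k → ∀ i < 6, (S.C (G.id1 r j) k i ↔ S.U r j i)) ∧
    (CT G S r (G.id1 r j) k → ∀ i < 6, (S.C (G.id2 r j) k i ↔ S.U r j i))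
  identD : ∀ r < G.R, ∀ j < G.idn r, ∀ k < 6, ∀ w < 16,
    (CT G S r (G.id2 r j) k → (S.D (G.id1 r j) k w ↔ S.V r j w)) ∧
    (CT G S r (G.id1 r j) k → ∀ w' < 16,
      smp (pc G (G.id1 r j) w 0) (pc G (G.id1 r j) w 1) (pc G (G.id1 r j) w 2)
        (pc G (G.id1 r j) w 3) (pc G (G.id2 r j) w' 0) (pc G (G.id2 r j) w' 1)
        (pc G (G.id2 r j) w' 2) (pc G (G.id2 r j) w' 3) = true →
      (S.D (G.id2 r j) k w' ↔ S.V r j w))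
  ctC : ∀ r < G.R, ∀ s < G.R, G.adj r s = true → ∀ k < 6, S.ct r s k → ∀ i < 6,
    (S.C r k i ↔ ∃ j < 4, i = G.sg s j) ∧ (S.C s ((k + 3) % 6) i ↔ ∃ j < 4, i = G.sg r j)
  /-- the pairs of the centre `s` as pairs number `w` on the ring `r` and conversely -/
  ctD : ∀ r < G.R, ∀ s < G.R, G.adj r s = true → ∀ k < 6, S.ct r s k → ∀ w < 16,
    (smp (pc G r w 0) (pc G r w 1) (pc G r w 2) (pc G r w 3) (G.sg s 0) (G.sg s 1) (G.sg s 2)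
      (G.sg s 3) = true → S.D r k w) ∧
    (smp (pc G s w 0) (pc G s w 1) (pc G s w 2) (pc G s w 3) (G.sg r 0) (G.sg r 1) (G.sg r 2)
      (G.sg r 3) = true → S.D s ((k + 3) % 6) w)
  /-- `(r, k + 1) = (s, k + 2)` and `(r, k + 5) = (s, k + 4)` -/
  same : ∀ r < G.R, ∀ s < G.R, G.adj r s = true → ∀ k < 6, S.ct r s k → ∀ i < 6,
    (S.C r ((k + 1) % 6) i ↔ S.C s ((k + 2) % 6) i) ∧
    (S.C r ((k + 5) % 6) i ↔ S.C s ((k + 4) % 6) i)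
  sameH : ∀ r < G.R, ∀ s < G.R, G.adj r s = true → ∀ k < 6, S.ct r s k →
    (S.H r ((k + 1) % 6) ↔ S.H s ((k + 2) % 6)) ∧ (S.H r ((k + 5) % 6) ↔ S.H s ((k + 4) % 6))
  sameD : ∀ r < G.R, ∀ s < G.R, G.adj r s = true → ∀ k < 6, S.ct r s k → ∀ w < 16, ∀ w' < 16,
    smp (pc G r w 0) (pc G r w 1) (pc G r w 2) (pc G r w 3) (pc G s w' 0) (pc G s w' 1)
      (pc G s w' 2) (pc G s w' 3) = true →
    (S.D r ((k + 1) % 6) w ↔ S.D s ((k + 2) % 6) w') ∧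
    (S.D r ((k + 5) % 6) w ↔ S.D s ((k + 4) % 6) w')
  /-- near / far agreement, common colours of the centres -/
  agree : ∀ r < G.R, ∀ s < G.R, G.adj r s = true → ∀ k < 6, S.ct r s k → ∀ i < 6,
    (∃ j < 4, i = G.sg r j) → (∃ j < 4, i = G.sg s j) →
    (S.n r i (3 * k + 1) ↔ S.n s i (3 * ((k + 3) % 6) + 1)) ∧
    (S.n r i (3 * ((k + 3) % 6) + 1) ↔ S.n s i (3 * k + 1))
  /-- `A = r`, `B = s`, `A` has the pair letter `p` with the colours `i, j` (from different pairs of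
  `B`) before (`t = 0`) or after (`t = 1`) the contact at the place `k`; `i` near, `j` far -/
  tight : ∀ r < G.R, ∀ s < G.R, ∀ k < 6, CT G S r s k →
    (G.adj r s || G.adj s r) = true → ∀ t < 2, ∀ p < 2, ∀ i j : ℕ,
    (i = G.sg r (2 * p) ∧ j = G.sg r (2 * p + 1)) ∨ (i = G.sg r (2 * p + 1) ∧ j = G.sg r (2 * p)) →
    ((i = G.sg s 0 ∨ i = G.sg s 1) ∧ (j = G.sg s 2 ∨ j = G.sg s 3)) ∨
      ((i = G.sg s 2 ∨ i = G.sg s 3) ∧ (j = G.sg s 0 ∨ j = G.sg s 1)) →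
    S.X t r k (2 + p) → S.n s i (3 * ((k + 3) % 6) + 1) → S.n s j (3 * k + 1) →
    ¬ S.n s i (3 * ((k + 3) % 6) + 2 * t) ∧ S.n s i (3 * ((k + 3) % 6) + 2 * (1 - t)) ∧
    S.n s j (3 * k + 2 * t) ∧ ¬ S.n s j (3 * k + 2 * (1 - t))
  -- rings with letters only
  ysome : ∀ s, G.R ≤ s → s < G.R + G.Y → ∀ k < 6,
    S.X 1 s k 0 ∨ S.X 1 s k 1 ∨ S.X 1 s k 2 ∨ S.X 1 s k 3
  yuniq : ∀ s, G.R ≤ s → s < G.R + G.Y → ∀ k < 6, ∀ l < 4, ∀ m < 4, S.X 1 s k l → S.X 1 s k m →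
    l = m
  ylegal : ∀ s, G.R ≤ s → s < G.R + G.Y → ∀ k < 6, ∀ l < 4, S.X 1 s k l →
    ¬ S.X 1 s ((k + 1) % 6) l
  ylegal2 : ∀ s, G.R ≤ s → s < G.R + G.Y → ∀ k < 6, ∀ l < 4, ∀ m < 4, ∀ i ∈ lc G (G.yr s) l,
    i ∈ lc G s m → S.X 1 (G.yr s) k l → ¬ S.X 1 s k m
  /-- no direct change of the two pair letters -/
  nodir : ∀ s, G.R ≤ s → s < G.R + G.Y → ∀ k < 6, ¬ (S.X 0 s k 2 ∧ S.X 1 s k 3) ∧
    ¬ (S.X 0 s k 3 ∧ S.X 1 s k 2)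
  /-- over the letter with `e` the arcs have no ends `e` without `f`, over the letter with `f` no
  ends `f` without `e` -/
  tpY : ∀ s, G.R ≤ s → s < G.R + G.Y → ∀ t < 2, ∀ k < 6, ∀ m, 2 ≤ m → m < 4 →
    S.X t (G.yr s) k (2 + G.yp s) → S.X t s k m →
    (G.sg (G.yr s) 4 ∈ lc G s m → S.C (G.yr s) k (G.sg (G.yr s) 4) →
      S.C (G.yr s) k (G.sg (G.yr s) 5)) ∧
    (G.sg (G.yr s) 5 ∈ lc G s m → S.C (G.yr s) k (G.sg (G.yr s) 5) →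
      S.C (G.yr s) k (G.sg (G.yr s) 4))
  /-- at the anchor the places `2`, `4` of the ring `s` are the places `1`, `5` of the hub and the
  place `3` is the hub -/
  sameY : ∀ s, G.R ≤ s → s < G.R + G.Y → G.ya s = true → S.F 0 → ∀ t < 2,
    (∀ l < 4, ∀ i ∈ lc G s l, (S.X t s 2 l → S.C (G.yr s) 1 i) ∧
      (S.X t s 4 l → S.C (G.yr s) 5 i)) ∧ ¬ S.X t s 3 2 ∧ ¬ S.X t s 3 3
  -- types of the arcs with the letter `2 + p`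
  tpkeep : ∀ r < G.R, ∀ p < 2, G.ty r p = true → ∀ k < 6, S.X 0 r k (2 + p) →
    S.X 1 r k (2 + p) → (S.ty 0 r p k ↔ S.ty 1 r p k)
  tpend : ∀ r < G.R, ∀ p < 2, G.ty r p = true → ∀ t < 2, ∀ k < 6, S.X t r k (2 + p) →
    (S.C r k (G.sg r 4) → ¬ S.C r k (G.sg r 5) → ¬ S.ty t r p k) ∧
    (S.C r k (G.sg r 5) → ¬ S.C r k (G.sg r 4) → S.ty t r p k)
  -- the anchor
  anch : ∀ r < G.R, ∀ p < 2, G.ap r = p + 1 → S.F 0 →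
    (∀ i < 6, (S.C r 0 i ↔ i = G.sg r (2 * p) ∨ i = G.sg r (2 * p + 1) ∨ i = G.sg r 4 ∨
      i = G.sg r 5)) ∧ (S.X 0 r 0 (2 + p) ↔ ¬ S.X 1 r 0 (2 + p))
  anchD : ∀ r < G.R, ∀ w < 16, G.ad r = w + 1 → S.F 0 → S.D r 0 w
  nc : ∀ r < G.R, ∀ p < 2, G.nc r p = true → ∀ k < 6, ∀ t < 2, S.Q r k →
    S.C r k (G.sg r (2 * p)) → S.C r k (G.sg r (2 * p + 1)) → ¬ S.X t r k (2 + p)
  /-- two places beside a contact `iq|ef` -/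
  out2 : ∀ r < G.R, ∀ k < 6, ∀ s, s = 2 ∨ s = 4 → ∀ i < 2, ∀ q, 2 ≤ q → q < 4 →
    S.D r k (4 + 3 * (2 * i + (q - 2))) →
    (S.C r ((k + s) % 6) (G.sg r 0) ∧ S.C r ((k + s) % 6) (G.sg r 1)) ∨
    (S.C r ((k + s) % 6) (G.sg r 2) ∧ S.C r ((k + s) % 6) (G.sg r 3))

/-- facts about the start: the state just before the anchor -/
structure IF (G : RD) (S : Sem) : Prop where
  initX : ∀ r < G.R, ∀ k < 6, ∀ l < 4, (S.X 0 r k l ↔ S.I r k l)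
  initn : ∀ r < G.R, ∀ j < 4, ∀ k < 6, (S.n r (G.sg r j) (3 * k) ↔ S.J r (G.sg r j) k)
  M0 : ∀ r < G.R, ∀ j < 4, ∀ k < 6, ¬ S.M 0 r (G.sg r j) k
  g0 : ∀ r < G.R, ∀ j < 4, ¬ S.g 0 r j
  cnt0 : ∀ r < G.R, ∀ a < 4, ∀ j < 2, ¬ S.N 0 r a j
  done0 : ∀ r < G.R, ∀ s < G.R, ¬ S.dn 0 r s
  first : S.F 0
  initY : ∀ s, G.R ≤ s → s < G.R + G.Y → ∀ k < 6, ∀ l < 4, (S.X 0 s k l ↔ S.I s k l)
  initF : ∀ r < G.R, ∀ p < 2, G.ty r p = true → ∀ k < 6, (S.ty 0 r p k ↔ S.ti r p k)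

/-- facts about the end: the state just before the anchor of the next period -/
structure BF (G : RD) (S : Sem) : Prop where
  closeX : ∀ r < G.R, ∀ k < 6, ∀ l < 4, (S.X 0 r k l ↔ S.I r ((k + 1) % 6) l)
  closen : ∀ r < G.R, ∀ j < 4, ∀ k < 6,
    (S.n r (G.sg r j) (3 * k) ↔ S.J r (G.sg r j) ((k + 1) % 6))
  cntend1 : ∀ r < G.R, ∀ a < 4, 2 ≤ G.md r a → G.md r a ≤ 3 → S.N 0 r a 0
  cntend2 : ∀ r < G.R, ∀ a < 4, G.md r a = 3 → S.N 0 r a 1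
  /-- rule two -/
  cntend : ∀ r < G.R, ∀ a < 4, G.md r a = 4 → S.P r a → S.P r (3 - a) → S.N 0 r a 0
  doneend : ∀ r < G.R, ∀ s < G.R, G.adj r s = true → G.an r s = 0 → S.dn 0 r s
  first : ¬ S.F 0
  closeY : ∀ s, G.R ≤ s → s < G.R + G.Y → ∀ k < 6, ∀ l < 4, (S.X 0 s k l ↔ S.I s ((k + 1) % 6) l)
  closeF : ∀ r < G.R, ∀ p < 2, G.ty r p = true → ∀ k < 6, S.X 0 r k (2 + p) →
    (S.ty 0 r p k ↔ S.ti r p ((k + 1) % 6))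

end Vale.Agent.P032.R2.H741.Tp
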