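import Mathlib

/-!
# P032, W4.CERT: a verified checker for systems of letters

Positions `0 .. n-1`, letters `0 .. m-1`.  A palette is a bit mask of letters, a palette system is the
number `pcode m σ n` with the base `2 ^ m` digits `σ p`, so bit `m * p + l` says that the letter `l`
(*atom* `(p, l)`) is present at the position `p`.  A selection `h` is coded by the palette system
`2 ^ h p` (`scode m h n`).

`Spec`: for every position the list of the allowed palettes (`pals p`), Boolean rules `okp p` on the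
palettes of the positions `0 .. p`, Boolean rules `legp p l` on the letters of the positions before
`p` if the letter at `p` is `l` (necessary conditions for legality), and a class table `cls` on codes
of selections.

`Spec.check`: for every palette system which passes all rules all selections in it which pass all
rules have the same class (`Spec.sound`); for `decide +kernel`.  `Spec.checkOn` is the part of the
search with a given list of palettes of the position `0`.
-/

set_option autoImplicit false

namespace Vale.Agent.P032.R2.H741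

/-- the data of a finite check -/
structure Spec where
  /-- number of positions -/
  n : ℕ
  /-- number of letters -/
  m : ℕ
  /-- allowed palettes of a position -/
  pals : ℕ → List ℕ
  /-- rule on the palettes of the positions `0 .. p` -/
  okp : ℕ → ℕ → Bool
  /-- rule on the letter of the position `p`, given the code of the letters before `p` -/
  legp : ℕ → ℕ → ℕ → Bool
  /-- class of a selection -/
  cls : ℕ → ℕ

/-- code of the first `p` palettes -/
def pcode (m : ℕ) (σ : ℕ → ℕ) : ℕ → ℕ
  | 0 => 0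
  | p + 1 => pcode m σ p + σ p * 2 ^ (m * p)

/-- palette number `q` of a code -/
def pdig (m : ℕ) (a q : ℕ) : ℕ := (a / 2 ^ (m * q)) % 2 ^ m

/-- code of the first `p` letters -/
def scode (m : ℕ) (h : ℕ → ℕ) (p : ℕ) : ℕ := pcode m (fun q => 2 ^ h q) p

theorem pcode_lt {m : ℕ} {σ : ℕ → ℕ} : ∀ p : ℕ, (∀ q < p, σ q < 2 ^ m) → pcode m σ p < 2 ^ (m * p)
  | 0, _ => by simp [pcode]
  | p + 1, h => by
      have ih := pcode_lt (m := m) (σ := σ) p fun q hq => h q (by omega)
      have h1 := h p (by omega)
      have e : 2 ^ (m * (p + 1)) = 2 ^ m * 2 ^ (m * p) := by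
        rw [Nat.mul_add, Nat.mul_one, pow_add, mul_comm]
      rw [pcode, e]
      calc pcode m σ p + σ p * 2 ^ (m * p) < 2 ^ (m * p) + σ p * 2 ^ (m * p) := by omega
        _ = (σ p + 1) * 2 ^ (m * p) := by ring
        _ ≤ 2 ^ m * 2 ^ (m * p) := Nat.mul_le_mul_right _ h1

theorem pdig_pcode {m : ℕ} {σ : ℕ → ℕ} : ∀ (p : ℕ), (∀ q < p, σ q < 2 ^ m) → ∀ q < p,
    pdig m (pcode m σ p) q = σ q
  | 0, _, q, hq => absurd hq (by omega)
  | p + 1, h, q, hq => by
      have hl := pcode_lt (m := m) (σ := σ) p fun q hq => h q (by omega)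
      by_cases hqp : q = p
      · subst hqp
        rw [pdig, pcode, Nat.add_mul_div_right _ _ (Nat.pos_of_ne_zero (by positivity)),
          Nat.div_eq_of_lt hl, Nat.zero_add]
        exact Nat.mod_eq_of_lt (h q (by omega))
      · have ih := pdig_pcode (m := m) (σ := σ) p (fun q hq => h q (by omega)) q (by omega)
        obtain ⟨r, hr⟩ : ∃ r, p = q + 1 + r := ⟨p - (q + 1), by omega⟩
        have e : σ p * 2 ^ (m * p) = (σ p * 2 ^ (m * r) * 2 ^ m) * 2 ^ (m * q) := by
          have : 2 ^ (m * p) = 2 ^ (m * r) * 2 ^ m * 2 ^ (m * q) := by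
            rw [← pow_add, ← pow_add]; congr 1; rw [hr]; ring
          rw [this]; ring
        rw [pdig, pcode, e, Nat.add_mul_div_right _ _ (Nat.pos_of_ne_zero (by positivity)),
          Nat.add_mul_mod_self_right]
        exact ih

/-- the atoms of a code -/
theorem testBit_pcode {m : ℕ} {σ : ℕ → ℕ} {p : ℕ} (h : ∀ q < p, σ q < 2 ^ m) {q : ℕ} (hq : q < p)
    {l : ℕ} (hl : l < m) : (pcode m σ p).testBit (m * q + l) = (σ q).testBit l := by
  conv_rhs => rw [← pdig_pcode p h q hq, pdig, Nat.testBit_mod_two_pow, Nat.testBit_div_two_pow]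
  rw [Nat.add_comm l, decide_eq_true hl, Bool.true_and]

theorem two_pow_lt {m l : ℕ} (h : l < m) : 2 ^ l < 2 ^ m := Nat.pow_lt_pow_right (by norm_num) h

theorem testBit_scode {m : ℕ} {h : ℕ → ℕ} {p : ℕ} (hh : ∀ q < p, h q < m) {q : ℕ} (hq : q < p)
    {l : ℕ} (hl : l < m) : (scode m h p).testBit (m * q + l) = decide (h q = l) := by
  rw [scode, testBit_pcode (fun q hq => two_pow_lt (hh q hq)) hq hl, Nat.testBit_two_pow]

namespace Spec

variable (S : Spec)

/-- search over the palette systems -/
def dfs (leaf : ℕ → Bool) : ℕ → ℕ → ℕ → Bool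
  | 0, _, acc => leaf acc
  | k + 1, p, acc => (S.pals p).all fun s =>
      !(S.okp p (acc + s * 2 ^ (S.m * p))) || dfs leaf k (p + 1) (acc + s * 2 ^ (S.m * p))

/-- letters `0 .. l-1` of the palette `s`: the lists `g l`, concatenated -/
def overL (s : ℕ) (g : ℕ → List ℕ) : ℕ → List ℕ
  | 0 => []
  | l + 1 => if Nat.testBit s l then g l ++ overL s g l else overL s g l

/-- the classes of the selections in a palette system -/
def sels (acc : ℕ) : ℕ → ℕ → ℕ → List ℕ
  | 0, _, c => [S.cls c]
  | k + 1, p, c => overL (pdig S.m acc p)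
      (fun l => if S.legp p l c then sels acc k (p + 1) (c + 2 ^ l * 2 ^ (S.m * p)) else []) S.m

/-- all letters `< l` pass `f` -/
def allL (f : ℕ → Bool) : ℕ → Bool
  | 0 => true
  | l + 1 => f l && allL f l

/-- all selections (no palettes) with the legality rules pass `f` -/
def selAll (f : ℕ → Bool) : ℕ → ℕ → ℕ → Bool
  | 0, _, c => f c
  | k + 1, p, c => allL (fun l => !(S.legp p l c) || selAll f k (p + 1) (c + 2 ^ l * 2 ^ (S.m * p)))
      S.m

/-- all entries are equal -/
def allEq : List ℕ → Bool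
  | [] => true
  | a :: t => t.all fun b => b == a

/-- the check at one palette system -/
def leafChk (acc : ℕ) : Bool := allEq (S.sels acc S.n 0 0)

/-- the complete check -/
def check : Bool := S.dfs S.leafChk S.n 0 0

/-- the part of the check where the palette of position `0` is in the list `L` -/
def checkOn (L : List ℕ) : Bool := L.all fun s =>
  !(S.okp 0 (s * 2 ^ (S.m * 0))) || S.dfs S.leafChk (S.n - 1) 1 (s * 2 ^ (S.m * 0))

variable {S}

theorem dfs_sound {leaf : ℕ → Bool} {σ : ℕ → ℕ} : ∀ k p : ℕ,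
    S.dfs leaf k p (pcode S.m σ p) = true →
    (∀ q, p ≤ q → q < p + k → σ q ∈ S.pals q ∧ S.okp q (pcode S.m σ (q + 1)) = true) →
    leaf (pcode S.m σ (p + k)) = true
  | 0, p, h, _ => h
  | k + 1, p, h, hσ => by
      rw [dfs, List.all_eq_true] at h
      obtain ⟨h1, h2⟩ := hσ p le_rfl (by omega)
      have h3 := h (σ p) h1
      rw [show pcode S.m σ p + σ p * 2 ^ (S.m * p) = pcode S.m σ (p + 1) from rfl, h2, Bool.not_true,
        Bool.false_or] at h3
      have h4 := dfs_sound (leaf := leaf) (σ := σ) k (p + 1) h3 fun q hq hq' =>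
        hσ q (by omega) (by omega)
      rwa [show p + 1 + k = p + (k + 1) by omega] at h4

theorem mem_overL {s : ℕ} {g : ℕ → List ℕ} {x : ℕ} : ∀ {m l : ℕ}, l < m → Nat.testBit s l = true →
    x ∈ g l → x ∈ overL s g m
  | 0, l, hl, _, _ => absurd hl (by omega)
  | m + 1, l, hl, hs, hx => by
      rw [overL]
      by_cases e : l = m
      · subst e
        rw [if_pos hs]
        exact List.mem_append_left _ hx
      · have ih := mem_overL (m := m) (by omega) hs hx
        split_ifs
        · exact List.mem_append_right _ ih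
        · exact ih

theorem mem_sels {acc : ℕ} {h : ℕ → ℕ} : ∀ k p : ℕ,
    (∀ q, p ≤ q → q < p + k → h q < S.m ∧ Nat.testBit (pdig S.m acc q) (h q) = true ∧
      S.legp q (h q) (scode S.m h q) = true) →
    S.cls (scode S.m h (p + k)) ∈ S.sels acc k p (scode S.m h p)
  | 0, p, _ => by simp [sels]
  | k + 1, p, hh => by
      obtain ⟨h1, h2, h3⟩ := hh p le_rfl (by omega)
      rw [sels]
      refine mem_overL h1 h2 ?_
      rw [if_pos h3, show scode S.m h p + 2 ^ h p * 2 ^ (S.m * p) = scode S.m h (p + 1) from rfl,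
        show p + (k + 1) = p + 1 + k by omega]
      exact mem_sels k (p + 1) fun q hq hq' => hh q (by omega) (by omega)

theorem allEq_sound {L : List ℕ} (h : allEq L = true) {a b : ℕ} (ha : a ∈ L) (hb : b ∈ L) :
    a = b := by
  cases L with
  | nil => exact absurd ha (by simp)
  | cons c t =>
      rw [allEq, List.all_eq_true] at h
      have key : ∀ x ∈ c :: t, x = c := by
        intro x hx
        rcases List.mem_cons.1 hx with h1 | h1
        · exact h1
        · simpa using h x h1
      rw [key a ha, key b hb]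

/-- a palette system which passes all rules -/
structure Adm (S : Spec) (σ : ℕ → ℕ) : Prop where
  lt : ∀ q < S.n, σ q < 2 ^ S.m
  mem : ∀ q < S.n, σ q ∈ S.pals q
  ok : ∀ q < S.n, S.okp q (pcode S.m σ (q + 1)) = true

/-- a selection in a palette system which passes all rules -/
structure In (S : Spec) (σ h : ℕ → ℕ) : Prop where
  lt : ∀ q < S.n, h q < S.m
  mem : ∀ q < S.n, Nat.testBit (σ q) (h q) = true
  leg : ∀ q < S.n, S.legp q (h q) (scode S.m h q) = true

theorem leaf_sound {σ h h' : ℕ → ℕ} (hl : S.leafChk (pcode S.m σ S.n) = true)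
    (hσ : ∀ q < S.n, σ q < 2 ^ S.m) (h1 : In S σ h) (h2 : In S σ h') :
    S.cls (scode S.m h S.n) = S.cls (scode S.m h' S.n) := by
  have key : ∀ g : ℕ → ℕ, In S σ g →
      S.cls (scode S.m g S.n) ∈ S.sels (pcode S.m σ S.n) S.n 0 0 := by
    intro g hg
    have := mem_sels (S := S) (acc := pcode S.m σ S.n) (h := g) S.n 0 fun q _ hq => by
      rw [Nat.zero_add] at hq
      exact ⟨hg.lt q hq, by rw [pdig_pcode S.n hσ q hq]; exact hg.mem q hq, hg.leg q hq⟩
    rwa [Nat.zero_add] at this
  exact allEq_sound hl (key h h1) (key h' h2)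

/-- **Soundness.** -/
theorem sound (hc : S.check = true) {σ h h' : ℕ → ℕ} (hσ : Adm S σ) (h1 : In S σ h)
    (h2 : In S σ h') : S.cls (scode S.m h S.n) = S.cls (scode S.m h' S.n) := by
  have h3 := dfs_sound (S := S) (leaf := S.leafChk) (σ := σ) S.n 0 hc fun q _ hq => by
    rw [Nat.zero_add] at hq
    exact ⟨hσ.mem q hq, hσ.ok q hq⟩
  rw [Nat.zero_add] at h3
  exact leaf_sound h3 hσ.lt h1 h2

/-- **Soundness of the parts.** -/
theorem soundOn {L : List ℕ} (hn : 0 < S.n) (hc : S.checkOn L = true) {σ h h' : ℕ → ℕ}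
    (hσ : Adm S σ) (hL : σ 0 ∈ L) (h1 : In S σ h) (h2 : In S σ h') :
    S.cls (scode S.m h S.n) = S.cls (scode S.m h' S.n) := by
  rw [checkOn, List.all_eq_true] at hc
  have h3 := hc _ hL
  have e : σ 0 * 2 ^ (S.m * 0) = pcode S.m σ 1 := by simp [pcode]
  have ok0 := hσ.ok 0 hn
  rw [e, ok0, Bool.not_true, Bool.false_or] at h3
  have h4 := dfs_sound (S := S) (leaf := S.leafChk) (σ := σ) (S.n - 1) 1 h3 fun q _ hq =>
    ⟨hσ.mem q (by omega), hσ.ok q (by omega)⟩
  rw [show 1 + (S.n - 1) = S.n by omega] at h4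
  exact leaf_sound h4 hσ.lt h1 h2

theorem allL_sound {f : ℕ → Bool} : ∀ {m : ℕ}, allL f m = true → ∀ l < m, f l = true
  | 0, _, l, hl => absurd hl (by omega)
  | m + 1, h, l, hl => by
      rw [allL, Bool.and_eq_true] at h
      by_cases e : l = m
      · rw [e]; exact h.1
      · exact allL_sound h.2 l (by omega)

theorem selAll_sound' {f : ℕ → Bool} {h : ℕ → ℕ} : ∀ k p : ℕ,
    S.selAll f k p (scode S.m h p) = true →
    (∀ q, p ≤ q → q < p + k → h q < S.m ∧ S.legp q (h q) (scode S.m h q) = true) →
    f (scode S.m h (p + k)) = true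
  | 0, p, hc, _ => hc
  | k + 1, p, hc, hh => by
      obtain ⟨h1, h2⟩ := hh p le_rfl (by omega)
      rw [selAll] at hc
      have h3 := allL_sound hc (h p) h1
      rw [h2, Bool.not_true, Bool.false_or,
        show scode S.m h p + 2 ^ h p * 2 ^ (S.m * p) = scode S.m h (p + 1) from rfl] at h3
      rw [show p + (k + 1) = p + 1 + k by omega]
      exact selAll_sound' k (p + 1) h3 fun q hq hq' => hh q (by omega) (by omega)

/-- **Every legal selection passes `f`.** -/
theorem selAll_sound {f : ℕ → Bool} (hc : S.selAll f S.n 0 0 = true) {h : ℕ → ℕ}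
    (h1 : ∀ q < S.n, h q < S.m) (h2 : ∀ q < S.n, S.legp q (h q) (scode S.m h q) = true) :
    f (scode S.m h S.n) = true := by
  have := selAll_sound' (S := S) (f := f) (h := h) S.n 0 hc fun q _ hq => by
    rw [Nat.zero_add] at hq
    exact ⟨h1 q hq, h2 q hq⟩
  rwa [Nat.zero_add] at this

end Spec

/-- change of the order of the positions of a code -/
def recode (m n : ℕ) (π : ℕ → ℕ) (c : ℕ) : ℕ := pcode m (fun q => pdig m c (π q)) n

theorem pcode_congr {m : ℕ} {σ σ' : ℕ → ℕ} : ∀ {n : ℕ}, (∀ q < n, σ q = σ' q) →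
    pcode m σ n = pcode m σ' n
  | 0, _ => rfl
  | n + 1, h => by
      rw [pcode, pcode, pcode_congr fun q hq => h q (by omega), h n (by omega)]

theorem recode_pcode {m n : ℕ} {π σ : ℕ → ℕ} (hσ : ∀ q < n, σ q < 2 ^ m) (hπ : ∀ q < n, π q < n) :
    recode m n π (pcode m σ n) = pcode m (fun q => σ (π q)) n :=
  pcode_congr fun q hq => pdig_pcode n hσ (π q) (hπ q hq)

theorem recode_scode {m n : ℕ} {π h : ℕ → ℕ} (hh : ∀ q < n, h q < m) (hπ : ∀ q < n, π q < n) :
    recode m n π (scode m h n) = scode m (fun q => h (π q)) n :=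
  recode_pcode (fun q hq => two_pow_lt (hh q hq)) hπ

/-! ## Rules as masks of atoms -/

/-- an atom: a position and a letter -/
abbrev Atom := ℕ × ℕ

/-- mask of a list of atoms -/
def msk (m : ℕ) (L : List Atom) : ℕ := L.foldr (fun x a => a ||| 2 ^ (m * x.1 + x.2)) 0

theorem testBit_msk {m : ℕ} {L : List Atom} {i : ℕ} :
    (msk m L).testBit i = true ↔ ∃ x ∈ L, i = m * x.1 + x.2 := by
  induction L with
  | nil => simp [msk]
  | cons x L ih =>
      have e : msk m (x :: L) = msk m L ||| 2 ^ (m * x.1 + x.2) := rfl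
      rw [e, Nat.testBit_or, Bool.or_eq_true, ih, Nat.testBit_two_pow, decide_eq_true_eq]
      constructor
      · rintro (⟨y, h1, h2⟩ | h)
        · exact ⟨y, List.mem_cons_of_mem _ h1, h2⟩
        · exact ⟨x, List.mem_cons_self, h.symm⟩
      · rintro ⟨y, h1, h2⟩
        rcases List.mem_cons.1 h1 with h1 | h1
        · subst h1; exact Or.inr h2.symm
        · exact Or.inl ⟨y, h1, h2⟩

/-- a rule: if all atoms of the first mask are present then one atom of the second is present -/
def ruleOk (r : ℕ × ℕ) (a : ℕ) : Bool := !(Nat.land a r.1 == r.1 && Nat.land a r.2 == 0)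

theorem ruleOk_of {r : ℕ × ℕ} {a : ℕ}
    (h : (∀ i, r.1.testBit i = true → a.testBit i = true) →
      ∃ i, r.2.testBit i = true ∧ a.testBit i = true) : ruleOk r a = true := by
  unfold ruleOk
  rw [Bool.not_eq_true', Bool.and_eq_false_iff]
  by_cases h1 : Nat.land a r.1 = r.1
  · right
    obtain ⟨i, h2, h3⟩ := h fun i hi => by
      have e1 : (Nat.land a r.1).testBit i = r.1.testBit i := by rw [h1]
      rw [show Nat.land a r.1 = a &&& r.1 from rfl, Nat.testBit_and, hi, Bool.and_true] at e1
      exact e1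
    rw [beq_eq_false_iff_ne]
    intro h0
    have e2 : (Nat.land a r.2).testBit i = false := by rw [h0, Nat.zero_testBit]
    rw [show Nat.land a r.2 = a &&& r.2 from rfl, Nat.testBit_and, h2, h3] at e2
    exact absurd e2 (by simp)
  · left
    rwa [beq_eq_false_iff_ne]

/-- a rule as lists of atoms -/
abbrev Rule := List Atom × List Atom

/-- the masks of a rule -/
def mskr (m : ℕ) (r : Rule) : ℕ × ℕ := (msk m r.1, msk m r.2)

theorem ruleOk_mskr {m p : ℕ} {σ : ℕ → ℕ} (hσ : ∀ q < p, σ q < 2 ^ m) {r : Rule}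
    (hr : ∀ x ∈ r.1 ++ r.2, x.1 < p ∧ x.2 < m)
    (h : (∀ x ∈ r.1, (σ x.1).testBit x.2 = true) → ∃ x ∈ r.2, (σ x.1).testBit x.2 = true) :
    ruleOk (mskr m r) (pcode m σ p) = true := by
  refine ruleOk_of fun h1 => ?_
  obtain ⟨x, h2, h3⟩ := h fun x hx => by
    obtain ⟨a1, a2⟩ := hr x (List.mem_append_left _ hx)
    have := h1 (m * x.1 + x.2) (testBit_msk.2 ⟨x, hx, rfl⟩)
    rwa [testBit_pcode hσ a1 a2] at this
  obtain ⟨a1, a2⟩ := hr x (List.mem_append_right _ h2)
  exact ⟨m * x.1 + x.2, testBit_msk.2 ⟨x, h2, rfl⟩, by rwa [testBit_pcode hσ a1 a2]⟩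

/-- no atom of a list is in a selection -/
theorem land_scode {m p : ℕ} {h : ℕ → ℕ} (hh : ∀ q < p, h q < m) {L : List Atom}
    (hL : ∀ x ∈ L, x.1 < p ∧ x.2 < m ∧ h x.1 ≠ x.2) : Nat.land (scode m h p) (msk m L) = 0 := by
  apply Nat.eq_of_testBit_eq
  intro i
  rw [show Nat.land (scode m h p) (msk m L) = scode m h p &&& msk m L from rfl, Nat.testBit_and,
    Nat.zero_testBit, Bool.and_eq_false_iff]
  by_cases hi : (msk m L).testBit i = true
  · left
    obtain ⟨x, h1, h2⟩ := testBit_msk.1 hi
    obtain ⟨a1, a2, a3⟩ := hL x h1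
    rw [h2, testBit_scode hh a1 a2]
    exact decide_eq_false a3
  · right
    exact Bool.eq_false_iff.2 hi

/-- rules and conflicts as masks -/
structure Data where
  /-- number of positions -/
  n : ℕ
  /-- number of letters -/
  m : ℕ
  /-- allowed palettes -/
  pals : ℕ → List ℕ
  /-- rules which are checked when the palette of the position `p` is chosen -/
  rules : ℕ → List (ℕ × ℕ)
  /-- mask of the atoms before `p` which are in conflict with the letter `l` at `p` -/
  forb : ℕ → ℕ → ℕ
  /-- class table -/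
  cls : ℕ → ℕ

/-- the finite check of the data -/
def Data.spec (D : Data) : Spec where
  n := D.n
  m := D.m
  pals := D.pals
  okp p a := (D.rules p).all fun r => ruleOk r a
  legp p l c := Nat.land c (D.forb p l) == 0
  cls := D.cls

/-- the rules and conflicts as lists of atoms -/
structure Text where
  /-- rules with all atoms at the positions `≤ p` -/
  R : ℕ → List Rule
  /-- atoms before `p` in conflict with the letter `l` at `p` -/
  F : ℕ → ℕ → List Atom

/-- the masks are the masks of the text (decidable) -/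
structure Agree (D : Data) (X : Text) : Prop where
  rules : ∀ q < D.n, D.rules q = (X.R q).map (mskr D.m)
  bound : ∀ q < D.n, ∀ r ∈ X.R q, ∀ x ∈ r.1 ++ r.2, x.1 < q + 1 ∧ x.2 < D.m
  forb : ∀ q < D.n, ∀ l < D.m, D.forb q l = msk D.m (X.F q l)
  fbound : ∀ q < D.n, ∀ l < D.m, ∀ x ∈ X.F q l, x.1 < q ∧ x.2 < D.m

/-- a palette system which satisfies the rules -/
structure Pal (D : Data) (X : Text) (σ : ℕ → ℕ) : Prop where
  lt : ∀ q < D.n, σ q < 2 ^ D.m
  mem : ∀ q < D.n, σ q ∈ D.pals q
  rule : ∀ q < D.n, ∀ r ∈ X.R q, (∀ x ∈ r.1, (σ x.1).testBit x.2 = true) →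
    ∃ x ∈ r.2, (σ x.1).testBit x.2 = true

/-- a legal selection -/
structure Leg (D : Data) (X : Text) (h : ℕ → ℕ) : Prop where
  lt : ∀ q < D.n, h q < D.m
  free : ∀ q < D.n, ∀ x ∈ X.F q (h q), h x.1 ≠ x.2

theorem Pal.adm {D : Data} {X : Text} {σ : ℕ → ℕ} (A : Agree D X) (h : Pal D X σ) :
    D.spec.Adm σ where
  lt := h.lt
  mem := h.mem
  ok := by
    intro q hq
    change ((D.rules q).all fun r => ruleOk r (pcode D.m σ (q + 1))) = true
    rw [A.rules q hq, List.all_map, List.all_eq_true]
    intro r hr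
    refine ruleOk_mskr (fun i hi => h.lt i ?_) (A.bound q hq r hr) (h.rule q hq r hr)
    have : q < D.n := hq
    omega

theorem Leg.legp {D : Data} {X : Text} {h : ℕ → ℕ} (A : Agree D X) (H : Leg D X h) {q : ℕ}
    (hq : q < D.n) : D.spec.legp q (h q) (scode D.m h q) = true := by
  change (Nat.land (scode D.m h q) (D.forb q (h q)) == 0) = true
  rw [beq_iff_eq, A.forb q hq (h q) (H.lt q hq)]
  refine land_scode (fun i hi => H.lt i (by omega)) fun x hx => ?_
  obtain ⟨a1, a2⟩ := A.fbound q hq (h q) (H.lt q hq) x hx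
  exact ⟨a1, a2, H.free q hq x hx⟩

/-- **Soundness, with lists.** -/
theorem Data.sound {D : Data} {X : Text} (A : Agree D X) (hc : D.spec.check = true)
    {σ h h' : ℕ → ℕ} (hσ : Pal D X σ) (H : Leg D X h) (H' : Leg D X h')
    (h1 : ∀ q < D.n, (σ q).testBit (h q) = true) (h2 : ∀ q < D.n, (σ q).testBit (h' q) = true) :
    D.cls (scode D.m h D.n) = D.cls (scode D.m h' D.n) :=
  Spec.sound (S := D.spec) hc (hσ.adm A) ⟨H.lt, h1, fun _ hq => H.legp A hq⟩
    ⟨H'.lt, h2, fun _ hq => H'.legp A hq⟩

/-- **Every legal selection passes `f`, with lists.** -/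
theorem Data.selAll {D : Data} {X : Text} (A : Agree D X) {f : ℕ → Bool}
    (hc : D.spec.selAll f D.n 0 0 = true) {h : ℕ → ℕ} (H : Leg D X h) :
    f (scode D.m h D.n) = true :=
  Spec.selAll_sound (S := D.spec) hc H.lt fun _ hq => H.legp A hq

/-! ## The pair form

If all rules are *windows* (lists of atoms which are never all present) it is enough to look at pairs
of legal selections whose union contains no window. -/

/-- windows and conflicts as masks -/
structure Win where
  /-- number of positions -/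
  n : ℕ
  /-- number of letters -/
  m : ℕ
  /-- windows which are checked when the letters at the position `p` are chosen -/
  wins : ℕ → List ℕ
  /-- mask of the atoms before `p` which are in conflict with the letter `l` at `p` -/
  forb : ℕ → ℕ → ℕ
  /-- class table -/
  cls : ℕ → ℕ

namespace Win

variable (D : Win)

/-- the windows at `p` are not contained in `u` -/
def okw (p u : ℕ) : Bool := (D.wins p).all fun w => Nat.land u w != w

/-- the letter `l` at `p` is legal after `c` -/
def leg (p l c : ℕ) : Bool := Nat.land c (D.forb p l) == 0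

/-- search over the pairs of legal selections; `b`: the selections are already different -/
def pair : Bool → ℕ → ℕ → ℕ → ℕ → ℕ → Bool
  | _, 0, _, c, c', _ => D.cls c == D.cls c'
  | b, k + 1, p, c, c', u => Spec.allL (fun l => !(D.leg p l c) || Spec.allL (fun l' =>
      (!b && Nat.blt l' l) || !(D.leg p l' c') ||
        (let a := 2 ^ l * 2 ^ (D.m * p)
         let a' := 2 ^ l' * 2 ^ (D.m * p)
         let u' := Nat.lor (Nat.lor u a) a'
         !(D.okw p u') || pair (b || l != l') k (p + 1) (c + a) (c' + a') u')) D.m) D.m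

/-- search over the legal selections -/
def selAll (f : ℕ → Bool) : ℕ → ℕ → ℕ → Bool
  | 0, _, c => f c
  | k + 1, p, c => Spec.allL (fun l => !(D.leg p l c) || selAll f k (p + 1) (c + 2 ^ l * 2 ^ (D.m * p)))
      D.m

/-- the windows and conflicts as lists of atoms -/
structure Text where
  /-- windows with all atoms at the positions `≤ p` -/
  W : ℕ → List (List Atom)
  /-- atoms before `p` in conflict with the letter `l` at `p` -/
  F : ℕ → ℕ → List Atom

/-- the masks are the masks of the text (decidable) -/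
structure Agree (D : Win) (X : Text) : Prop where
  wins : ∀ q < D.n, D.wins q = (X.W q).map (msk D.m)
  bound : ∀ q < D.n, ∀ w ∈ X.W q, ∀ x ∈ w, x.1 < q + 1 ∧ x.2 < D.m
  forb : ∀ q < D.n, ∀ l < D.m, D.forb q l = msk D.m (X.F q l)
  fbound : ∀ q < D.n, ∀ l < D.m, ∀ x ∈ X.F q l, x.1 < q ∧ x.2 < D.m

/-- a legal selection -/
structure Leg (D : Win) (X : Text) (h : ℕ → ℕ) : Prop where
  lt : ∀ q < D.n, h q < D.m
  free : ∀ q < D.n, ∀ x ∈ X.F q (h q), h x.1 ≠ x.2

/-- no window is contained in the union of two selections -/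
def NoWin (D : Win) (X : Text) (h h' : ℕ → ℕ) : Prop :=
  ∀ q < D.n, ∀ w ∈ X.W q, ¬ ∀ x ∈ w, h x.1 = x.2 ∨ h' x.1 = x.2

variable {D}

theorem NoWin.symm {X : Text} {h h' : ℕ → ℕ} (H : NoWin D X h h') : NoWin D X h' h :=
  fun q hq w hw hx => H q hq w hw fun x hx' => (hx x hx').symm

theorem Leg.leg {X : Text} {h : ℕ → ℕ} (A : Agree D X) (H : Leg D X h) {q : ℕ}
    (hq : q < D.n) : D.leg q (h q) (scode D.m h q) = true := by
  rw [Win.leg, beq_iff_eq, A.forb q hq (h q) (H.lt q hq)]
  refine land_scode (fun i hi => H.lt i (by omega)) fun x hx => ?_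
  obtain ⟨a1, a2⟩ := A.fbound q hq (h q) (H.lt q hq) x hx
  exact ⟨a1, a2, H.free q hq x hx⟩

/-- the union of two codes -/
def ucode (m : ℕ) (h h' : ℕ → ℕ) (p : ℕ) : ℕ := Nat.lor (scode m h p) (scode m h' p)

theorem add_lor {m p l c : ℕ} (hc : c < 2 ^ (m * p)) :
    c + 2 ^ l * 2 ^ (m * p) = Nat.lor c (2 ^ l * 2 ^ (m * p)) := by
  rw [mul_comm (2 ^ l), Nat.add_comm]
  exact Nat.two_pow_add_eq_or_of_lt hc (2 ^ l) |>.trans (Nat.or_comm _ _)

theorem ucode_succ {m : ℕ} {h h' : ℕ → ℕ} {p : ℕ} (hh : ∀ q < p, h q < m) (hh' : ∀ q < p, h' q < m) :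
    ucode m h h' (p + 1) = Nat.lor (Nat.lor (ucode m h h' p) (2 ^ h p * 2 ^ (m * p)))
      (2 ^ h' p * 2 ^ (m * p)) := by
  have e1 : scode m h (p + 1) = Nat.lor (scode m h p) (2 ^ h p * 2 ^ (m * p)) :=
    add_lor (pcode_lt p fun q hq => two_pow_lt (hh q hq))
  have e2 : scode m h' (p + 1) = Nat.lor (scode m h' p) (2 ^ h' p * 2 ^ (m * p)) :=
    add_lor (pcode_lt p fun q hq => two_pow_lt (hh' q hq))
  rw [ucode, e1, e2, ucode]
  change (scode m h p ||| 2 ^ h p * 2 ^ (m * p)) ||| (scode m h' p ||| 2 ^ h' p * 2 ^ (m * p)) =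
    ((scode m h p ||| scode m h' p) ||| 2 ^ h p * 2 ^ (m * p)) ||| 2 ^ h' p * 2 ^ (m * p)
  simp only [Nat.or_assoc, Nat.or_left_comm (2 ^ h p * 2 ^ (m * p))]

theorem okw_of {X : Text} (A : Agree D X) {h h' : ℕ → ℕ} (H : Leg D X h) (H' : Leg D X h')
    (N : NoWin D X h h') {q : ℕ} (hq : q < D.n) : D.okw q (ucode D.m h h' (q + 1)) = true := by
  rw [okw, A.wins q hq, List.all_map, List.all_eq_true]
  intro w hw
  change (Nat.land (ucode D.m h h' (q + 1)) (msk D.m w) != msk D.m w) = true
  rw [bne_iff_ne]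
  intro he
  refine N q hq w hw fun x hx => ?_
  obtain ⟨a1, a2⟩ := A.bound q hq w hw x hx
  have b1 : (msk D.m w).testBit (D.m * x.1 + x.2) = true := testBit_msk.2 ⟨x, hx, rfl⟩
  have b2 : (Nat.land (ucode D.m h h' (q + 1)) (msk D.m w)).testBit (D.m * x.1 + x.2) = true := by
    rw [he]; exact b1
  rw [show Nat.land (ucode D.m h h' (q + 1)) (msk D.m w) =
    (scode D.m h (q + 1) ||| scode D.m h' (q + 1)) &&& msk D.m w from rfl, Nat.testBit_and, b1,
    Bool.and_true, Nat.testBit_or, testBit_scode (fun i hi => H.lt i (by omega)) a1 a2,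
    testBit_scode (fun i hi => H'.lt i (by omega)) a1 a2, Bool.or_eq_true, decide_eq_true_eq,
    decide_eq_true_eq] at b2
  exact b2

theorem pair_sound' {X : Text} (A : Agree D X) : ∀ (k p : ℕ), p + k = D.n → ∀ (b : Bool)
    {h h' : ℕ → ℕ}, Leg D X h → Leg D X h' → NoWin D X h h' →
    D.pair b k p (scode D.m h p) (scode D.m h' p) (ucode D.m h h' p) = true →
    (b = false → scode D.m h p = scode D.m h' p) →
    D.cls (scode D.m h D.n) = D.cls (scode D.m h' D.n)
  | 0, p, hk, b, h, h', _, _, _, hc, _ => by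
      rw [pair, beq_iff_eq] at hc
      rwa [← hk, Nat.add_zero]
  | k + 1, p, hk, b, h, h', H, H', N, hc, hb => by
      have hp : p < D.n := by omega
      -- the step for an ordered pair
      have step : ∀ {g g' : ℕ → ℕ}, Leg D X g → Leg D X g' → NoWin D X g g' →
          D.pair b (k + 1) p (scode D.m g p) (scode D.m g' p) (ucode D.m g g' p) = true →
          (b = false → scode D.m g p = scode D.m g' p) → (b = false → g p ≤ g' p) →
          D.cls (scode D.m g D.n) = D.cls (scode D.m g' D.n) := by
        intro g g' G G' N' hc' hb' hle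
        rw [pair] at hc'
        have h1 := Spec.allL_sound hc' (g p) (G.lt p hp)
        rw [G.leg A hp, Bool.not_true, Bool.false_or] at h1
        have h2 := Spec.allL_sound h1 (g' p) (G'.lt p hp)
        have h3 : (!b && Nat.blt (g' p) (g p)) = false := by
          cases b with
          | true => simp
          | false =>
              have : g p ≤ g' p := hle rfl
              simp only [Bool.not_false, Bool.true_and]
              rw [Bool.eq_false_iff]
              intro h4
              rw [Nat.blt_eq] at h4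
              omega
        rw [h3, G'.leg A hp, Bool.not_true, Bool.false_or, Bool.false_or] at h2
        simp only at h2
        rw [← ucode_succ (fun q hq => G.lt q (by omega)) (fun q hq => G'.lt q (by omega)),
          okw_of A G G' N' hp, Bool.not_true, Bool.false_or] at h2
        refine pair_sound' A k (p + 1) (by omega) (b || g p != g' p) G G' N' h2 ?_
        intro h5
        rw [Bool.or_eq_false_iff, bne_eq_false_iff_eq] at h5
        change scode D.m g p + 2 ^ g p * 2 ^ (D.m * p) = scode D.m g' p + 2 ^ g' p * 2 ^ (D.m * p)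
        rw [hb' h5.1, h5.2]
      rcases Nat.le_total (h p) (h' p) with hle | hle
      · exact step H H' N hc hb fun _ => hle
      · cases b with
        | true => exact step H H' N hc hb fun e => absurd e (by simp)
        | false =>
            have e := hb rfl
            have eu : ucode D.m h' h p = ucode D.m h h' p := by unfold ucode; rw [e]
            refine (step H' H N.symm ?_ (fun _ => e.symm) fun _ => hle).symm
            rw [eu, ← e]
            rw [← e] at hc
            exact hc

/-- **Soundness of the pair form.** -/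
theorem pair_sound {X : Text} (A : Agree D X) (hc : D.pair false D.n 0 0 0 0 = true) {h h' : ℕ → ℕ}
    (H : Leg D X h) (H' : Leg D X h') (N : NoWin D X h h') :
    D.cls (scode D.m h D.n) = D.cls (scode D.m h' D.n) := by
  have e : ucode D.m h h' 0 = 0 := by
    change (0 ||| 0 : ℕ) = 0
    exact Nat.or_zero 0
  refine pair_sound' A D.n 0 (Nat.zero_add _) false H H' N ?_ fun _ => rfl
  rw [e]
  exact hc

theorem selAll_sound' {X : Text} (A : Agree D X) {f : ℕ → Bool} {h : ℕ → ℕ} (H : Leg D X h) :
    ∀ k p : ℕ, p + k = D.n → D.selAll f k p (scode D.m h p) = true → f (scode D.m h D.n) = true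
  | 0, p, hk, hc => by rwa [← hk]
  | k + 1, p, hk, hc => by
      have hp : p < D.n := by omega
      rw [selAll] at hc
      have h3 := Spec.allL_sound hc (h p) (H.lt p hp)
      rw [H.leg A hp, Bool.not_true, Bool.false_or] at h3
      exact selAll_sound' A H k (p + 1) (by omega) h3

/-- **Every legal selection passes `f`.** -/
theorem selAll_sound {X : Text} (A : Agree D X) {f : ℕ → Bool} (hc : D.selAll f D.n 0 0 = true)
    {h : ℕ → ℕ} (H : Leg D X h) : f (scode D.m h D.n) = true :=
  selAll_sound' A H D.n 0 (Nat.zero_add _) hc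

end Win

/-! ## Tables -/

/-- binary search in a sorted table: entry `i` is `(T >>> (w * i)) % 2 ^ w = key + 2 ^ kw * value`;
returns the value, `0` if the key is not found -/
def look (T w kw key : ℕ) : ℕ → ℕ → ℕ → ℕ
  | 0, _, _ => 0
  | fuel + 1, lo, hi =>
      if hi ≤ lo then 0 else
        let mid := (lo + hi) / 2
        let e := (T / 2 ^ (w * mid)) % 2 ^ w
        let k := e % 2 ^ kw
        if k == key then e / 2 ^ kw else
          if key < k then look T w kw key fuel lo mid else look T w kw key fuel (mid + 1) hi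

end Vale.Agent.P032.R2.H741
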