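import Vale.Agent.P032.R2.H741.Cert

/-!
# P032, W4.CERT: the closure form of the check

Positions `0 .. n-1`, letters `0 .. m-1`, codes as in `Cert.lean`.  `conf p l` is the mask of the atoms
which are in conflict with the letter `l` at `p`; windows are lists of atoms which are never all
present at one time.  A *forced move* of a legal selection: take a new letter at one position, and
then new letters exactly at the positions whose old letter is in conflict with a new letter.

`Clo.sound`: if the class is invariant under all forced moves whose union contains no window, then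
two legal selections whose union contains no window have the same class.
-/

set_option autoImplicit false

namespace Vale.Agent.P032.R2.H741

/-- the data of the closure form -/
structure Clo where
  /-- number of positions -/
  n : ℕ
  /-- number of letters -/
  m : ℕ
  /-- mask of the atoms in conflict with a letter at a position -/
  conf : ℕ → ℕ → ℕ
  /-- masks of the windows -/
  wins : List ℕ

namespace Clo

variable (D : Clo)

/-- completion of a move: `F` test of the new selection, `c` code of the old selection, `rem` the old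
letters which are still there, `nw` the new letters, `G` the atoms in conflict with the new letters -/
def clo (F : ℕ → Bool) (c : ℕ) : ℕ → ℕ → ℕ → ℕ → Bool
  | 0, _, _, _ => false
  | k + 1, rem, nw, G =>
      if Nat.beq (Nat.land rem G) 0 then
        F (rem + nw) || D.wins.any fun w => Nat.beq (Nat.land (Nat.lor c nw) w) w
      else
        Spec.allL (fun l' => Nat.beq l' (Nat.log2 (Nat.land rem G) % D.m) ||
          Nat.testBit G (D.m * (Nat.log2 (Nat.land rem G) / D.m) + l') ||
          clo F c k (rem - 2 ^ Nat.log2 (Nat.land rem G))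
            (nw + 2 ^ l' * 2 ^ (D.m * (Nat.log2 (Nat.land rem G) / D.m)))
            (Nat.lor G (D.conf (Nat.log2 (Nat.land rem G) / D.m) l'))) D.m

/-- all forced moves of the selection with the code `c`; the leaf test `L` gets the start position, the
old code and the new code -/
def moves (L : ℕ → ℕ → ℕ → Bool) (c : ℕ) : Bool :=
  Spec.allL (fun p => Spec.allL (fun l' => Nat.testBit (pdig D.m c p) l' ||
    D.clo (L p c) c D.n (c - pdig D.m c p * 2 ^ (D.m * p)) (2 ^ l' * 2 ^ (D.m * p))
      (D.conf p l')) D.m) D.n

/-- search over the legal selections -/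
def selAll (f : ℕ → Bool) : ℕ → ℕ → ℕ → Bool
  | 0, _, c => f c
  | k + 1, p, c => Spec.allL (fun l => !(Nat.beq (Nat.land c (D.conf p l)) 0) ||
      selAll f k (p + 1) (c + 2 ^ l * 2 ^ (D.m * p))) D.m

/-- the complete check -/
def check (L : ℕ → ℕ → ℕ → Bool) : Bool := D.selAll (D.moves L) D.n 0 0

/-- the leaf test of a class table -/
def same (cls : ℕ → ℕ) (_ c c' : ℕ) : Bool := Nat.beq (cls c') (cls c)

/-- a legal selection -/
structure Leg (D : Clo) (h : ℕ → ℕ) : Prop where
  lt : ∀ q < D.n, h q < D.m
  free : ∀ p < D.n, ∀ q < D.n, (D.conf p (h p)).testBit (D.m * q + h q) = false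

/-- the conflict masks are symmetric -/
def Symm (D : Clo) : Prop := ∀ p < D.n, ∀ l < D.m, ∀ q < D.n, ∀ l' < D.m,
  (D.conf p l).testBit (D.m * q + l') = (D.conf q l').testBit (D.m * p + l)

/-- no window is contained in the union of two selections -/
def NoWin (D : Clo) (h h' : ℕ → ℕ) : Prop :=
  ∀ w ∈ D.wins, Nat.land (Nat.lor (scode D.m h D.n) (scode D.m h' D.n)) w ≠ w

variable {D}

theorem pcode_add {m : ℕ} {σ τ : ℕ → ℕ} : ∀ n : ℕ,
    pcode m (fun q => σ q + τ q) n = pcode m σ n + pcode m τ n
  | 0 => rfl
  | n + 1 => by rw [pcode, pcode, pcode, pcode_add n]; ring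

theorem pcode_single {m q x : ℕ} : ∀ {n : ℕ}, q < n →
    pcode m (fun q' => if q' = q then x else 0) n = x * 2 ^ (m * q)
  | 0, h => absurd h (by omega)
  | n + 1, h => by
      rw [pcode]
      by_cases e : n = q
      · subst e
        have : pcode m (fun q' => if q' = n then x else 0) n = 0 := by
          have h0 : ∀ k ≤ n, pcode m (fun q' => if q' = n then x else 0) k = 0 := by
            intro k
            induction k with
            | zero => intro _; rfl
            | succ k ih =>
                intro hk
                rw [pcode, ih (by omega), if_neg (by omega)]; simp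
          exact h0 n le_rfl
        rw [this]; simp
      · rw [pcode_single (n := n) (by omega), if_neg e]; simp

/-- a selection on a set of positions -/
def part (m n : ℕ) (h : ℕ → ℕ) (P : ℕ → Bool) : ℕ := pcode m (fun q => if P q then 2 ^ h q else 0) n

theorem part_lt {m n : ℕ} {h : ℕ → ℕ} {P : ℕ → Bool} (hh : ∀ q < n, h q < m) :
    ∀ q < n, (if P q then 2 ^ h q else 0) < 2 ^ m := by
  intro q hq
  split_ifs
  · exact two_pow_lt (hh q hq)
  · positivity

theorem testBit_part {m n : ℕ} {h : ℕ → ℕ} {P : ℕ → Bool} (hh : ∀ q < n, h q < m) {q l : ℕ}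
    (hq : q < n) (hl : l < m) :
    (part m n h P).testBit (m * q + l) = true ↔ P q = true ∧ h q = l := by
  rw [part, testBit_pcode (part_lt hh) hq hl]
  by_cases hP : P q = true
  · rw [if_pos hP, Nat.testBit_two_pow, decide_eq_true_eq]
    exact ⟨fun h => ⟨hP, h⟩, fun h => h.2⟩
  · rw [if_neg hP, Nat.zero_testBit]
    exact ⟨fun h => absurd h (by simp), fun h => absurd h.1 hP⟩

/-- every bit of a code is an atom -/
theorem bit_atom {m n : ℕ} {σ : ℕ → ℕ} (hσ : ∀ q < n, σ q < 2 ^ m) {i : ℕ}
    (hi : (pcode m σ n).testBit i = true) : 0 < m ∧ i / m < n ∧ i = m * (i / m) + i % m ∧ i % m < m := by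
  have h1 : i < m * n := by
    by_contra hc
    have h2 : pcode m σ n < 2 ^ i := lt_of_lt_of_le (pcode_lt n hσ)
      (Nat.pow_le_pow_right (by norm_num) (by omega))
    rw [Nat.testBit_lt_two_pow h2] at hi
    exact absurd hi (by simp)
  have hm : 0 < m := by
    rcases Nat.eq_zero_or_pos m with h0 | h0
    · subst h0; omega
    · exact h0
  exact ⟨hm, Nat.div_lt_of_lt_mul h1, (Nat.div_add_mod i m).symm, Nat.mod_lt _ hm⟩

/-- the mixture of two selections -/
def mix (h h' : ℕ → ℕ) (P : ℕ → Bool) : ℕ → ℕ := fun q => if P q then h' q else h q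

theorem part_mix {m n : ℕ} {h h' : ℕ → ℕ} {P : ℕ → Bool} :
    part m n h (fun q => !P q) + part m n h' P = scode m (mix h h' P) n := by
  rw [part, part, ← pcode_add, scode]
  refine pcode_congr fun q _ => ?_
  unfold mix
  cases P q <;> simp

/-- the invariant of the completion -/
structure St (D : Clo) (h h' : ℕ → ℕ) (P : ℕ → Bool) (rem nw G : ℕ) : Prop where
  sub : ∀ q, P q = true → q < D.n ∧ h q ≠ h' q
  hrem : rem = part D.m D.n h fun q => !P q
  hnw : nw = part D.m D.n h' P
  hG : ∀ i, G.testBit i = true ↔ ∃ p, P p = true ∧ (D.conf p (h' p)).testBit i = true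

theorem lor_bit {a b i : ℕ} : (Nat.lor a b).testBit i = (a.testBit i || b.testBit i) :=
  Nat.testBit_or a b i

theorem land_bit {a b i : ℕ} : (Nat.land a b).testBit i = (a.testBit i && b.testBit i) :=
  Nat.testBit_and a b i

theorem scode_or_mix {m n : ℕ} {h h' : ℕ → ℕ} {P : ℕ → Bool} (hh : ∀ q < n, h q < m)
    (hh' : ∀ q < n, h' q < m) :
    Nat.lor (scode m h n) (part m n h' P) = Nat.lor (scode m h n) (scode m (mix h h' P) n) := by
  apply Nat.eq_of_testBit_eq
  intro i
  have hm' : ∀ q < n, mix h h' P q < m := by
    intro q hq; unfold mix; split_ifs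
    · exact hh' q hq
    · exact hh q hq
  rw [lor_bit, lor_bit, Bool.eq_iff_iff, Bool.or_eq_true, Bool.or_eq_true]
  have key : ∀ {g : ℕ → ℕ}, (∀ q < n, g q < m) → ((scode m g n).testBit i = true →
      0 < m ∧ i / m < n ∧ i = m * (i / m) + i % m ∧ i % m < m) := fun hg h1 =>
    bit_atom (fun q hq => two_pow_lt (hg q hq)) h1
  constructor
  · rintro (h1 | h1)
    · exact Or.inl h1
    · obtain ⟨b0, b1, b2, b3⟩ := bit_atom (part_lt hh') h1
      rw [b2, testBit_part hh' b1 b3] at h1
      right
      rw [b2, testBit_scode hm' b1 b3, decide_eq_true_eq]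
      unfold mix
      rw [if_pos h1.1]; exact h1.2
  · rintro (h1 | h1)
    · exact Or.inl h1
    · obtain ⟨b0, b1, b2, b3⟩ := key hm' h1
      rw [b2, testBit_scode hm' b1 b3, decide_eq_true_eq] at h1
      unfold mix at h1
      by_cases hP : P (i / m) = true
      · right
        rw [if_pos hP] at h1
        rw [b2, testBit_part hh' b1 b3]; exact ⟨hP, h1⟩
      · left
        rw [if_neg hP] at h1
        rw [b2, testBit_scode hh b1 b3, decide_eq_true_eq]; exact h1

/-- a union which is contained in a union without windows has no windows -/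
theorem noWin_of_sub {D : Clo} {a b : ℕ} (h : ∀ w ∈ D.wins, Nat.land b w ≠ w)
    (hab : ∀ i, a.testBit i = true → b.testBit i = true) : ∀ w ∈ D.wins, Nat.land a w ≠ w := by
  intro w hw he
  refine h w hw (Nat.eq_of_testBit_eq fun i => ?_)
  have e1 : (Nat.land a w).testBit i = w.testBit i := by rw [he]
  rw [land_bit] at e1 ⊢
  cases hwi : w.testBit i with
  | false => simp
  | true =>
      rw [hwi, Bool.and_true] at e1
      rw [hab i e1]; rfl

theorem mix_bit {m n : ℕ} {h h' : ℕ → ℕ} {P : ℕ → Bool} (hh : ∀ q < n, h q < m)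
    (hh' : ∀ q < n, h' q < m) {i : ℕ} (hi : (scode m (mix h h' P) n).testBit i = true) :
    (Nat.lor (scode m h n) (scode m h' n)).testBit i = true := by
  have hm' : ∀ q < n, mix h h' P q < m := by
    intro q hq; unfold mix; split_ifs
    · exact hh' q hq
    · exact hh q hq
  obtain ⟨b0, b1, b2, b3⟩ := bit_atom (fun q hq => two_pow_lt (hm' q hq)) hi
  change (scode m (mix h h' P) n).testBit i = true at hi
  rw [b2, testBit_scode hm' b1 b3, decide_eq_true_eq] at hi
  rw [lor_bit, Bool.or_eq_true]
  unfold mix at hi
  by_cases hP : P (i / m) = true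
  · right
    rw [if_pos hP] at hi
    rw [b2, testBit_scode hh' b1 b3, decide_eq_true_eq]; exact hi
  · left
    rw [if_neg hP] at hi
    rw [b2, testBit_scode hh b1 b3, decide_eq_true_eq]; exact hi

theorem part_insert {m n : ℕ} {h : ℕ → ℕ} {P : ℕ → Bool} {q : ℕ} (hq : q < n) (hP : P q = false) :
    part m n h (fun x => P x || x == q) = part m n h P + 2 ^ h q * 2 ^ (m * q) := by
  rw [← pcode_single (m := m) (x := 2 ^ h q) hq, part, part, ← pcode_add]
  refine pcode_congr fun x _ => ?_
  by_cases e : x = q
  · subst e; simp [hP]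
  · simp [e]

theorem part_erase {m n : ℕ} {h : ℕ → ℕ} {P : ℕ → Bool} {q : ℕ} (hq : q < n) (hP : P q = false) :
    part m n h (fun x => !(P x || x == q)) = part m n h (fun x => !P x) - 2 ^ h q * 2 ^ (m * q) := by
  have e : part m n h (fun x => !P x) =
      part m n h (fun x => !(P x || x == q)) + 2 ^ h q * 2 ^ (m * q) := by
    rw [← pcode_single (m := m) (x := 2 ^ h q) hq, part, part, ← pcode_add]
    refine pcode_congr fun x _ => ?_
    by_cases e : x = q
    · subst e; simp [hP]
    · simp [e]
  rw [e, Nat.add_sub_cancel]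

theorem St.leg {D : Clo} {h h' : ℕ → ℕ} {P : ℕ → Bool} {rem nw G : ℕ} (H : Leg D h) (H' : Leg D h')
    (S : Symm D) (st : St D h h' P rem nw G) (h0 : Nat.land rem G = 0) : Leg D (mix h h' P) where
  lt := by
    intro q hq; unfold mix; split_ifs
    · exact H'.lt q hq
    · exact H.lt q hq
  free := by
    have key : ∀ p < D.n, ∀ q < D.n, P p = true → P q = false →
        (D.conf p (h' p)).testBit (D.m * q + h q) = false := by
      intro p hp q hq hPp hPq
      by_contra hc
      rw [Bool.not_eq_false] at hc
      have hG : G.testBit (D.m * q + h q) = true := (st.hG _).2 ⟨p, hPp, hc⟩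
      have hr : rem.testBit (D.m * q + h q) = true := by
        rw [st.hrem, testBit_part H.lt hq (H.lt q hq)]
        simp [hPq]
      have e1 : (Nat.land rem G).testBit (D.m * q + h q) = false := by rw [h0, Nat.zero_testBit]
      rw [land_bit, hr, hG] at e1
      exact absurd e1 (by simp)
    intro p hp q hq
    unfold mix
    cases hPp : P p <;> cases hPq : P q
    · simpa using H.free p hp q hq
    · have := key q hq p hp hPq hPp
      rw [S q hq (h' q) (H'.lt q hq) p hp (h p) (H.lt p hp)] at this
      simpa using this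
    · simpa using key p hp q hq hPp hPq
    · simpa using H'.free p hp q hq

/-- **Completion.** -/
theorem clo_sound {h h' : ℕ → ℕ} (H : Leg D h) (H' : Leg D h') (S : Symm D)
    (N : NoWin D h h') {F : ℕ → Bool} : ∀ (k : ℕ) (P : ℕ → Bool) {rem nw G : ℕ},
    St D h h' P rem nw G → D.clo F (scode D.m h D.n) k rem nw G = true →
    ∃ P' : ℕ → Bool, (∀ q, P q = true → P' q = true) ∧
      (∀ q, P' q = true → q < D.n ∧ h q ≠ h' q) ∧ Leg D (mix h h' P') ∧
      F (scode D.m (mix h h' P') D.n) = true
  | 0, P, rem, nw, G, _, hc => by rw [clo] at hc; exact absurd hc (by simp)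
  | k + 1, P, rem, nw, G, st, hc => by
      rw [clo] at hc
      by_cases h0 : Nat.land rem G = 0
      · rw [if_pos (by rw [h0]; rfl)] at hc
        refine ⟨P, fun _ hq => hq, st.sub, st.leg H H' S h0, ?_⟩
        have e : rem + nw = scode D.m (mix h h' P) D.n := by
          rw [st.hrem, st.hnw, part_mix]
        rcases Bool.or_eq_true_iff.1 hc with h1 | h1
        · rw [← e]; exact h1
        · exfalso
          rw [List.any_eq_true] at h1
          obtain ⟨w, hw, h2⟩ := h1
          have h3 := Nat.eq_of_beq_eq_true h2
          refine noWin_of_sub N (a := Nat.lor (scode D.m h D.n) nw) ?_ w hw h3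
          intro i hi
          rw [st.hnw, scode_or_mix H.lt H'.lt, lor_bit, Bool.or_eq_true] at hi
          rcases hi with hi | hi
          · rw [lor_bit, hi, Bool.true_or]
          · exact mix_bit H.lt H'.lt hi
      · rw [if_neg (by
          intro h1
          exact h0 (Nat.eq_of_beq_eq_true h1))] at hc
        have hb := Nat.testBit_log2 h0
        set i := Nat.log2 (Nat.land rem G) with hi
        rw [land_bit, Bool.and_eq_true] at hb
        obtain ⟨hb1, hb2⟩ := hb
        have hb3 := hb1
        rw [st.hrem] at hb3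
        obtain ⟨b0, b1, b2, b3⟩ := bit_atom (part_lt H.lt) hb3
        rw [b2, testBit_part H.lt b1 b3] at hb3
        obtain ⟨c1, c2⟩ := hb3
        set q := i / D.m with hq
        have c1' : P q = false := by simpa using c1
        obtain ⟨p, hp1, hp2⟩ := (st.hG i).1 hb2
        have hpn := (st.sub p hp1).1
        have hne : h q ≠ h' q := by
          intro he
          have := H'.free p hpn q b1
          rw [← he, c2, ← b2, hp2] at this
          exact absurd this (by simp)
        have hl := Spec.allL_sound hc (h' q) (H'.lt q b1)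
        have e1 : Nat.beq (h' q) (i % D.m) = false := by
          rw [Bool.eq_false_iff]
          intro h1
          exact hne (c2.trans (Nat.eq_of_beq_eq_true h1).symm)
        have e2 : Nat.testBit G (D.m * q + h' q) = false := by
          rw [Bool.eq_false_iff]
          intro h1
          obtain ⟨p', h2, h3⟩ := (st.hG _).1 h1
          rw [H'.free p' (st.sub p' h2).1 q b1] at h3
          exact absurd h3 (by simp)
        rw [e1, e2, Bool.false_or, Bool.false_or] at hl
        have e3 : 2 ^ i = 2 ^ h q * 2 ^ (D.m * q) := by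
          rw [← pow_add, c2, Nat.add_comm]; exact congrArg _ b2
        rw [e3] at hl
        have hst : St D h h' (fun x => P x || x == q) (rem - 2 ^ h q * 2 ^ (D.m * q))
            (nw + 2 ^ h' q * 2 ^ (D.m * q)) (Nat.lor G (D.conf q (h' q))) := by
          refine ⟨?_, ?_, ?_, ?_⟩
          · intro x hx
            rcases Bool.or_eq_true_iff.1 hx with h1 | h1
            · exact st.sub x h1
            · rw [beq_iff_eq] at h1; subst h1; exact ⟨b1, hne⟩
          · rw [part_erase b1 c1', st.hrem]
          · rw [part_insert b1 c1', st.hnw]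
          · intro j
            rw [lor_bit, Bool.or_eq_true, st.hG j]
            constructor
            · rintro (⟨p', h1, h2⟩ | h1)
              · exact ⟨p', by simp [h1], h2⟩
              · exact ⟨q, by simp, h1⟩
            · rintro ⟨p', h1, h2⟩
              rcases Bool.or_eq_true_iff.1 h1 with h1 | h1
              · exact Or.inl ⟨p', h1, h2⟩
              · rw [beq_iff_eq] at h1; subst h1; exact Or.inr h2
        obtain ⟨P', g1, g2, g3, g4⟩ := clo_sound H H' S N k _ hst hl
        exact ⟨P', fun x hx => g1 x (by simp [hx]), g2, g3, g4⟩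

theorem selAll_sound' {f : ℕ → Bool} {h : ℕ → ℕ} (H : Leg D h) :
    ∀ k p : ℕ, p + k = D.n → D.selAll f k p (scode D.m h p) = true → f (scode D.m h D.n) = true
  | 0, p, hk, hc => by rwa [← hk]
  | k + 1, p, hk, hc => by
      have hp : p < D.n := by omega
      rw [selAll] at hc
      have h3 := Spec.allL_sound hc (h p) (H.lt p hp)
      have h4 : Nat.beq (Nat.land (scode D.m h p) (D.conf p (h p))) 0 = true := by
        have : Nat.land (scode D.m h p) (D.conf p (h p)) = 0 := by
          apply Nat.eq_of_testBit_eq
          intro i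
          rw [land_bit, Nat.zero_testBit, Bool.and_eq_false_iff]
          by_cases hi : (scode D.m h p).testBit i = true
          · right
            obtain ⟨b0, b1, b2, b3⟩ := bit_atom (fun q hq => two_pow_lt (H.lt q (by omega))) hi
            have hi' : (scode D.m h p).testBit i = true := hi
            rw [b2, testBit_scode (fun q hq => H.lt q (by omega)) b1 b3, decide_eq_true_eq] at hi'
            have := H.free p hp (i / D.m) (by omega)
            rwa [hi', ← b2] at this
          · left
            exact Bool.eq_false_iff.2 hi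
        rw [this]; rfl
      rw [h4, Bool.not_true, Bool.false_or] at h3
      exact selAll_sound' H k (p + 1) (by omega) h3

/-- **Every legal selection passes `f`.** -/
theorem selAll_sound {f : ℕ → Bool} (hc : D.selAll f D.n 0 0 = true) {h : ℕ → ℕ} (H : Leg D h) :
    f (scode D.m h D.n) = true := selAll_sound' H D.n 0 (Nat.zero_add _) hc

/-- the positions where two selections differ -/
def df (n : ℕ) (h h' : ℕ → ℕ) : Finset ℕ := (Finset.range n).filter fun q => h q ≠ h' q

/-- the first step: start at a position of difference -/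
theorem start_sound (S : Symm D) {L : ℕ → ℕ → ℕ → Bool} (hc : D.check L = true) {h h' : ℕ → ℕ}
    (H : Leg D h) (H' : Leg D h') (N : NoWin D h h') {p : ℕ} (hp1 : p < D.n) (hp2 : h p ≠ h' p) :
    ∃ P : ℕ → Bool, P p = true ∧ (∀ q, P q = true → q < D.n ∧ h q ≠ h' q) ∧
      Leg D (mix h h' P) ∧ L p (scode D.m h D.n) (scode D.m (mix h h' P) D.n) = true := by
  have hm := selAll_sound (f := D.moves L) hc H
  have h1 := Spec.allL_sound (Spec.allL_sound hm p hp1) (h' p) (H'.lt p hp1)
  have hd : pdig D.m (scode D.m h D.n) p = 2 ^ h p :=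
    pdig_pcode D.n (fun q hq => two_pow_lt (H.lt q hq)) p hp1
  have e1 : Nat.testBit (pdig D.m (scode D.m h D.n) p) (h' p) = false := by
    rw [hd, Nat.testBit_two_pow, decide_eq_false_iff_not]; exact hp2
  rw [e1, Bool.false_or, hd] at h1
  have hst : St D h h' (fun x => x == p) (scode D.m h D.n - 2 ^ h p * 2 ^ (D.m * p))
      (2 ^ h' p * 2 ^ (D.m * p)) (D.conf p (h' p)) := by
    refine ⟨?_, ?_, ?_, ?_⟩
    · intro q hq
      rw [beq_iff_eq] at hq; subst hq; exact ⟨hp1, hp2⟩
    · have := part_erase (m := D.m) (n := D.n) (h := h) (P := fun _ => false) hp1 rfl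
      simp only [Bool.false_or, Bool.not_false] at this
      rw [this]
      congr 1
    · have := part_insert (m := D.m) (n := D.n) (h := h') (P := fun _ => false) hp1 rfl
      simp only [Bool.false_or] at this
      rw [this]
      have z : part D.m D.n h' (fun _ => false) = 0 := by
        have : ∀ k, pcode D.m (fun q => if false = true then 2 ^ h' q else 0) k = 0 := by
          intro k
          induction k with
          | zero => rfl
          | succ k ih => rw [pcode, ih]; simp
        exact this D.n
      rw [z, Nat.zero_add]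
    · intro i
      constructor
      · intro hi; exact ⟨p, by simp, hi⟩
      · rintro ⟨p', h2, h3⟩
        rw [beq_iff_eq] at h2; subst h2; exact h3
  obtain ⟨P', g1, g2, g3, g4⟩ := clo_sound H H' S N D.n _ hst h1
  exact ⟨P', g1 p (by simp), g2, g3, g4⟩

/-- the set of differences of two selections is generated by a position: it is the smallest set
which contains the position and is closed under the conflicts of old letters with new letters -/
def Gen (D : Clo) (h h' : ℕ → ℕ) (p : ℕ) : Prop :=
  p < D.n ∧ h p ≠ h' p ∧ ∀ Q : ℕ → Prop, Q p → (∀ r q, Q r → r < D.n → q < D.n →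
    (D.conf r (h' r)).testBit (D.m * q + h q) = true → Q q) → ∀ q < D.n, h q ≠ h' q → Q q

/-- **The leaf test holds for every generated move.** -/
theorem gen_sound (S : Symm D) {L : ℕ → ℕ → ℕ → Bool} (hc : D.check L = true) {h h' : ℕ → ℕ}
    (H : Leg D h) (H' : Leg D h') (N : NoWin D h h') {p : ℕ} (hg : Gen D h h' p) :
    L p (scode D.m h D.n) (scode D.m h' D.n) = true := by
  obtain ⟨P, g1, g2, g3, g4⟩ := start_sound S hc H H' N hg.1 hg.2.1
  have key := hg.2.2 (fun q => P q = true) g1 (fun r q hr hrn hqn hb => by
    by_contra hq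
    rw [Bool.not_eq_true] at hq
    have h1 := g3.free r hrn q hqn
    unfold mix at h1
    rw [if_pos hr, if_neg (by simp [hq])] at h1
    rw [h1] at hb
    exact absurd hb (by simp))
  have e : scode D.m (mix h h' P) D.n = scode D.m h' D.n := pcode_congr fun q hq => by
    unfold mix
    by_cases hP : P q = true
    · rw [if_pos hP]
    · rw [if_neg hP]
      by_cases hd : h q = h' q
      · rw [hd]
      · exact absurd (key q hq hd) hP
  rwa [e] at g4

/-- **Soundness of the closure form.** -/
theorem sound (S : Symm D) {cls : ℕ → ℕ} (hc : D.check (same cls) = true) : ∀ (k : ℕ)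
    {h h' : ℕ → ℕ}, Leg D h → Leg D h' → NoWin D h h' → (df D.n h h').card ≤ k →
    cls (scode D.m h D.n) = cls (scode D.m h' D.n) := by
  intro k
  induction k with
  | zero =>
      intro h h' _ _ _ hk
      have h0 : df D.n h h' = ∅ := Finset.card_eq_zero.1 (by omega)
      have : scode D.m h D.n = scode D.m h' D.n := pcode_congr fun q hq => by
        by_contra hne
        have : q ∈ df D.n h h' := by
          rw [df, Finset.mem_filter, Finset.mem_range]
          exact ⟨hq, fun e => hne (by rw [e])⟩
        rw [h0] at this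
        exact absurd this (Finset.notMem_empty _)
      rw [this]
  | succ k ih =>
      intro h h' H H' N hk
      by_cases h0 : df D.n h h' = ∅
      · exact ih H H' N (by rw [h0]; simp)
      · obtain ⟨p, hp⟩ := Finset.nonempty_iff_ne_empty.2 h0
        rw [df, Finset.mem_filter, Finset.mem_range] at hp
        obtain ⟨hp1, hp2⟩ := hp
        obtain ⟨P', g1, g2, g3, g4⟩ := start_sound S hc H H' N hp1 hp2
        have g5 := Nat.eq_of_beq_eq_true g4
        have N' : NoWin D (mix h h' P') h' := by
          refine noWin_of_sub N fun i hi => ?_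
          rw [lor_bit, Bool.or_eq_true] at hi
          rcases hi with hi | hi
          · exact mix_bit H.lt H'.lt hi
          · rw [lor_bit, hi, Bool.or_true]
        have hlt : (df D.n (mix h h' P') h').card < (df D.n h h').card := by
          apply Finset.card_lt_card
          rw [Finset.ssubset_iff_of_subset]
          · refine ⟨p, ?_, ?_⟩
            · rw [df, Finset.mem_filter, Finset.mem_range]; exact ⟨hp1, hp2⟩
            · rw [df, Finset.mem_filter, not_and, not_not]
              intro _
              unfold mix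
              rw [if_pos g1]
          · intro q hq
            rw [df, Finset.mem_filter, Finset.mem_range] at hq ⊢
            refine ⟨hq.1, fun e => hq.2 ?_⟩
            unfold mix
            split_ifs
            · rfl
            · exact e
        rw [← ih g3 H' N' (by omega), g5]

/-! ### Lists instead of masks -/

/-- conflicts and windows as lists of atoms -/
structure Text where
  /-- atoms in conflict with the letter `l` at `p` -/
  C : ℕ → ℕ → List Atom
  /-- windows -/
  W : List (List Atom)

/-- the masks are the masks of the text (decidable) -/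
structure Agree (D : Clo) (X : Text) : Prop where
  conf : ∀ p < D.n, ∀ l < D.m, D.conf p l = msk D.m (X.C p l)
  cb : ∀ p < D.n, ∀ l < D.m, ∀ x ∈ X.C p l, x.1 < D.n ∧ x.2 < D.m
  wins : D.wins = X.W.map (msk D.m)
  wb : ∀ w ∈ X.W, ∀ x ∈ w, x.1 < D.n ∧ x.2 < D.m
  symm : Symm D

theorem leg_of {X : Text} (A : Agree D X) {h : ℕ → ℕ} (h1 : ∀ q < D.n, h q < D.m)
    (h2 : ∀ p < D.n, ∀ x ∈ X.C p (h p), h x.1 ≠ x.2) : Leg D h where
  lt := h1
  free := by
    intro p hp q hq
    rw [A.conf p hp _ (h1 p hp), Bool.eq_false_iff]
    intro hb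
    obtain ⟨x, hx, he⟩ := testBit_msk.1 hb
    obtain ⟨a1, a2⟩ := A.cb p hp _ (h1 p hp) x hx
    have hm := h1 q hq
    have e1 : q = x.1 := by
      have : (D.m * q + h q) / D.m = (D.m * x.1 + x.2) / D.m := by rw [he]
      rwa [Nat.mul_add_div (by omega), Nat.mul_add_div (by omega), Nat.div_eq_of_lt hm,
        Nat.div_eq_of_lt a2] at this
    have e2 : h q = x.2 := by subst e1; omega
    exact h2 p hp x hx (by rw [← e1]; exact e2)

theorem noWin_of {X : Text} (A : Agree D X) {h h' : ℕ → ℕ} (h1 : ∀ q < D.n, h q < D.m)
    (h1' : ∀ q < D.n, h' q < D.m) (h2 : ∀ w ∈ X.W, ¬ ∀ x ∈ w, h x.1 = x.2 ∨ h' x.1 = x.2) :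
    NoWin D h h' := by
  intro w hw he
  rw [A.wins, List.mem_map] at hw
  obtain ⟨w', hw', rfl⟩ := hw
  refine h2 w' hw' fun x hx => ?_
  obtain ⟨a1, a2⟩ := A.wb w' hw' x hx
  have b1 : (msk D.m w').testBit (D.m * x.1 + x.2) = true := testBit_msk.2 ⟨x, hx, rfl⟩
  have b2 : (Nat.land (Nat.lor (scode D.m h D.n) (scode D.m h' D.n)) (msk D.m w')).testBit
      (D.m * x.1 + x.2) = true := by rw [he]; exact b1
  rw [land_bit, b1, Bool.and_true, lor_bit, testBit_scode h1 a1 a2, testBit_scode h1' a1 a2,
    Bool.or_eq_true, decide_eq_true_eq, decide_eq_true_eq] at b2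
  exact b2

/-- **Soundness of the closure form, with lists.** -/
theorem sound_text {X : Text} (A : Agree D X) {cls : ℕ → ℕ} (hc : D.check (same cls) = true)
    {h h' : ℕ → ℕ}
    (h1 : ∀ q < D.n, h q < D.m) (h1' : ∀ q < D.n, h' q < D.m)
    (h2 : ∀ p < D.n, ∀ x ∈ X.C p (h p), h x.1 ≠ x.2)
    (h2' : ∀ p < D.n, ∀ x ∈ X.C p (h' p), h' x.1 ≠ x.2)
    (h3 : ∀ w ∈ X.W, ¬ ∀ x ∈ w, h x.1 = x.2 ∨ h' x.1 = x.2) :
    cls (scode D.m h D.n) = cls (scode D.m h' D.n) :=
  sound A.symm hc _ (leg_of A h1 h2) (leg_of A h1' h2') (noWin_of A h1 h1' h3) le_rfl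

/-! ### Splitting -/

/-- the part of the search over the legal selections where the first letters have the code `c0`
(`p0` letters, for example `p0 = 1`, `c0 = 2 ^ l`) -/
def checkFrom (D : Clo) (L : ℕ → ℕ → ℕ → Bool) (p0 c0 : ℕ) : Bool :=
  D.selAll (D.moves L) (D.n - p0) p0 c0

theorem check_split1 {L : ℕ → ℕ → ℕ → Bool} (hn : 0 < D.n)
    (h : ∀ l < D.m, D.checkFrom L 1 (2 ^ l) = true) : D.check L = true := by
  obtain ⟨k, hk⟩ : ∃ k, D.n = k + 1 := ⟨D.n - 1, by omega⟩
  rw [check, hk, selAll]
  have key : ∀ (f : ℕ → Bool) (m : ℕ), (∀ l < m, f l = true) → Spec.allL f m = true := by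
    intro f m
    induction m with
    | zero => intro _; rfl
    | succ m ih => intro h'; rw [Spec.allL, h' m (by omega), ih fun l hl => h' l (by omega)]; rfl
  refine key _ _ fun l hl => ?_
  have h1 := h l hl
  rw [checkFrom, hk, show k + 1 - 1 = k by omega] at h1
  rw [Bool.or_eq_true]
  right
  simpa using h1

end Clo

end Vale.Agent.P032.R2.H741
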