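import Vale.Agent.P032.R2.H741.Fst

/-!
# P032, W4.CERT: refutations of list colourings

Vertices `0 .. N-1`, colours `< m`, `w = m * N`.  `tab`: block `q` (width `w`) is `∑ 2 ^ (m * q')` over the
neighbours `q'` of `q`.  A state is `A + 2 ^ w * c`: `A` the mask of the excluded atoms `m * q + l`
(vertex `q`, colour `l`), `c` the rest of the certificate: the vertices in the order of the search, `cb` bits
each (first vertex, then after every choice of a colour the next vertex, depth first, lowest
colour first).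

`Col.refuted`: no colouring.
-/

set_option autoImplicit false

namespace Vale.Agent.P032.R2.H741

namespace Col

open Fst Clo

/-- the lowest bit -/
theorem lowbit (y : ℕ) : ∃ k, (y + 1).testBit k = true ∧
    Nat.xor (y + 1) (Nat.land (y + 1) y) = 2 ^ k ∧
    ∀ l, l ≠ k → (y + 1).testBit l = true → (Nat.land (y + 1) y).testBit l = true := by
  obtain ⟨k, a, ha, e⟩ := Nat.exists_eq_two_pow_mul_odd (n := y + 1) (by omega)
  obtain ⟨b, rfl⟩ := ha
  have hp : 0 < 2 ^ k := Nat.two_pow_pos k
  have e1 : y + 1 = 2 ^ (k + 1) * b + 2 ^ k := by rw [e, pow_succ]; ring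
  have e2 : y = 2 ^ (k + 1) * b + (2 ^ k - 1) := by omega
  have h1 : 2 ^ k < 2 ^ (k + 1) := by rw [pow_succ]; omega
  have h2 : 2 ^ k - 1 < 2 ^ (k + 1) := by omega
  have b1 : ∀ j, (y + 1).testBit j = if j < k + 1 then decide (k = j) else b.testBit (j - (k + 1)) := by
    intro j
    rw [e1, Nat.testBit_two_pow_mul_add _ h1, Nat.testBit_two_pow]
  have b2 : ∀ j, y.testBit j = if j < k + 1 then decide (j < k) else b.testBit (j - (k + 1)) := by
    intro j
    conv_lhs => rw [e2]
    rw [Nat.testBit_two_pow_mul_add _ h2, Nat.testBit_two_pow_sub_one]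
  refine ⟨k, ?_, ?_, ?_⟩
  · rw [b1, if_pos (by omega)]; simp
  · apply Nat.eq_of_testBit_eq
    intro j
    show ((y + 1) ^^^ ((y + 1) &&& y)).testBit j = _
    rw [Nat.testBit_xor, Nat.testBit_and, b1, b2, Nat.testBit_two_pow]
    by_cases hj : j < k + 1
    · rw [if_pos hj, if_pos hj]
      by_cases h3 : k = j
      · subst h3; simp
      · simp [h3]
    · rw [if_neg hj, if_neg hj]
      have h3 : k ≠ j := by omega
      simp [h3]
  · intro l hl hb
    show ((y + 1) &&& y).testBit l = true
    rw [Nat.testBit_and, hb, Bool.true_and]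
    rw [b1] at hb
    rw [b2]
    by_cases hj : l < k + 1
    · rw [if_pos hj, decide_eq_true_eq] at hb; exact absurd hb.symm hl
    · rw [if_neg hj] at hb ⊢; exact hb

/-- free colours at the block `b` -/
noncomputable def fr (M Z WM b : ℕ) : ℕ := Nat.xor M (Nat.land M (Nat.shiftRight (Nat.land Z WM) b))

/-- the search -/
noncomputable def run (m M w WM cb CM tab : ℕ) (fuel : ℕ) : (ℕ → Bool) → ℕ → ℕ → ℕ → Bool :=
  @Nat.rec (fun _ => (ℕ → Bool) → ℕ → ℕ → ℕ → Bool) (fun _ _ _ _ => false) (fun _ ih k Z x S =>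
    @Nat.rec (fun _ => Bool) (k (Nat.shiftRight Z w)) (fun y _ =>
      force (Nat.lor (Nat.shiftLeft (Nat.shiftRight Z (Nat.add w cb)) w)
        (Nat.lor (Nat.land Z WM) (Nat.mul (Nat.xor (Nat.succ y) (Nat.land (Nat.succ y) y)) S)))
      fun Z' => ih (fun c => ih k (Nat.lor (Nat.shiftLeft c w) (Nat.land Z WM))
          (Nat.land (Nat.succ y) y) S)
        Z' (fr M Z' WM (Nat.mul m (Nat.land (Nat.shiftRight Z w) CM)))
        (Nat.land (Nat.shiftRight tab (Nat.mul w (Nat.land (Nat.shiftRight Z w) CM))) WM)) x) fuel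

/-- the refutation of a state -/
noncomputable def ref (m M w WM cb CM tab fuel : ℕ) (Z : ℕ) : Bool :=
  force (Nat.lor (Nat.shiftLeft (Nat.shiftRight Z (Nat.add w cb)) w) (Nat.land Z WM)) fun Z' =>
  run m M w WM cb CM tab fuel (fun _ => true) Z'
    (fr M Z' WM (Nat.mul m (Nat.land (Nat.shiftRight Z w) CM)))
    (Nat.land (Nat.shiftRight tab (Nat.mul w (Nat.land (Nat.shiftRight Z w) CM))) WM)

/-- all entries of a list -/
noncomputable def all (f : ℕ → Bool) (L : List ℕ) : Bool :=
  @List.rec ℕ (fun _ => Bool) true (fun x _ ih => @Bool.rec (fun _ => Bool) false ih (f x)) L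

theorem all_sound {f : ℕ → Bool} : ∀ {L : List ℕ}, all f L = true → ∀ x ∈ L, f x = true
  | [], _, x, hx => absurd hx (by simp)
  | z :: L, h, x, hx => by
      have h1 : @Bool.rec (fun _ => Bool) false (all f L) (f z) = true := h
      cases hz : f z with
      | false => simp only [hz] at h1; exact absurd h1 (by simp)
      | true =>
          simp only [hz] at h1
          rcases List.mem_cons.1 hx with e | e
          · rw [e]; exact hz
          · exact all_sound h1 x e

/-- neighbours of a vertex -/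
def nb (w WM tab q : ℕ) : ℕ := Nat.land (Nat.shiftRight tab (Nat.mul w q)) WM

/-- a good assignment -/
structure Good (m w WM tab : ℕ) (g : ℕ → ℕ) : Prop where
  lt : ∀ q, g q < m
  free : ∀ q q', (2 ^ g q * nb w WM tab q).testBit (m * q' + g q') = false

variable {m w cb CM tab : ℕ} {g : ℕ → ℕ}

/-- nothing of the assignment is excluded -/
def Comp (m w : ℕ) (g : ℕ → ℕ) (Z : ℕ) : Prop :=
  ∀ q, m * q + g q < w → Z.testBit (m * q + g q) = false

theorem testBit_fr {l b Z : ℕ} (hl : l < m) (h : b + l < w → Z.testBit (b + l) = false) :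
    (fr (2 ^ m - 1) Z (2 ^ w - 1) b).testBit l = true := by
  have e : fr (2 ^ m - 1) Z (2 ^ w - 1) b =
      (2 ^ m - 1) ^^^ ((2 ^ m - 1) &&& ((Z &&& (2 ^ w - 1)) >>> b)) := rfl
  rw [e, Nat.testBit_xor, Nat.testBit_and, Nat.testBit_shiftRight, Nat.testBit_and,
    Nat.testBit_two_pow_sub_one, Nat.testBit_two_pow_sub_one]
  by_cases hw : b + l < w
  · rw [h hw]; simp [hl]
  · simp [hl, hw]

theorem run_exists {M WM : ℕ} : ∀ {fuel : ℕ} {k : ℕ → Bool} {Z x S : ℕ},
    run m M w WM cb CM tab fuel k Z x S = true → ∃ c, k c = true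
  | 0, _, _, _, _, h => by
      have : false = true := h
      exact absurd this (by simp)
  | fuel + 1, k, Z, 0, S, h => ⟨_, h⟩
  | fuel + 1, k, Z, y + 1, S, h => by
      have h1 : force (Nat.lor (Nat.shiftLeft (Nat.shiftRight Z (Nat.add w cb)) w)
        (Nat.lor (Nat.land Z WM) (Nat.mul (Nat.xor (Nat.succ y) (Nat.land (Nat.succ y) y)) S)))
        (fun Z' => run m M w WM cb CM tab fuel
          (fun c => run m M w WM cb CM tab fuel k (Nat.lor (Nat.shiftLeft c w) (Nat.land Z WM))
            (Nat.land (Nat.succ y) y) S)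
          Z' (fr M Z' WM (Nat.mul m (Nat.land (Nat.shiftRight Z w) CM)))
          (Nat.land (Nat.shiftRight tab (Nat.mul w (Nat.land (Nat.shiftRight Z w) CM))) WM)) =
          true := h
      rw [force_eq] at h1
      obtain ⟨c, hc⟩ := run_exists h1
      exact run_exists hc

theorem run_sound (G : Good m w (2 ^ w - 1) tab g) :
    ∀ {fuel : ℕ} {k : ℕ → Bool} {Z x S p : ℕ}, Comp m w g Z →
    (∀ q, (2 ^ g p * S).testBit (m * q + g q) = false) → x.testBit (g p) = true →
    run m (2 ^ m - 1) w (2 ^ w - 1) cb CM tab fuel k Z x S = true → False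
  | 0, _, _, _, _, _, _, _, _, h => by
      have : false = true := h
      exact absurd this (by simp)
  | fuel + 1, k, Z, 0, S, p, _, _, hx, _ => by
      rw [Nat.zero_testBit] at hx; exact absurd hx (by simp)
  | fuel + 1, k, Z, y + 1, S, p, C, hS, hx, h => by
      have h1 : force (Nat.lor (Nat.shiftLeft (Nat.shiftRight Z (Nat.add w cb)) w)
        (Nat.lor (Nat.land Z (2 ^ w - 1))
          (Nat.mul (Nat.xor (Nat.succ y) (Nat.land (Nat.succ y) y)) S)))
        (fun Z' => run m (2 ^ m - 1) w (2 ^ w - 1) cb CM tab fuel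
          (fun c => run m (2 ^ m - 1) w (2 ^ w - 1) cb CM tab fuel k
            (Nat.lor (Nat.shiftLeft c w) (Nat.land Z (2 ^ w - 1)))
            (Nat.land (Nat.succ y) y) S)
          Z' (fr (2 ^ m - 1) Z' (2 ^ w - 1) (Nat.mul m (Nat.land (Nat.shiftRight Z w) CM)))
          (Nat.land (Nat.shiftRight tab (Nat.mul w (Nat.land (Nat.shiftRight Z w) CM)))
            (2 ^ w - 1))) = true := h
      rw [force_eq] at h1
      obtain ⟨l0, k1, k2, k3⟩ := lowbit y
      have k2' : Nat.xor (Nat.succ y) (Nat.land (Nat.succ y) y) = 2 ^ l0 := k2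
      have bitsZ : ∀ a b i, i < w → (Nat.lor (Nat.shiftLeft a w) b).testBit i = b.testBit i := by
        intro a b i hi
        show (a <<< w ||| b).testBit i = _
        rw [Nat.testBit_or, Nat.testBit_shiftLeft]
        simp [show ¬ w ≤ i by omega]
      have bitsW : ∀ i, i < w → (Nat.land Z (2 ^ w - 1)).testBit i = Z.testBit i := by
        intro i hi
        show (Z &&& (2 ^ w - 1)).testBit i = _
        rw [Nat.testBit_and, Nat.testBit_two_pow_sub_one]
        simp [hi]
      by_cases e : g p = l0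
      · -- the child
        rw [k2', ← e] at h1
        refine run_sound G (p := Nat.land (Nat.shiftRight Z w) CM) (fun q hq => ?_) ?_ ?_ h1
        · rw [bitsZ _ _ _ hq, lor_bit, bitsW _ hq, C q hq]
          show (false || (2 ^ g p * S).testBit (m * q + g q)) = false
          rw [hS q]; rfl
        · intro q; exact G.free _ q
        · refine testBit_fr (G.lt _) fun hq => ?_
          have hq' : m * Nat.land (Nat.shiftRight Z w) CM + g (Nat.land (Nat.shiftRight Z w) CM) < w := hq
          show (Nat.lor _ _).testBit (m * Nat.land (Nat.shiftRight Z w) CM + _) = false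
          rw [bitsZ _ _ _ hq', lor_bit, bitsW _ hq', C _ hq']
          show (false || (2 ^ g p * S).testBit _) = false
          rw [hS]; rfl
      · obtain ⟨c, hc⟩ := run_exists h1
        refine run_sound G (p := p) (fun q hq => ?_) hS (k3 (g p) e hx) hc
        rw [bitsZ _ _ _ hq, bitsW _ hq, C q hq]

/-- **Refutation.** -/
theorem ref_sound (G : Good m w (2 ^ w - 1) tab g) {fuel Z : ℕ} (C : Comp m w g Z)
    (h : ref m (2 ^ m - 1) w (2 ^ w - 1) cb CM tab fuel Z = true) : False := by
  unfold ref at h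
  rw [force_eq] at h
  have bits : ∀ i, i < w → (Nat.lor (Nat.shiftLeft (Nat.shiftRight Z (Nat.add w cb)) w)
      (Nat.land Z (2 ^ w - 1))).testBit i = Z.testBit i := by
    intro i hi
    show ((Z >>> (w + cb)) <<< w ||| (Z &&& (2 ^ w - 1))).testBit i = _
    rw [Nat.testBit_or, Nat.testBit_shiftLeft, Nat.testBit_and, Nat.testBit_two_pow_sub_one]
    simp [hi, show ¬ w ≤ i by omega]
  refine run_sound G (p := Nat.land (Nat.shiftRight Z w) CM) (fun q hq => ?_)
    (fun q => G.free _ q) ?_ h
  · rw [bits _ hq, C q hq]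
  · refine testBit_fr (G.lt _) fun hq => ?_
    have hq' : m * Nat.land (Nat.shiftRight Z w) CM + g (Nat.land (Nat.shiftRight Z w) CM) < w := hq
    show (Nat.lor _ _).testBit (m * Nat.land (Nat.shiftRight Z w) CM + _) = false
    rw [bits _ hq', C _ hq']

/-- the graph of the table (decidable) -/
structure Graph (N m w WM tab : ℕ) (adj : ℕ → List ℕ) : Prop where
  pos : 0 < m
  hw : w = m * N
  hWM : WM = 2 ^ w - 1
  lt : tab < 2 ^ (w * N)
  tab : ∀ q < N, nb w WM tab q = msk m ((adj q).map fun q' => (q', 0))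
  bd : ∀ q < N, ∀ q' ∈ adj q, q' < N

/-- **No list colouring.** -/
theorem refuted {N M WM : ℕ} {adj : ℕ → List ℕ} (H : Graph N m w WM tab adj)
    (hM : M = 2 ^ m - 1) {fuel Z : ℕ} (h : ref m M w WM cb CM tab fuel Z = true) {g : ℕ → ℕ}
    (h1 : ∀ q < N, g q < m) (h2 : ∀ q < N, ∀ q' ∈ adj q, g q ≠ g q')
    (h3 : ∀ q < N, Z.testBit (m * q + g q) = false) : False := by
  subst hM
  have hWM := H.hWM
  subst hWM
  set g' : ℕ → ℕ := fun q => if q < N then g q else 0 with hg'
  have hlt : ∀ q, g' q < m := by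
    intro q
    show (if q < N then g q else 0) < m
    split_ifs with hq
    · exact h1 q hq
    · exact H.pos
  have inw : ∀ q, m * q + g' q < w → q < N := by
    intro q hq
    by_contra hc
    have h5 : m * N ≤ m * q := Nat.mul_le_mul_left _ (by omega)
    rw [H.hw] at hq
    omega
  refine ref_sound (g := g') ⟨hlt, fun q q' => ?_⟩ (fun q hq => ?_) h
  · rw [Bool.eq_false_iff]
    intro hb
    by_cases hq : q < N
    · rw [Nat.mul_comm, Nat.testBit_mul_two_pow, Bool.and_eq_true, decide_eq_true_eq,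
        H.tab q hq] at hb
      obtain ⟨hle, hb⟩ := hb
      obtain ⟨x, hx, e⟩ := testBit_msk.1 hb
      obtain ⟨z, hz, rfl⟩ := List.mem_map.1 hx
      simp only [Nat.add_zero] at e
      have e2 : m * q' + g' q' = m * z + g' q := by omega
      obtain ⟨e3, e4⟩ := atom_inj (hlt q') (hlt q) e2
      have hz' := H.bd q hq z hz
      have e5 : g q' = g q := by
        have a1 : g' q' = g q' := if_pos (by omega)
        have a2 : g' q = g q := if_pos hq
        omega
      exact h2 q hq z hz (by rw [← e3]; exact e5.symm)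
    · have hz : nb w (2 ^ w - 1) tab q = 0 := by
        have hlt2 : tab < 2 ^ (w * q) := lt_of_lt_of_le H.lt
          (Nat.pow_le_pow_right (by norm_num) (Nat.mul_le_mul_left _ (by omega)))
        show (tab >>> (w * q)) &&& (2 ^ w - 1) = 0
        rw [Nat.shiftRight_eq_div_pow, Nat.div_eq_of_lt hlt2, Nat.zero_and]
      rw [hz, Nat.mul_zero, Nat.zero_testBit] at hb
      exact absurd hb (by simp)
  · have hq2 := inw q hq
    have a1 : g' q = g q := if_pos hq2
    rw [a1]; exact h3 q hq2

end Col

end Vale.Agent.P032.R2.H741
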