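import Vale.Agent.P032.R2.H741.Fst3
import Vale.Agent.P032.R2.H137.TableF

/-!
# P032, W4.CERT: the closing search by labels

`selT s`: table (blocks of `N` bits) of the relation of the label `s`, `0` if the label is not used;
`rowOf`: the rows (`ones` if the label is not used).  `us`: increasing list of all labels of nonempty
sets of named points.  `runK`: computes for every label `u` of `us` the set of the classes which can be
reached with this label, and checks that the target is not reached.
`dp_sound`: no path.
-/

set_option autoImplicit false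

namespace Vale.Agent.P032.R2.H741

namespace Dp

open Fst Vale.Agent.P032.Words

/-- rows of the relations -/
def rowOf (selT : ℕ → ℕ) (N ones s x : ℕ) : ℕ :=
  cond (Nat.beq (selT s) 0) ones (Nat.land (Nat.shiftRight (selT s) (Nat.mul N x)) ones)

/-- image of the set `V` under the table `T`, joined to `acc` -/
noncomputable def imgK (N ones : ℕ) (k : ℕ → Bool) (fuel : ℕ) : ℕ → ℕ → ℕ → Bool :=
  @Nat.rec (fun _ => ℕ → ℕ → ℕ → Bool) (fun _ _ _ => false) (fun _ ih T V acc =>
    @Nat.rec (fun _ => Bool) (k acc) (fun y _ => force (Nat.log2 (Nat.succ y)) fun l =>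
      force (Nat.lor acc (Nat.land (Nat.shiftRight T (Nat.mul N l)) ones)) fun acc' =>
      force (Nat.sub (Nat.succ y) (Nat.pow 2 l)) fun V' => ih T V' acc') V) fuel

/-- all steps to the label `u` -/
noncomputable def stepK (selT : ℕ → ℕ) (N ones fuel u : ℕ) (k : ℕ → Bool) (Vs : List (ℕ × ℕ)) :
    ℕ → Bool :=
  @List.rec (ℕ × ℕ) (fun _ => ℕ → Bool) k (fun pv _ ih acc =>
    force (selT (Nat.sub u pv.1)) fun T =>
      @Nat.rec (fun _ => Bool) (ih acc) (fun _ _ => imgK N ones ih fuel T pv.2 acc) T) Vs

/-- all labels -/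
noncomputable def runK (selT : ℕ → ℕ) (N ones fuel tgt : ℕ) (us : List ℕ) :
    List (ℕ × ℕ) → Bool :=
  @List.rec ℕ (fun _ => List (ℕ × ℕ) → Bool) (fun _ => true) (fun u _ ih Vs =>
    stepK selT N ones fuel u (fun acc => @Bool.rec (fun _ => Bool) (ih ((u, acc) :: Vs)) false
      (Nat.beq (Nat.land (Nat.shiftRight acc tgt) 1) 1)) Vs 0) us

theorem imgK_sound {N ones : ℕ} {k : ℕ → Bool} : ∀ {fuel T V acc : ℕ},
    imgK N ones k fuel T V acc = true → ∃ acc', k acc' = true ∧
      (∀ z, acc.testBit z = true → acc'.testBit z = true) ∧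
      ∀ y z, V.testBit y = true →
        (Nat.land (Nat.shiftRight T (Nat.mul N y)) ones).testBit z = true →
        acc'.testBit z = true
  | 0, _, _, _, h => by
      have : false = true := h
      exact absurd this (by simp)
  | fuel + 1, T, 0, acc, h => by
      have h1 : k acc = true := h
      exact ⟨acc, h1, fun _ hz => hz, fun y z hy => by
        rw [Nat.zero_testBit] at hy; exact absurd hy (by simp)⟩
  | fuel + 1, T, v + 1, acc, h => by
      have h1 : force (Nat.log2 (Nat.succ v)) (fun l =>
        force (Nat.lor acc (Nat.land (Nat.shiftRight T (Nat.mul N l)) ones)) fun acc' =>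
        force (Nat.sub (Nat.succ v) (Nat.pow 2 l)) fun V' =>
        imgK N ones k fuel T V' acc') = true := h
      simp only [force_eq] at h1
      obtain ⟨acc', g1, g2, g3⟩ := imgK_sound h1
      refine ⟨acc', g1, fun z hz => g2 z ?_, fun y z hy hz => ?_⟩
      · rw [Clo.lor_bit, hz, Bool.true_or]
      · by_cases e : y = Nat.log2 (v + 1)
        · subst e
          refine g2 z ?_
          rw [Clo.lor_bit]
          have hz' : (Nat.land (Nat.shiftRight T (Nat.mul N (Nat.log2 (Nat.succ v)))) ones).testBit z
            = true := hz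
          rw [hz', Bool.or_true]
        · exact g3 y z (testBit_sub_log2 (by omega) e hy) hz

theorem stepK_sound {selT : ℕ → ℕ} {N ones fuel u : ℕ} {k : ℕ → Bool} :
    ∀ {Vs : List (ℕ × ℕ)} {acc : ℕ}, stepK selT N ones fuel u k Vs acc = true →
    ∃ acc', k acc' = true ∧ (∀ z, acc.testBit z = true → acc'.testBit z = true) ∧
      ∀ pv ∈ Vs, ∀ y z, pv.2.testBit y = true →
        (Nat.land (Nat.shiftRight (selT (u - pv.1)) (Nat.mul N y)) ones).testBit z = true →
        acc'.testBit z = true
  | [], acc, h => ⟨acc, h, fun _ hz => hz, fun pv hpv => absurd hpv (by simp)⟩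
  | pv :: Vs, acc, h => by
      have h1 : force (selT (Nat.sub u pv.1)) (fun T =>
        @Nat.rec (fun _ => Bool) (stepK selT N ones fuel u k Vs acc)
          (fun _ _ => imgK N ones (stepK selT N ones fuel u k Vs) fuel T pv.2 acc) T) = true := h
      rw [force_eq] at h1
      cases hT : selT (Nat.sub u pv.1) with
      | zero =>
          rw [hT] at h1
          obtain ⟨acc', g1, g2, g3⟩ := stepK_sound (Vs := Vs) h1
          refine ⟨acc', g1, g2, fun x hx y z hy hz => ?_⟩
          rcases List.mem_cons.1 hx with e | e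
          · subst e
            have hT' : selT (u - x.1) = 0 := hT
            rw [hT'] at hz
            have e2 : Nat.land (Nat.shiftRight 0 (Nat.mul N y)) ones = 0 := by
              show (0 >>> (N * y)) &&& ones = 0
              simp
            rw [e2, Nat.zero_testBit] at hz
            exact absurd hz (by simp)
          · exact g3 x e y z hy hz
      | succ t =>
          rw [hT] at h1
          have h2 : imgK N ones (stepK selT N ones fuel u k Vs) fuel (t + 1) pv.2 acc = true := h1
          obtain ⟨acc1, g1, g2, g3⟩ := imgK_sound h2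
          obtain ⟨acc', g4, g5, g6⟩ := stepK_sound (Vs := Vs) g1
          refine ⟨acc', g4, fun z hz => g5 z (g2 z hz), fun x hx y z hy hz => ?_⟩
          rcases List.mem_cons.1 hx with e | e
          · subst e
            refine g5 z (g3 y z hy ?_)
            have hT' : selT (u - x.1) = t + 1 := hT
            rw [hT'] at hz
            exact hz
          · exact g6 x e y z hy hz

theorem runK_sound {selT : ℕ → ℕ} {N ones fuel tgt : ℕ} :
    ∀ {us : List ℕ} {Vs : List (ℕ × ℕ)}, us.Pairwise (· < ·) →
    runK selT N ones fuel tgt us Vs = true →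
    ∃ F : List (ℕ × ℕ), (∀ x ∈ Vs, x ∈ F) ∧ (∀ x ∈ F, x ∈ Vs ∨ x.1 ∈ us) ∧
      ∀ u ∈ us, ∃ W, (u, W) ∈ F ∧ W.testBit tgt = false ∧
        ∀ x ∈ F, x.1 < u → ∀ y z, x.2.testBit y = true →
          (Nat.land (Nat.shiftRight (selT (u - x.1)) (Nat.mul N y)) ones).testBit z = true →
          W.testBit z = true
  | [], Vs, _, _ => ⟨Vs, fun _ h => h, fun _ h => Or.inl h, fun u hu => absurd hu (by simp)⟩
  | u :: us, Vs, hs, h => by
      have h1 : stepK selT N ones fuel u (fun acc =>
        @Bool.rec (fun _ => Bool) (runK selT N ones fuel tgt us ((u, acc) :: Vs)) false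
          (Nat.beq (Nat.land (Nat.shiftRight acc tgt) 1) 1)) Vs 0 = true := h
      obtain ⟨acc, g1, -, g3⟩ := stepK_sound h1
      rw [List.pairwise_cons] at hs
      have hb : acc.testBit tgt = false := by
        rw [Bool.eq_false_iff]
        intro hb
        have e : Nat.beq (Nat.land (Nat.shiftRight acc tgt) 1) 1 = true := by
          have : Nat.land (Nat.shiftRight acc tgt) 1 = 1 := by
            show (acc >>> tgt) &&& 1 = 1
            rw [Nat.and_one_is_mod, Nat.shiftRight_eq_div_pow]
            have h5 := hb
            rw [Nat.testBit_eq_decide_div_mod_eq, decide_eq_true_eq] at h5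
            exact h5
          rw [this]; rfl
        simp only [e] at g1
        exact absurd g1 (by simp)
      have g1' : runK selT N ones fuel tgt us ((u, acc) :: Vs) = true := by
        cases hc : Nat.beq (Nat.land (Nat.shiftRight acc tgt) 1) 1 with
        | true => simp only [hc] at g1; exact absurd g1 (by simp)
        | false => simp only [hc] at g1; exact g1
      obtain ⟨F, f1, f2, f3⟩ := runK_sound hs.2 g1'
      refine ⟨F, fun x hx => f1 x (List.mem_cons_of_mem _ hx), fun x hx => ?_, fun u' hu' => ?_⟩
      · rcases f2 x hx with h5 | h5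
        · rcases List.mem_cons.1 h5 with e | e
          · right; rw [e]; exact List.mem_cons_self ..
          · exact Or.inl e
        · exact Or.inr (List.mem_cons_of_mem _ h5)
      · rcases List.mem_cons.1 hu' with e | e
        · subst e
          refine ⟨acc, f1 _ (List.mem_cons_self ..), hb, fun x hx hlt y z hy hz => ?_⟩
          rcases f2 x hx with h5 | h5
          · rcases List.mem_cons.1 h5 with e | e
            · rw [e] at hlt; exact absurd hlt (lt_irrefl _)
            · exact g3 x e y z hy hz
          · exact absurd hlt (not_lt.2 (hs.1 _ h5).le)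
        · exact f3 u' e

/-- **No path.** -/
theorem dp_sound {J : Type} [DecidableEq J] {kd : J → ℕ} {selT : ℕ → ℕ} {N ones fuel : ℕ}
    {us : List ℕ} (hus : us.Pairwise (· < ·)) (hsel : ∀ s ∈ us, selT s ≠ 0)
    {R : Set J → ℕ → ℕ → Prop}
    (hR : ∀ S : Finset J, S.Nonempty → ∀ x y, R (S : Set J) x y →
      Nat.testBit (rowOf selT N ones (∑ j ∈ S, 8 ^ kd j) x) y = true)
    {A : Set J} (hfin : A.Finite) (hA : ∀ S : Finset J, S.Nonempty → (S : Set J) ⊆ A →
      ∑ j ∈ S, 8 ^ kd j ∈ us)
    {x y : ℕ} (hxy : x ≠ y) (hrun : runK selT N ones fuel y us [(0, 2 ^ x)] = true)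
    (hp : LPath R A x y) : False := by
  obtain ⟨F, f1, f2, f3⟩ := runK_sound hus hrun
  have key : ∀ {A : Set J} {x y : ℕ}, LPath R A x y → A.Finite → ∀ (p W : ℕ), (p, W) ∈ F →
      W.testBit x = true → W.testBit y = false →
      (∀ u ∈ us, ∃ W, (u, W) ∈ F ∧ W.testBit y = false ∧
        ∀ x ∈ F, x.1 < u → ∀ y z, x.2.testBit y = true →
          (Nat.land (Nat.shiftRight (selT (u - x.1)) (Nat.mul N y)) ones).testBit z = true →
          W.testBit z = true) →
      (∀ S : Finset J, S.Nonempty → (S : Set J) ⊆ A → p + ∑ j ∈ S, 8 ^ kd j ∈ us ∧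
        ∑ j ∈ S, 8 ^ kd j ∈ us) → False := by
    intro A x y hp
    induction hp with
    | nil A x =>
        intro _ p W hW hx hno _ _
        rw [hno] at hx
        exact absurd hx (by simp)
    | @step S A x m' y hS hs h1 _ ih =>
        intro hfin p W hW hx hno hF hA
        have hSf : S.Finite := hfin.subset hs
        set S' : Finset J := hSf.toFinset with hS'
        have hcoe : (S' : Set J) = S := hSf.coe_toFinset
        have hne : S'.Nonempty := by rw [← Finset.coe_nonempty, hcoe]; exact hS
        have hsum : 0 < ∑ j ∈ S', 8 ^ kd j := Finset.sum_pos (fun _ _ => by positivity) hne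
        obtain ⟨hu1, hu2⟩ := hA S' hne (by rw [hcoe]; exact hs)
        have h2 := hR S' hne x m' (by rw [hcoe]; exact h1)
        have h3 : (Nat.land (Nat.shiftRight (selT (∑ j ∈ S', 8 ^ kd j)) (Nat.mul N x))
            ones).testBit m' = true := by
          unfold rowOf at h2
          have e : Nat.beq (selT (∑ j ∈ S', 8 ^ kd j)) 0 = false := by
            rw [Bool.eq_false_iff]
            intro e
            exact hsel _ hu2 (Nat.eq_of_beq_eq_true e)
          rw [e] at h2
          exact h2
        obtain ⟨W1, w1, w2, w3⟩ := hF _ hu1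
        have h4 : W1.testBit m' = true := w3 (p, W) hW (by show p < _; omega) x m' hx (by
          have e : p + ∑ j ∈ S', 8 ^ kd j - p = ∑ j ∈ S', 8 ^ kd j := by omega
          show (Nat.land (Nat.shiftRight (selT (p + ∑ j ∈ S', 8 ^ kd j - p)) (Nat.mul N x))
            ones).testBit m' = true
          rw [e]; exact h3)
        refine ih (hfin.subset Set.sdiff_subset) (p + ∑ j ∈ S', 8 ^ kd j) W1 w1 h4 w2 hF ?_
        intro S2 hS2 hs2
        have hd : Disjoint S' S2 := by
          rw [Finset.disjoint_left]
          intro j hj hj2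
          have h5 := hs2 (Finset.mem_coe.2 hj2)
          exact h5.2 (by rw [← hcoe]; exact Finset.mem_coe.2 hj)
        have h5 := hA (S' ∪ S2) (hne.mono Finset.subset_union_left) (by
          rw [Finset.coe_union]
          exact Set.union_subset (by rw [hcoe]; exact hs) (hs2.trans Set.sdiff_subset))
        rw [Finset.sum_union hd] at h5
        refine ⟨by rw [Nat.add_assoc]; exact h5.1, ?_⟩
        exact (hA S2 hS2 (hs2.trans Set.sdiff_subset)).2
  refine key hp hfin 0 (2 ^ x) (f1 _ (List.mem_cons_self ..)) ?_ ?_ f3 ?_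
  · rw [Nat.testBit_two_pow]; exact decide_eq_true rfl
  · rw [Nat.testBit_two_pow]; exact decide_eq_false hxy
  · intro S hS hs
    rw [Nat.zero_add]
    exact ⟨hA S hS hs, hA S hS hs⟩

/-- the closing check for all classes -/
noncomputable def closed (selT : ℕ → ℕ) (N ones : ℕ) (rho : ℕ → ℕ) (us : List ℕ) (x : ℕ) : Bool :=
  force (rho x) fun y => @Bool.rec (fun _ => Bool)
    (runK selT N ones (Nat.succ N) y us [(0, Nat.pow 2 x)]) false (Nat.beq x y)

theorem closed_sound {selT : ℕ → ℕ} {N ones : ℕ} {rho : ℕ → ℕ} {us : List ℕ} {x : ℕ}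
    (h : closed selT N ones rho us x = true) :
    x ≠ rho x ∧ runK selT N ones (N + 1) (rho x) us [(0, 2 ^ x)] = true := by
  unfold closed at h
  rw [force_eq] at h
  cases hb : Nat.beq x (rho x) with
  | true => simp only [hb] at h; exact absurd h (by simp)
  | false =>
      simp only [hb] at h
      refine ⟨fun e => ?_, h⟩
      rw [← e, Nat.beq_refl] at hb
      exact absurd hb (by simp)

end Dp

end Vale.Agent.P032.R2.H741
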