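import Vale.Agent.P032.R2.H741.Clo

/-!
# P032, W4.CERT: the fast form of the closure check

Same layout as `Clo.lean`, but everything is written with recursors and raw operations of `Nat`, all
intermediate numbers are forced to literals (`force`), and the conflicts and the windows with two
atoms are one table: block `j = m * p + l` (width `W2 = 2 w`, `w = m * n`) of the table is the mask of
the atoms in conflict with the atom `j`, plus `2 ^ w` times the mask of the atoms which make a window
of two atoms with `j` (and of `j` itself).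

`clsChk`: in two legal selections with different letters let `p` be the largest position of
difference and let `h'` have the smaller letter; then it is enough to look at the forced move from
`h` to the letter `h' p`, and only when it changes positions `≤ p` only.
`namChk`: all forced moves from given start positions.
`legChk`: all legal selections.
-/

set_option autoImplicit false

namespace Vale.Agent.P032.R2.H741

namespace Fst

/-- evaluate first -/
noncomputable def force (x : ℕ) (F : ℕ → Bool) : Bool :=
  @Nat.rec (fun _ => Bool) (F 0) (fun y _ => F (Nat.succ y)) x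

@[simp] theorem force_eq (x : ℕ) (F : ℕ → Bool) : force x F = F x := by cases x <;> rfl

/-- `F l` for all `l < k` -/
noncomputable def allb (F : ℕ → Bool) (k : ℕ) : Bool :=
  @Nat.rec (fun _ => Bool) true (fun l ih => @Bool.rec (fun _ => Bool) false ih (F l)) k

theorem allb_sound {F : ℕ → Bool} : ∀ {k : ℕ}, allb F k = true → ∀ l < k, F l = true
  | 0, _, l, hl => absurd hl (by omega)
  | k + 1, h, l, hl => by
      have h1 : @Bool.rec (fun _ => Bool) false (allb F k) (F k) = true := h
      cases hF : F k with
      | false => rw [hF] at h1; exact absurd h1 (by simp)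
      | true =>
          rw [hF] at h1
          by_cases e : l = k
          · subst e; exact hF
          · exact allb_sound h1 l (by omega)

/-- `F l` for all bits `l` of a mask (fuel `k`) -/
noncomputable def bits (F : ℕ → Bool) (k : ℕ) : ℕ → Bool :=
  @Nat.rec (fun _ => ℕ → Bool) (fun x => Nat.beq x 0) (fun _ ih x =>
    @Nat.rec (fun _ => Bool) true (fun y _ => force (Nat.log2 (Nat.succ y)) fun l =>
      @Bool.rec (fun _ => Bool) false (force (Nat.sub (Nat.succ y) (Nat.pow 2 l)) ih) (F l)) x) k

theorem testBit_sub_log2 {x l : ℕ} (hx : x ≠ 0) (hl : l ≠ Nat.log2 x)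
    (h : x.testBit l = true) : (x - 2 ^ Nat.log2 x).testBit l = true := by
  have h1 : 2 ^ Nat.log2 x ≤ x := Nat.log2_self_le hx
  have h2 : x < 2 ^ (Nat.log2 x + 1) := Nat.lt_log2_self
  obtain ⟨r, hr⟩ : ∃ r, x = 2 ^ Nat.log2 x + r := ⟨x - 2 ^ Nat.log2 x, by omega⟩
  have h3 : l < Nat.log2 x := by
    by_contra hc
    have : x < 2 ^ l := lt_of_lt_of_le h2 (Nat.pow_le_pow_right (by norm_num) (by omega))
    rw [Nat.testBit_lt_two_pow this] at h
    exact absurd h (by simp)
  have e : x - 2 ^ Nat.log2 x = r := by omega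
  rw [e]
  rw [hr, Nat.testBit_two_pow_add_gt h3] at h
  exact h

theorem bits_sound {F : ℕ → Bool} : ∀ {k x : ℕ}, bits F k x = true →
    ∀ l, x.testBit l = true → F l = true
  | 0, x, h, l, hl => by
      have h1 : Nat.beq x 0 = true := h
      have := Nat.eq_of_beq_eq_true h1
      subst this
      rw [Nat.zero_testBit] at hl
      exact absurd hl (by simp)
  | k + 1, x, h, l, hl => by
      cases x with
      | zero => rw [Nat.zero_testBit] at hl; exact absurd hl (by simp)
      | succ y =>
          have h1 : force (Nat.log2 (Nat.succ y)) (fun l =>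
            @Bool.rec (fun _ => Bool) false (force (Nat.sub (Nat.succ y) (Nat.pow 2 l)) (bits F k))
              (F l)) = true := h
          rw [force_eq] at h1
          cases hF : F (Nat.log2 (Nat.succ y)) with
          | false => rw [hF] at h1; exact absurd h1 (by simp)
          | true =>
              rw [hF] at h1
              by_cases e : l = Nat.log2 (y + 1)
              · subst e; exact hF
              · have h2 : force (Nat.sub (Nat.succ y) (Nat.pow 2 (Nat.log2 (Nat.succ y))))
                    (bits F k) = true := h1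
                rw [force_eq] at h2
                exact bits_sound h2 l (testBit_sub_log2 (by omega) e hl)

/-- block `j` of the table -/
noncomputable def blk (W2 MW tab j : ℕ) : ℕ := Nat.land (Nat.shiftRight tab (Nat.mul W2 j)) MW

/-- letters (as a mask `≤ M`) which are free at the block `b` -/
noncomputable def av (M w G b : ℕ) : ℕ :=
  Nat.sub M (Nat.land M (Nat.lor (Nat.shiftRight G b) (Nat.shiftRight G (Nat.add w b))))

/-- completion of a move; `cur` the current code, `G` the accumulated blocks, `B` bound for the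
changes -/
noncomputable def fclo (m M w W2 MW tab B : ℕ) (F : ℕ → Bool) (k : ℕ) : ℕ → ℕ → Bool :=
  @Nat.rec (fun _ => ℕ → ℕ → Bool) (fun _ _ => false) (fun _ ih cur G =>
    @Nat.rec (fun _ => Bool) (F cur)
      (fun y _ => force (Nat.log2 (Nat.succ y)) fun i =>
        @Bool.rec (fun _ => Bool)
          (force (Nat.mul m (Nat.div i m)) fun b => force (Nat.sub cur (Nat.pow 2 i)) fun cur' =>
            bits (fun l => force (Nat.add b l) fun j =>
              force (Nat.add cur' (Nat.pow 2 j)) fun cur'' =>
              force (Nat.lor G (blk W2 MW tab j)) fun G' => ih cur'' G') m (av M w G b))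
          true (Nat.ble B i))
      (Nat.land cur G)) k

/-- one of the windows is contained in `U` -/
noncomputable def anyw (wins : List ℕ) (U : ℕ) : Bool :=
  @List.rec ℕ (fun _ => Bool) false
    (fun w _ ih => @Bool.rec (fun _ => Bool) ih true (Nat.beq (Nat.land U w) w)) wins

/-- the test of a completed move -/
noncomputable def leafw (wins : List ℕ) (L : ℕ → ℕ → ℕ → Bool) (p c cur : ℕ) : Bool :=
  @Bool.rec (fun _ => Bool) (anyw wins (Nat.lor c cur)) true (L p c cur)

/-- the reduced moves: from the largest position, to a smaller letter; `A` accumulated blocks of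
the selection `c` -/
noncomputable def movR (n m M w W2 MW tab : ℕ) (wins : List ℕ) (L : ℕ → ℕ → ℕ → Bool) (c A : ℕ) :
    Bool :=
  force (Nat.shiftLeft (Nat.shiftRight A w) w) fun G0 =>
  allb (fun p => force (Nat.mul m p) fun b => force (Nat.land (Nat.shiftRight c b) M) fun d =>
    force (Nat.sub c (Nat.shiftLeft d b)) fun c' =>
    bits (fun l => force (Nat.add b l) fun j => force (Nat.add c' (Nat.pow 2 j)) fun cur =>
      force (Nat.lor G0 (blk W2 MW tab j)) fun G =>
      fclo m M w W2 MW tab b (leafw wins L p c) n cur G) m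
    (Nat.land (Nat.sub d 1) (av M w G0 b))) n

/-- all moves from the position `p` -/
noncomputable def movN (n m M w W2 MW tab : ℕ) (wins : List ℕ) (L : ℕ → ℕ → ℕ → Bool)
    (ps : List ℕ) (c A : ℕ) : Bool :=
  force (Nat.shiftLeft (Nat.shiftRight A w) w) fun G0 =>
  @List.rec ℕ (fun _ => Bool) true (fun p _ ih => @Bool.rec (fun _ => Bool) false ih
    (force (Nat.mul m p) fun b => force (Nat.land (Nat.shiftRight c b) M) fun d =>
    force (Nat.sub c (Nat.shiftLeft d b)) fun c' =>
    bits (fun l => force (Nat.add b l) fun j => force (Nat.add c' (Nat.pow 2 j)) fun cur =>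
      force (Nat.lor G0 (blk W2 MW tab j)) fun G =>
      fclo m M w W2 MW tab w (leafw wins L p c) n cur G) m (av M w G0 b))) ps

/-- search over the legal selections; `b = m * p`, `c` code, `A` accumulated blocks -/
noncomputable def fsel (m M w W2 MW tab : ℕ) (f : ℕ → ℕ → Bool) (k : ℕ) : ℕ → ℕ → ℕ → Bool :=
  @Nat.rec (fun _ => ℕ → ℕ → ℕ → Bool) (fun _ c A => f c A) (fun _ ih b c A =>
    force (Nat.add b m) fun b' =>
    bits (fun l => force (Nat.add b l) fun j => force (Nat.add c (Nat.pow 2 j)) fun c' =>
      force (Nat.lor A (blk W2 MW tab j)) fun A' => ih b' c' A') m (av M w A b)) k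

/-! ### Soundness -/

open Clo

/-- what the table says -/
structure Tab (D : Clo) (pw : ℕ → ℕ → ℕ) (w : ℕ) (T : ℕ → ℕ) : Prop where
  hw : w = D.m * D.n
  low : ∀ p < D.n, ∀ l < D.m, ∀ i < w, (T (D.m * p + l)).testBit i = (D.conf p l).testBit i
  high : ∀ p < D.n, ∀ l < D.m, ∀ i, (T (D.m * p + l)).testBit (w + i) = true →
    i = D.m * p + l ∨ (pw p l).testBit i = true

/-- no window of two atoms in the union of two selections -/
def NoPair (D : Clo) (pw : ℕ → ℕ → ℕ) (h h' : ℕ → ℕ) : Prop :=
  ∀ r < D.n, ∀ x, (h r = x ∨ h' r = x) → ∀ q < D.n, ∀ y, (h q = y ∨ h' q = y) →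
    (pw r x).testBit (D.m * q + y) = false

theorem atom_inj {m q x q' x' : ℕ} (hx : x < m) (hx' : x' < m) (h : m * q + x = m * q' + x') :
    q = q' ∧ x = x' := by
  have h1 : (m * q + x) / m = (m * q' + x') / m := by rw [h]
  rw [Nat.mul_add_div (by omega), Nat.mul_add_div (by omega), Nat.div_eq_of_lt hx,
    Nat.div_eq_of_lt hx'] at h1
  have e : q = q' := by simpa using h1
  subst e
  exact ⟨rfl, by omega⟩

theorem atom_lt {m n q x : ℕ} (hq : q < n) (hx : x < m) : m * q + x < m * n :=
  calc m * q + x < m * q + m := by omega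
    _ = m * (q + 1) := by ring
    _ ≤ m * n := Nat.mul_le_mul_left _ hq

theorem testBit_av {m w G b l : ℕ} (hl : l < m) (h1 : G.testBit (b + l) = false)
    (h2 : G.testBit (w + (b + l)) = false) : (av (2 ^ m - 1) w G b).testBit l = true := by
  have e1 : ∀ x y : ℕ, Nat.sub x y = x - y := fun _ _ => rfl
  have e2 : ∀ x y : ℕ, Nat.land x y = x &&& y := fun _ _ => rfl
  have e3 : ∀ x y : ℕ, Nat.lor x y = x ||| y := fun _ _ => rfl
  have e4 : ∀ x y : ℕ, Nat.shiftRight x y = x >>> y := fun _ _ => rfl
  have e5 : ∀ x y : ℕ, Nat.add x y = x + y := fun _ _ => rfl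
  have hX : (2 ^ m - 1) &&& (G >>> b ||| G >>> (w + b)) < 2 ^ m :=
    lt_of_le_of_lt Nat.and_le_left (by have := Nat.two_pow_pos m; omega)
  have e : av (2 ^ m - 1) w G b = 2 ^ m - (((2 ^ m - 1) &&& (G >>> b ||| G >>> (w + b))) + 1) := by
    unfold av
    rw [e1, e2, e3, e4, e4, e5]
    omega
  rw [e, Nat.testBit_two_pow_sub_succ hX, Nat.testBit_and, Nat.testBit_or, Nat.testBit_shiftRight,
    Nat.testBit_shiftRight, h1, Nat.add_assoc, h2]
  simp [hl]

theorem scode_upd {m n : ℕ} {g g' : ℕ → ℕ} {q : ℕ} (hq : q < n) (hg : ∀ x < n, x ≠ q → g x = g' x) :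
    scode m g n - 2 ^ (m * q + g q) + 2 ^ (m * q + g' q) = scode m g' n := by
  have e0 : ∀ f : ℕ → ℕ, scode m f n = pcode m (fun x => if x = q then 0 else 2 ^ f x) n +
      2 ^ (m * q + f q) := by
    intro f
    have e1 : 2 ^ (m * q + f q) = 2 ^ f q * 2 ^ (m * q) := by rw [← pow_add, Nat.add_comm]
    rw [e1, ← pcode_single (m := m) (x := 2 ^ f q) hq, ← pcode_add, scode]
    refine pcode_congr fun x _ => ?_
    by_cases e : x = q
    · subst e; simp
    · simp [e]
  have e2 : pcode m (fun x => if x = q then 0 else 2 ^ g x) n =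
      pcode m (fun x => if x = q then 0 else 2 ^ g' x) n := pcode_congr fun x hx => by
    by_cases e : x = q
    · simp [e]
    · simp only [if_neg e]; rw [hg x hx e]
  rw [e0 g, e0 g', e2, Nat.add_sub_cancel]

/-- the invariant of the completion -/
structure FSt (D : Clo) (pw : ℕ → ℕ → ℕ) (w : ℕ) (h h' : ℕ → ℕ) (P : ℕ → Bool) (cur G : ℕ) :
    Prop where
  sub : ∀ q, P q = true → q < D.n ∧ h q ≠ h' q
  hcur : cur = scode D.m (mix h h' P) D.n
  low : ∀ i < w, (G.testBit i = true ↔ ∃ r, P r = true ∧ (D.conf r (h' r)).testBit i = true)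
  high : ∀ i, G.testBit (w + i) = true → (∃ r < D.n, i = D.m * r + h r) ∨
    (∃ r, P r = true ∧ i = D.m * r + h' r) ∨
    (∃ r < D.n, ∃ x, (h r = x ∨ h' r = x) ∧ (pw r x).testBit i = true)

variable {D : Clo} {pw : ℕ → ℕ → ℕ} {w : ℕ}

theorem FSt.free {T : ℕ → ℕ} (hT : Tab D pw w T) {h h' : ℕ → ℕ} (H : Clo.Leg D h) (H' : Clo.Leg D h')
    (N : NoPair D pw h h') {P : ℕ → Bool} {cur G : ℕ} (st : FSt D pw w h h' P cur G) {q : ℕ}
    (hq : q < D.n) (hP : P q = false) (hd : h q ≠ h' q) :
    (av (2 ^ D.m - 1) w G (D.m * q)).testBit (h' q) = true := by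
  have hl := H'.lt q hq
  refine testBit_av hl ?_ ?_
  · rw [Bool.eq_false_iff]
    intro hb
    obtain ⟨r, h1, h2⟩ := (st.low _ (by rw [hT.hw]; exact atom_lt hq hl)).1 hb
    rw [H'.free r (st.sub r h1).1 q hq] at h2
    exact absurd h2 (by simp)
  · rw [Bool.eq_false_iff]
    intro hb
    rcases st.high _ hb with ⟨r, h1, h2⟩ | ⟨r, h1, h2⟩ | ⟨r, h1, x, h2, h3⟩
    · obtain ⟨e1, e2⟩ := atom_inj hl (H.lt r h1) h2
      subst e1; exact hd e2.symm
    · obtain ⟨e1, e2⟩ := atom_inj hl (H'.lt r (st.sub r h1).1) h2
      subst e1; rw [h1] at hP; exact absurd hP (by simp)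
    · rw [N r h1 x h2 q hq _ (Or.inr rfl)] at h3
      exact absurd h3 (by simp)

theorem FSt.next {T : ℕ → ℕ} (hT : Tab D pw w T) {h h' : ℕ → ℕ} (H' : Clo.Leg D h') {P : ℕ → Bool}
    {cur G : ℕ} (st : FSt D pw w h h' P cur G) {q : ℕ} (hq : q < D.n) (hP : P q = false)
    (hd : h q ≠ h' q) : FSt D pw w h h' (fun x => P x || x == q)
      (cur - 2 ^ (D.m * q + h q) + 2 ^ (D.m * q + h' q))
      (Nat.lor G (T (D.m * q + h' q))) where
  sub := by
    intro x hx
    rcases Bool.or_eq_true_iff.1 hx with h1 | h1
    · exact st.sub x h1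
    · rw [beq_iff_eq] at h1; subst h1; exact ⟨hq, hd⟩
  hcur := by
    have e := scode_upd (m := D.m) (g := mix h h' P) (g' := mix h h' fun x => P x || x == q) hq
      (fun x _ hxq => by unfold mix; simp [hxq])
    have e1 : mix h h' P q = h q := by unfold mix; rw [if_neg (by simp [hP])]
    have e2 : mix h h' (fun x => P x || x == q) q = h' q := by unfold mix; simp
    rw [e1, e2] at e
    rw [st.hcur]; exact e
  low := by
    intro i hi
    rw [lor_bit, Bool.or_eq_true, st.low i hi, hT.low q hq _ (H'.lt q hq) i hi]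
    constructor
    · rintro (⟨r, h1, h2⟩ | h1)
      · exact ⟨r, by simp [h1], h2⟩
      · exact ⟨q, by simp, h1⟩
    · rintro ⟨r, h1, h2⟩
      rcases Bool.or_eq_true_iff.1 h1 with h1 | h1
      · exact Or.inl ⟨r, h1, h2⟩
      · rw [beq_iff_eq] at h1; subst h1; exact Or.inr h2
  high := by
    intro i hi
    rw [lor_bit, Bool.or_eq_true] at hi
    rcases hi with hi | hi
    · rcases st.high i hi with h1 | ⟨r, h1, h2⟩ | h1
      · exact Or.inl h1
      · exact Or.inr (Or.inl ⟨r, by simp [h1], h2⟩)
      · exact Or.inr (Or.inr h1)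
    · rcases hT.high q hq _ (H'.lt q hq) i hi with h1 | h1
      · exact Or.inr (Or.inl ⟨q, by simp, h1⟩)
      · exact Or.inr (Or.inr ⟨q, hq, h' q, Or.inr rfl, h1⟩)

theorem FSt.leg (hw : w = D.m * D.n) {h h' : ℕ → ℕ} (H : Clo.Leg D h) (H' : Clo.Leg D h')
    (S : Symm D) {P : ℕ → Bool} {cur G : ℕ} (st : FSt D pw w h h' P cur G)
    (h0 : Nat.land cur G = 0) : Clo.Leg D (mix h h' P) where
  lt := by
    intro q hq; unfold mix; split_ifs
    · exact H'.lt q hq
    · exact H.lt q hq
  free := by
    have hlt : ∀ q < D.n, mix h h' P q < D.m := by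
      intro q hq; unfold mix; split_ifs
      · exact H'.lt q hq
      · exact H.lt q hq
    have key : ∀ p < D.n, ∀ q < D.n, P p = true → P q = false →
        (D.conf p (h' p)).testBit (D.m * q + h q) = false := by
      intro p hp q hq hPp hPq
      by_contra hc
      rw [Bool.not_eq_false] at hc
      have hG : G.testBit (D.m * q + h q) = true :=
        (st.low _ (by rw [hw]; exact atom_lt hq (H.lt q hq))).2 ⟨p, hPp, hc⟩
      have hr : cur.testBit (D.m * q + h q) = true := by
        rw [st.hcur, testBit_scode hlt hq (H.lt q hq), decide_eq_true_eq]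
        unfold mix; rw [if_neg (by simp [hPq])]
      have e1 : (Nat.land cur G).testBit (D.m * q + h q) = false := by rw [h0, Nat.zero_testBit]
      rw [land_bit, hr, hG] at e1
      exact absurd e1 (by simp)
    intro p hp q hq
    unfold mix
    cases hPp : P p <;> cases hPq : P q
    · simpa using H.free p hp q hq
    · have := key q hq p hp hPq hPp
      rw [S q hq (h' q) (H'.lt q hq) p hp (h p) (H.lt p hp)] at this
      simpa using this
    · simpa using key p hp q hq hPp hPq
    · simpa using H'.free p hp q hq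

/-- **Completion.** -/
theorem fclo_sound {W2 MW tab B : ℕ} (hT : Tab D pw w (blk W2 MW tab)) {h h' : ℕ → ℕ}
    (H : Clo.Leg D h) (H' : Clo.Leg D h') (S : Symm D) (N : NoPair D pw h h') {F : ℕ → Bool} {p : ℕ}
    (hB : ∀ q < D.n, h q ≠ h' q → q ≠ p → D.m * q + D.m ≤ B) :
    ∀ (k : ℕ) (P : ℕ → Bool) {cur G : ℕ}, FSt D pw w h h' P cur G → P p = true →
    fclo D.m (2 ^ D.m - 1) w W2 MW tab B F k cur G = true →
    ∃ P' : ℕ → Bool, P' p = true ∧
      (∀ q, P' q = true → q < D.n ∧ h q ≠ h' q) ∧ Clo.Leg D (mix h h' P') ∧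
      F (scode D.m (mix h h' P') D.n) = true
  | 0, P, cur, G, _, _, hc => by
      have : false = true := hc
      exact absurd this (by simp)
  | k + 1, P, cur, G, st, hPp, hc => by
      have hlt : ∀ q < D.n, mix h h' P q < D.m := by
        intro q hq; unfold mix; split_ifs
        · exact H'.lt q hq
        · exact H.lt q hq
      cases hx : Nat.land cur G with
      | zero =>
          have hc' : @Nat.rec (fun _ => Bool) (F cur)
            (fun y _ => force (Nat.log2 (Nat.succ y)) fun i =>
              @Bool.rec (fun _ => Bool)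
                (force (Nat.mul D.m (Nat.div i D.m)) fun b =>
                  force (Nat.sub cur (Nat.pow 2 i)) fun cur' =>
                  bits (fun l => force (Nat.add b l) fun j =>
                    force (Nat.add cur' (Nat.pow 2 j)) fun cur'' =>
                    force (Nat.lor G (blk W2 MW tab j)) fun G' =>
                    fclo D.m (2 ^ D.m - 1) w W2 MW tab B F k cur'' G') D.m
                    (av (2 ^ D.m - 1) w G b))
                true (Nat.ble B i)) (Nat.land cur G) = true := hc
          rw [hx] at hc'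
          refine ⟨P, hPp, st.sub, st.leg hT.hw H H' S hx, ?_⟩
          rw [← st.hcur]; exact hc'
      | succ y =>
          have hc' : @Nat.rec (fun _ => Bool) (F cur)
            (fun y _ => force (Nat.log2 (Nat.succ y)) fun i =>
              @Bool.rec (fun _ => Bool)
                (force (Nat.mul D.m (Nat.div i D.m)) fun b =>
                  force (Nat.sub cur (Nat.pow 2 i)) fun cur' =>
                  bits (fun l => force (Nat.add b l) fun j =>
                    force (Nat.add cur' (Nat.pow 2 j)) fun cur'' =>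
                    force (Nat.lor G (blk W2 MW tab j)) fun G' =>
                    fclo D.m (2 ^ D.m - 1) w W2 MW tab B F k cur'' G') D.m
                    (av (2 ^ D.m - 1) w G b))
                true (Nat.ble B i)) (Nat.land cur G) = true := hc
          rw [hx] at hc'
          have hc2 : force (Nat.log2 (Nat.succ y)) (fun i =>
              @Bool.rec (fun _ => Bool)
                (force (Nat.mul D.m (Nat.div i D.m)) fun b =>
                  force (Nat.sub cur (Nat.pow 2 i)) fun cur' =>
                  bits (fun l => force (Nat.add b l) fun j =>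
                    force (Nat.add cur' (Nat.pow 2 j)) fun cur'' =>
                    force (Nat.lor G (blk W2 MW tab j)) fun G' =>
                    fclo D.m (2 ^ D.m - 1) w W2 MW tab B F k cur'' G') D.m
                    (av (2 ^ D.m - 1) w G b))
                true (Nat.ble B i)) = true := hc'
          rw [force_eq] at hc2
          have hb : (Nat.land cur G).testBit (Nat.log2 (Nat.succ y)) = true := by
            rw [hx]; exact Nat.testBit_log2 (by omega)
          set i := Nat.log2 (Nat.succ y) with hi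
          rw [land_bit, Bool.and_eq_true] at hb
          obtain ⟨hb1, hb2⟩ := hb
          have hb3 := hb1
          rw [st.hcur] at hb3
          obtain ⟨b0, b1, b2, b3⟩ := bit_atom (fun q hq => two_pow_lt (hlt q hq)) hb3
          have hb3' : (scode D.m (mix h h' P) D.n).testBit i = true := hb3
          rw [b2, testBit_scode hlt b1 b3, decide_eq_true_eq] at hb3'
          set q := i / D.m with hq
          have hiw : i < w := by rw [hT.hw, b2]; exact atom_lt b1 b3
          obtain ⟨r, hr1, hr2⟩ := (st.low i hiw).1 hb2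
          have hPq : P q = false := by
            rw [Bool.eq_false_iff]
            intro hPq
            have e : h' q = i % D.m := by
              rw [← hb3']; unfold mix; rw [if_pos hPq]
            have := H'.free r (st.sub r hr1).1 q b1
            rw [e, ← b2, hr2] at this
            exact absurd this (by simp)
          have c2 : h q = i % D.m := by
            rw [← hb3']; unfold mix; rw [if_neg (by simp [hPq])]
          have hne : h q ≠ h' q := by
            intro he
            have := H'.free r (st.sub r hr1).1 q b1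
            rw [← he, c2, ← b2, hr2] at this
            exact absurd this (by simp)
          have hqp : q ≠ p := by
            rintro e
            rw [e, hPp] at hPq
            exact absurd hPq (by simp)
          have hble : Nat.ble B i = false := by
            rw [Bool.eq_false_iff]
            intro hle
            have := Nat.le_of_ble_eq_true hle
            have h2 := hB q b1 hne hqp
            omega
          rw [hble] at hc2
          have hc3 : force (Nat.mul D.m (Nat.div i D.m)) (fun b =>
                  force (Nat.sub cur (Nat.pow 2 i)) fun cur' =>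
                  bits (fun l => force (Nat.add b l) fun j =>
                    force (Nat.add cur' (Nat.pow 2 j)) fun cur'' =>
                    force (Nat.lor G (blk W2 MW tab j)) fun G' =>
                    fclo D.m (2 ^ D.m - 1) w W2 MW tab B F k cur'' G') D.m
                    (av (2 ^ D.m - 1) w G b)) = true := hc2
          simp only [force_eq] at hc3
          have hl := bits_sound hc3 (h' q) (st.free hT H H' N b1 hPq hne)
          have st2 := st.next hT H' b1 hPq hne
          have e1 : i = D.m * q + h q := by rw [c2]; exact b2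
          have hl' : fclo D.m (2 ^ D.m - 1) w W2 MW tab B F k
              (cur - 2 ^ i + 2 ^ (D.m * q + h' q))
              (Nat.lor G (blk W2 MW tab (D.m * q + h' q))) = true := hl
          rw [e1] at hl'
          exact fclo_sound hT H H' S N hB k _ st2 (by simp [hPp]) hl'

/-- windows -/
theorem anyw_sound {U : ℕ} : ∀ {wins : List ℕ}, anyw wins U = true → ∃ x ∈ wins, Nat.land U x = x
  | [], h => by
      have : false = true := h
      exact absurd this (by simp)
  | x :: t, h => by
      have h1 : @Bool.rec (fun _ => Bool) (anyw t U) true (Nat.beq (Nat.land U x) x) = true := h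
      cases hb : Nat.beq (Nat.land U x) x with
      | false =>
          rw [hb] at h1
          obtain ⟨y, hy, h2⟩ := anyw_sound (wins := t) h1
          exact ⟨y, List.mem_cons_of_mem _ hy, h2⟩
      | true => exact ⟨x, List.mem_cons_self .., Nat.eq_of_beq_eq_true hb⟩

theorem leafw_sound {h h' : ℕ → ℕ} (H : Clo.Leg D h) (H' : Clo.Leg D h') (N : NoWin D h h')
    {L : ℕ → ℕ → ℕ → Bool} {p : ℕ} {P : ℕ → Bool}
    (hc : leafw D.wins L p (scode D.m h D.n) (scode D.m (mix h h' P) D.n) = true) :
    L p (scode D.m h D.n) (scode D.m (mix h h' P) D.n) = true := by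
  cases hL : L p (scode D.m h D.n) (scode D.m (mix h h' P) D.n) with
  | true => rfl
  | false =>
      exfalso
      unfold leafw at hc
      rw [hL] at hc
      obtain ⟨x, hx, h1⟩ := anyw_sound hc
      refine noWin_of_sub N (a := Nat.lor (scode D.m h D.n) (scode D.m (mix h h' P) D.n)) ?_ x hx h1
      intro i hi
      rw [lor_bit, Bool.or_eq_true] at hi
      rcases hi with hi | hi
      · rw [lor_bit, hi, Bool.true_or]
      · exact mix_bit H.lt H'.lt hi

/-- the invariant of the search over the selections -/
structure ASt (D : Clo) (pw : ℕ → ℕ → ℕ) (w : ℕ) (h : ℕ → ℕ) (p A : ℕ) : Prop where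
  low : ∀ i < w, (A.testBit i = true ↔ ∃ r < p, (D.conf r (h r)).testBit i = true)
  high : ∀ i, A.testBit (w + i) = true → ∃ r < p, i = D.m * r + h r ∨
    (pw r (h r)).testBit i = true

theorem fsel_sound {W2 MW tab : ℕ} (hT : Tab D pw w (blk W2 MW tab)) {h : ℕ → ℕ}
    (H : Clo.Leg D h) (S : Symm D) (N : NoPair D pw h h) {f : ℕ → ℕ → Bool} :
    ∀ (k p : ℕ) {A : ℕ}, p + k = D.n → ASt D pw w h p A →
    fsel D.m (2 ^ D.m - 1) w W2 MW tab f k (D.m * p) (scode D.m h p) A = true →
    ∃ A', ASt D pw w h D.n A' ∧ f (scode D.m h D.n) A' = true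
  | 0, p, A, hk, st, hc => by
      have e : p = D.n := by omega
      subst e
      exact ⟨A, st, hc⟩
  | k + 1, p, A, hk, st, hc => by
      have hp : p < D.n := by omega
      have hc1 : force (Nat.add (D.m * p) D.m) (fun b' =>
        bits (fun l => force (Nat.add (D.m * p) l) fun j =>
          force (Nat.add (scode D.m h p) (Nat.pow 2 j)) fun c' =>
          force (Nat.lor A (blk W2 MW tab j)) fun A' =>
          fsel D.m (2 ^ D.m - 1) w W2 MW tab f k b' c' A') D.m
          (av (2 ^ D.m - 1) w A (D.m * p))) = true := hc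
      simp only [force_eq] at hc1
      have hl := H.lt p hp
      have hav : (av (2 ^ D.m - 1) w A (D.m * p)).testBit (h p) = true := by
        refine testBit_av hl ?_ ?_
        · rw [Bool.eq_false_iff]
          intro hb
          obtain ⟨r, h1, h2⟩ := (st.low _ (by rw [hT.hw]; exact atom_lt hp hl)).1 hb
          rw [H.free r (by omega) p hp] at h2
          exact absurd h2 (by simp)
        · rw [Bool.eq_false_iff]
          intro hb
          obtain ⟨r, h1, h2⟩ := st.high _ hb
          rcases h2 with h2 | h2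
          · obtain ⟨e1, -⟩ := atom_inj hl (H.lt r (by omega)) h2
            omega
          · rw [N r (by omega) _ (Or.inl rfl) p hp _ (Or.inl rfl)] at h2
            exact absurd h2 (by simp)
      have hb := bits_sound hc1 (h p) hav
      have e1 : Nat.add (D.m * p) D.m = D.m * (p + 1) := by
        show D.m * p + D.m = D.m * (p + 1)
        ring
      have e2 : Nat.add (scode D.m h p) (Nat.pow 2 (Nat.add (D.m * p) (h p))) =
          scode D.m h (p + 1) := by
        show scode D.m h p + 2 ^ (D.m * p + h p) = scode D.m h p + 2 ^ h p * 2 ^ (D.m * p)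
        rw [← pow_add, Nat.add_comm (h p)]
      rw [e1, e2] at hb
      refine fsel_sound hT H S N k (p + 1) (by omega) ?_ hb
      constructor
      · intro i hi
        show (Nat.lor A (blk W2 MW tab (D.m * p + h p))).testBit i = true ↔ _
        rw [lor_bit, Bool.or_eq_true, st.low i hi, hT.low p hp _ hl i hi]
        constructor
        · rintro (⟨r, h1, h2⟩ | h1)
          · exact ⟨r, by omega, h2⟩
          · exact ⟨p, by omega, h1⟩
        · rintro ⟨r, h1, h2⟩
          by_cases e : r = p
          · subst e; exact Or.inr h2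
          · exact Or.inl ⟨r, by omega, h2⟩
      · intro i hi
        have hi' : (Nat.lor A (blk W2 MW tab (D.m * p + h p))).testBit (w + i) = true := hi
        rw [lor_bit, Bool.or_eq_true] at hi'
        rcases hi' with hi' | hi'
        · obtain ⟨r, h1, h2⟩ := st.high i hi'
          exact ⟨r, by omega, h2⟩
        · exact ⟨p, by omega, hT.high p hp _ hl i hi'⟩

theorem aSt_zero {h : ℕ → ℕ} : ASt D pw w h 0 0 where
  low := by
    intro i _
    rw [Nat.zero_testBit]
    constructor
    · intro h; exact absurd h (by simp)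
    · rintro ⟨r, h1, -⟩; omega
  high := by
    intro i hi
    rw [Nat.zero_testBit] at hi
    exact absurd hi (by simp)

/-- **Every legal selection passes `f`.** -/
theorem fsel_all {W2 MW tab : ℕ} (hT : Tab D pw w (blk W2 MW tab)) (S : Symm D)
    {f : ℕ → ℕ → Bool} (hc : fsel D.m (2 ^ D.m - 1) w W2 MW tab f D.n 0 0 0 = true) {h : ℕ → ℕ}
    (H : Clo.Leg D h) (N : NoPair D pw h h) :
    ∃ A', ASt D pw w h D.n A' ∧ f (scode D.m h D.n) A' = true :=
  fsel_sound hT H S N D.n 0 (Nat.zero_add _) aSt_zero hc

theorem testBit_G0 {A w : ℕ} : (∀ i < w, (Nat.shiftLeft (Nat.shiftRight A w) w).testBit i = false) ∧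
    ∀ i, (Nat.shiftLeft (Nat.shiftRight A w) w).testBit (w + i) = A.testBit (w + i) := by
  have e : Nat.shiftLeft (Nat.shiftRight A w) w = (A >>> w) <<< w := rfl
  constructor
  · intro i hi
    rw [e, Nat.testBit_shiftLeft]
    simp [show ¬ w ≤ i by omega]
  · intro i
    rw [e, Nat.testBit_shiftLeft, Nat.testBit_shiftRight]
    simp

/-- the start of a move -/
theorem start_st {T : ℕ → ℕ} (hT : Tab D pw w T) {h h' : ℕ → ℕ} (H : Clo.Leg D h)
    (H' : Clo.Leg D h') (N : NoPair D pw h h') {A : ℕ} (hA : ASt D pw w h D.n A) {p : ℕ}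
    (hp : p < D.n) (hd : h p ≠ h' p) :
    (av (2 ^ D.m - 1) w (Nat.shiftLeft (Nat.shiftRight A w) w) (D.m * p)).testBit (h' p) = true ∧
    FSt D pw w h h' (fun x => x == p)
      (scode D.m h D.n - 2 ^ (D.m * p + h p) + 2 ^ (D.m * p + h' p))
      (Nat.lor (Nat.shiftLeft (Nat.shiftRight A w) w) (T (D.m * p + h' p))) := by
  have st0 : FSt D pw w h h' (fun _ => false) (scode D.m h D.n)
      (Nat.shiftLeft (Nat.shiftRight A w) w) := by
    refine ⟨fun q hq => absurd hq (by simp), ?_, ?_, ?_⟩
    · exact pcode_congr fun q _ => by unfold mix; simp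
    · intro i hi
      rw [testBit_G0.1 i hi]
      constructor
      · intro h; exact absurd h (by simp)
      · rintro ⟨r, h1, -⟩; exact absurd h1 (by simp)
    · intro i hi
      rw [testBit_G0.2 i] at hi
      obtain ⟨r, h1, h2 | h2⟩ := hA.high i hi
      · exact Or.inl ⟨r, h1, h2⟩
      · exact Or.inr (Or.inr ⟨r, h1, _, Or.inl rfl, h2⟩)
  refine ⟨st0.free hT H H' N hp rfl hd, ?_⟩
  have := st0.next hT H' hp rfl hd
  have e : (fun x : ℕ => false || x == p) = fun x => x == p := by funext x; simp
  rwa [e] at this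

theorem digit_code {h : ℕ → ℕ} (H : Clo.Leg D h) {p : ℕ} (hp : p < D.n) :
    Nat.land (Nat.shiftRight (scode D.m h D.n) (Nat.mul D.m p)) (2 ^ D.m - 1) = 2 ^ h p := by
  have h1 := pdig_pcode (m := D.m) (σ := fun q => 2 ^ h q) D.n
    (fun q hq => two_pow_lt (H.lt q hq)) p hp
  have e : Nat.land (Nat.shiftRight (scode D.m h D.n) (Nat.mul D.m p)) (2 ^ D.m - 1) =
      ((scode D.m h D.n) >>> (D.m * p)) &&& (2 ^ D.m - 1) := rfl
  rw [e, Nat.and_two_pow_sub_one_eq_mod, Nat.shiftRight_eq_div_pow]
  exact h1

theorem erase_code {h : ℕ → ℕ} {p : ℕ} :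
    Nat.sub (scode D.m h D.n) (Nat.shiftLeft (2 ^ h p) (Nat.mul D.m p)) =
      scode D.m h D.n - 2 ^ (D.m * p + h p) := by
  have e : Nat.shiftLeft (2 ^ h p) (Nat.mul D.m p) = 2 ^ h p <<< (D.m * p) := rfl
  rw [e, Nat.shiftLeft_eq, ← pow_add, Nat.add_comm (h p)]
  rfl

/-- **One reduced move.** -/
theorem movR_step {W2 MW tab : ℕ} (hT : Tab D pw w (blk W2 MW tab)) (S : Symm D)
    {L : ℕ → ℕ → ℕ → Bool}
    (hc : fsel D.m (2 ^ D.m - 1) w W2 MW tab
      (movR D.n D.m (2 ^ D.m - 1) w W2 MW tab D.wins L) D.n 0 0 0 = true) {h h' : ℕ → ℕ}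
    (H : Clo.Leg D h) (H' : Clo.Leg D h') (N : NoWin D h h') (N2 : NoPair D pw h h') {p : ℕ}
    (hp : p < D.n) (hd : h' p < h p) (hmax : ∀ q < D.n, p < q → h q = h' q) :
    ∃ P : ℕ → Bool, P p = true ∧ (∀ q, P q = true → q < D.n ∧ h q ≠ h' q) ∧
      Clo.Leg D (mix h h' P) ∧ L p (scode D.m h D.n) (scode D.m (mix h h' P) D.n) = true := by
  have N2' : NoPair D pw h h := fun r hr x hx q hq y hy =>
    N2 r hr x (Or.inl (by rcases hx with h1 | h1 <;> exact h1)) q hq y
      (Or.inl (by rcases hy with h1 | h1 <;> exact h1))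
  obtain ⟨A, hA, hf⟩ := fsel_all hT S hc H N2'
  unfold movR at hf
  simp only [force_eq] at hf
  have h1 := allb_sound hf p hp
  obtain ⟨g1, g2⟩ := start_st hT H H' N2 hA hp (by omega)
  rw [digit_code H hp] at h1
  have h2 := bits_sound h1 (h' p) (by
    rw [land_bit, Bool.and_eq_true]
    refine ⟨?_, g1⟩
    show (2 ^ h p - 1).testBit (h' p) = true
    rw [Nat.testBit_two_pow_sub_one]
    simp [hd])
  rw [erase_code] at h2
  obtain ⟨P, a1, a2, a3, a4⟩ := fclo_sound hT H H' S N2 (p := p) (B := Nat.mul D.m p)
    (by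
      intro q hq hne hqp
      have hlt : q < p := by
        by_contra hc
        exact hne (hmax q hq (by omega))
      show D.m * q + D.m ≤ D.m * p
      calc D.m * q + D.m = D.m * (q + 1) := by ring
        _ ≤ D.m * p := Nat.mul_le_mul_left _ hlt) D.n _ g2 (by simp) h2
  exact ⟨P, a1, a2, a3, leafw_sound H H' N a4⟩

/-- the largest position of difference -/
theorem exists_max_diff {n : ℕ} {h h' : ℕ → ℕ} (hne : df n h h' ≠ ∅) :
    ∃ p < n, h p ≠ h' p ∧ ∀ q < n, p < q → h q = h' q := by
  obtain ⟨p, hp, hm⟩ := (df n h h').exists_max_image id (Finset.nonempty_iff_ne_empty.2 hne)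
  rw [df, Finset.mem_filter, Finset.mem_range] at hp
  refine ⟨p, hp.1, hp.2, fun q hq hpq => ?_⟩
  by_contra hd
  have := hm q (by rw [df, Finset.mem_filter, Finset.mem_range]; exact ⟨hq, hd⟩)
  simp only [id] at this
  omega

theorem noWin_mix {h h' : ℕ → ℕ} (H : Clo.Leg D h) (H' : Clo.Leg D h') (N : NoWin D h h')
    (P : ℕ → Bool) : NoWin D (mix h h' P) h' := by
  refine noWin_of_sub N fun i hi => ?_
  rw [lor_bit, Bool.or_eq_true] at hi
  rcases hi with hi | hi
  · exact mix_bit H.lt H'.lt hi
  · rw [lor_bit, hi, Bool.or_true]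

theorem noPair_mix {h h' : ℕ → ℕ} (N : NoPair D pw h h') (P : ℕ → Bool) :
    NoPair D pw (mix h h' P) h' := by
  have key : ∀ r x, mix h h' P r = x ∨ h' r = x → h r = x ∨ h' r = x := by
    intro r x hx
    unfold mix at hx
    split_ifs at hx
    · rcases hx with h1 | h1 <;> exact Or.inr h1
    · exact hx
  exact fun r hr x hx q hq y hy => N r hr x (key r x hx) q hq y (key q y hy)

theorem noWin_symm {h h' : ℕ → ℕ} (N : NoWin D h h') : NoWin D h' h := by
  intro x hx
  have e : Nat.lor (scode D.m h' D.n) (scode D.m h D.n) =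
      Nat.lor (scode D.m h D.n) (scode D.m h' D.n) := by
    exact Nat.or_comm (scode D.m h' D.n) (scode D.m h D.n)
  rw [e]; exact N x hx

theorem noPair_symm {h h' : ℕ → ℕ} (N : NoPair D pw h h') : NoPair D pw h' h :=
  fun r hr x hx q hq y hy => N r hr x hx.symm q hq y hy.symm

theorem card_df_mix {n : ℕ} {h h' : ℕ → ℕ} {P : ℕ → Bool} {p : ℕ} (hp : p < n) (hd : h p ≠ h' p)
    (hP : P p = true) : (df n (mix h h' P) h').card < (df n h h').card := by
  apply Finset.card_lt_card
  rw [Finset.ssubset_iff_of_subset]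
  · refine ⟨p, ?_, ?_⟩
    · rw [df, Finset.mem_filter, Finset.mem_range]; exact ⟨hp, hd⟩
    · rw [df, Finset.mem_filter, not_and, not_not]
      intro _
      unfold mix
      rw [if_pos hP]
  · intro q hq
    rw [df, Finset.mem_filter, Finset.mem_range] at hq ⊢
    refine ⟨hq.1, fun e => hq.2 ?_⟩
    unfold mix
    split_ifs
    · rfl
    · exact e

/-- **Chains of reduced moves**, as an induction principle. -/
theorem chain_induct {W2 MW tab : ℕ} (hT : Tab D pw w (blk W2 MW tab)) (S : Symm D)
    {L : ℕ → ℕ → ℕ → Bool}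
    (hc : fsel D.m (2 ^ D.m - 1) w W2 MW tab
      (movR D.n D.m (2 ^ D.m - 1) w W2 MW tab D.wins L) D.n 0 0 0 = true)
    {C : (ℕ → ℕ) → (ℕ → ℕ) → Prop} (hrefl : ∀ a b, (∀ q < D.n, a q = b q) → C a b)
    (hsymm : ∀ a b, C a b → C b a)
    (hstep : ∀ a b P p, Clo.Leg D a → Clo.Leg D b → NoWin D a b → NoPair D pw a b → P p = true →
      (∀ q, P q = true → q < D.n ∧ a q ≠ b q) → Clo.Leg D (mix a b P) →
      L p (scode D.m a D.n) (scode D.m (mix a b P) D.n) = true → C (mix a b P) b → C a b) :
    ∀ (k : ℕ) {h h' : ℕ → ℕ}, Clo.Leg D h → Clo.Leg D h' → NoWin D h h' → NoPair D pw h h' →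
      (df D.n h h').card ≤ k → C h h' := by
  intro k
  induction k with
  | zero =>
      intro h h' _ _ _ _ hk
      have h0 : df D.n h h' = ∅ := Finset.card_eq_zero.1 (by omega)
      refine hrefl _ _ fun q hq => ?_
      by_contra hne
      have : q ∈ df D.n h h' := by
        rw [df, Finset.mem_filter, Finset.mem_range]
        exact ⟨hq, hne⟩
      rw [h0] at this
      exact absurd this (Finset.notMem_empty _)
  | succ k ih =>
      have main : ∀ {h h' : ℕ → ℕ}, Clo.Leg D h → Clo.Leg D h' → NoWin D h h' → NoPair D pw h h' →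
          (df D.n h h').card ≤ k + 1 → ∀ p < D.n, h' p < h p → (∀ q < D.n, p < q → h q = h' q) →
          C h h' := by
        intro h h' H H' N N2 hk p hp hd hmax
        obtain ⟨P, g1, g2, g3, g4⟩ := movR_step hT S hc H H' N N2 hp hd hmax
        have hlt := card_df_mix (P := P) hp (show h p ≠ h' p by omega) g1
        exact hstep h h' P p H H' N N2 g1 g2 g3 g4
          (ih g3 H' (noWin_mix H H' N P) (noPair_mix N2 P) (by omega))
      intro h h' H H' N N2 hk
      by_cases h0 : df D.n h h' = ∅
      · exact ih H H' N N2 (by rw [h0]; simp)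
      · obtain ⟨p, hp, hd, hmax⟩ := exists_max_diff h0
        rcases Nat.lt_or_gt_of_ne hd with h1 | h1
        · refine hsymm _ _ (main H' H (noWin_symm N) (noPair_symm N2) ?_ p hp h1
            fun q hq hpq => (hmax q hq hpq).symm)
          have e : df D.n h' h = df D.n h h' := by
            unfold df
            exact Finset.filter_congr fun q _ => ⟨Ne.symm, Ne.symm⟩
          rw [e]; exact hk
        · exact main H H' N N2 hk p hp h1 hmax

/-- **Classes.** -/
theorem cls_sound {W2 MW tab : ℕ} (hT : Tab D pw w (blk W2 MW tab)) (S : Symm D) {cls : ℕ → ℕ}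
    (hc : fsel D.m (2 ^ D.m - 1) w W2 MW tab
      (movR D.n D.m (2 ^ D.m - 1) w W2 MW tab D.wins (same cls)) D.n 0 0 0 = true)
    {h h' : ℕ → ℕ} (H : Clo.Leg D h) (H' : Clo.Leg D h') (N : NoWin D h h')
    (N2 : NoPair D pw h h') : cls (scode D.m h D.n) = cls (scode D.m h' D.n) :=
  chain_induct hT S hc (C := fun a b => cls (scode D.m a D.n) = cls (scode D.m b D.n))
    (fun a b hab => by
      have e : scode D.m a D.n = scode D.m b D.n := pcode_congr fun q hq => by rw [hab q hq]
      rw [e])
    (fun _ _ hab => hab.symm)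
    (fun _ _ _ _ _ _ _ _ _ _ _ hL hC => (Nat.eq_of_beq_eq_true hL).symm.trans hC) _ H H' N N2 le_rfl

theorem movN_rec {n m M w W2 MW tab : ℕ} {wins : List ℕ} {L : ℕ → ℕ → ℕ → Bool} {c A : ℕ} :
    ∀ {ps : List ℕ}, movN n m M w W2 MW tab wins L ps c A = true → ∀ p ∈ ps,
    bits (fun l => force (Nat.add (Nat.mul m p) l) fun j =>
      force (Nat.add (Nat.sub c (Nat.shiftLeft (Nat.land (Nat.shiftRight c (Nat.mul m p)) M)
        (Nat.mul m p))) (Nat.pow 2 j)) fun cur =>
      force (Nat.lor (Nat.shiftLeft (Nat.shiftRight A w) w) (blk W2 MW tab j)) fun G =>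
      fclo m M w W2 MW tab w (leafw wins L p c) n cur G) m
      (av M w (Nat.shiftLeft (Nat.shiftRight A w) w) (Nat.mul m p)) = true
  | [], _, p, hp => absurd hp (by simp)
  | x :: t, hc, p, hp => by
      unfold movN at hc
      rw [force_eq] at hc
      cases hx : (force (Nat.mul m x) fun b => force (Nat.land (Nat.shiftRight c b) M) fun d =>
        force (Nat.sub c (Nat.shiftLeft d b)) fun c' =>
        bits (fun l => force (Nat.add b l) fun j => force (Nat.add c' (Nat.pow 2 j)) fun cur =>
        force (Nat.lor (Nat.shiftLeft (Nat.shiftRight A w) w) (blk W2 MW tab j)) fun G =>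
        fclo m M w W2 MW tab w (leafw wins L x c) n cur G) m
        (av M w (Nat.shiftLeft (Nat.shiftRight A w) w) b)) with
      | false =>
          simp only [hx] at hc
          exact absurd hc (by simp)
      | true =>
          simp only [hx] at hc
          rcases List.mem_cons.1 hp with h1 | h1
          · subst h1
            simp only [force_eq] at hx ⊢
            exact hx
          · refine movN_rec (ps := t) ?_ p h1
            unfold movN
            rw [force_eq]
            exact hc

/-- **One move from a position of the list.** -/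
theorem movN_step {W2 MW tab : ℕ} (hT : Tab D pw w (blk W2 MW tab)) (S : Symm D)
    {L : ℕ → ℕ → ℕ → Bool} {ps : List ℕ}
    (hc : fsel D.m (2 ^ D.m - 1) w W2 MW tab
      (movN D.n D.m (2 ^ D.m - 1) w W2 MW tab D.wins L ps) D.n 0 0 0 = true) {h h' : ℕ → ℕ}
    (H : Clo.Leg D h) (H' : Clo.Leg D h') (N : NoWin D h h') (N2 : NoPair D pw h h') {p : ℕ}
    (hps : p ∈ ps) (hp : p < D.n) (hd : h p ≠ h' p) :
    ∃ P : ℕ → Bool, P p = true ∧ (∀ q, P q = true → q < D.n ∧ h q ≠ h' q) ∧
      Clo.Leg D (mix h h' P) ∧ L p (scode D.m h D.n) (scode D.m (mix h h' P) D.n) = true := by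
  have N2' : NoPair D pw h h := fun r hr x hx q hq y hy =>
    N2 r hr x (Or.inl (by rcases hx with h1 | h1 <;> exact h1)) q hq y
      (Or.inl (by rcases hy with h1 | h1 <;> exact h1))
  obtain ⟨A, hA, hf⟩ := fsel_all hT S hc H N2'
  have h1 := movN_rec hf p hps
  obtain ⟨g1, g2⟩ := start_st hT H H' N2 hA hp hd
  rw [digit_code H hp] at h1
  have h2 := bits_sound h1 (h' p) g1
  simp only [force_eq] at h2
  rw [erase_code] at h2
  obtain ⟨P, a1, a2, a3, a4⟩ := fclo_sound hT H H' S N2 (p := p) (B := w)
    (by
      intro q hq _ _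
      rw [hT.hw]
      calc D.m * q + D.m = D.m * (q + 1) := by ring
        _ ≤ D.m * D.n := Nat.mul_le_mul_left _ hq) D.n _ g2 (by simp) h2
  exact ⟨P, a1, a2, a3, leafw_sound H H' N a4⟩

end Fst

end Vale.Agent.P032.R2.H741
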