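import Vale.Agent.P032.R2.H741.Fst

/-!
# P032, W4.CERT: the fast checks with lists of atoms

`Fst.Text`: conflicts `C p l`, windows of two atoms `P p l` (partners), windows `W`.
`Fst.Agree`: the numbers in the check are the numbers of the text (`decide +kernel`).

`clsChk`, `namChk`, `legChk`: the three checks; `Agree.cls`, `Agree.nam`, `Agree.leg`: what they say.
`fsel_node`, `fsel_root`: splitting of a check into several theorems.
-/

set_option autoImplicit false

namespace Vale.Agent.P032.R2.H741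

namespace Fst

open Clo

/-- data in lists -/
structure Text where
  /-- the atoms in conflict with a letter at a position -/
  C : ℕ → ℕ → List Atom
  /-- the atoms which make a window of two atoms with a letter at a position -/
  P : ℕ → ℕ → List Atom
  /-- windows -/
  W : List (List Atom)

/-- the data of `Clo.lean` -/
def Text.clo (X : Text) (n m : ℕ) : Clo := ⟨n, m, fun p l => msk m (X.C p l), X.W.map (msk m)⟩

/-- the numbers are the numbers of the text (decidable) -/
structure Agree (n m w W2 MW tab : ℕ) (wins : List ℕ) (X : Text) : Prop where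
  hw : w = m * n
  tab : ∀ p < n, ∀ l < m, Nat.land (Nat.shiftRight tab (Nat.mul W2 (m * p + l))) MW =
    2 ^ w * msk m ((p, l) :: X.P p l) + msk m (X.C p l)
  cb : ∀ p < n, ∀ l < m, ∀ x ∈ X.C p l, x.1 < n ∧ x.2 < m
  pb : ∀ p < n, ∀ l < m, ∀ x ∈ X.P p l, x.1 < n ∧ x.2 < m
  wins : wins = X.W.map (msk m)
  wb : ∀ u ∈ X.W, ∀ x ∈ u, x.1 < n ∧ x.2 < m
  symm : ∀ p < n, ∀ l < m, ∀ x ∈ X.C p l, (p, l) ∈ X.C x.1 x.2

/-- the check of a class table -/
noncomputable def clsChk (n m M w W2 MW tab : ℕ) (wins : List ℕ) (cls : ℕ → ℕ) : Bool :=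
  fsel m M w W2 MW tab (movR n m M w W2 MW tab wins (same cls)) n 0 0 0

/-- the check of all moves from the positions `ps` -/
noncomputable def namChk (n m M w W2 MW tab : ℕ) (wins : List ℕ) (L : ℕ → ℕ → ℕ → Bool)
    (ps : List ℕ) : Bool :=
  fsel m M w W2 MW tab (movN n m M w W2 MW tab wins L ps) n 0 0 0

/-- the check of all legal selections -/
noncomputable def legChk (n m M w W2 MW tab : ℕ) (f : ℕ → Bool) : Bool :=
  fsel m M w W2 MW tab (fun c _ => f c) n 0 0 0

variable {n m w W2 MW tab : ℕ} {wins : List ℕ} {X : Text}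

theorem msk_lt {L : List Atom} (h : ∀ x ∈ L, x.1 < n ∧ x.2 < m) : msk m L < 2 ^ (m * n) := by
  apply Nat.lt_pow_two_of_testBit
  intro i hi
  rw [Bool.eq_false_iff]
  intro hb
  obtain ⟨x, hx, e⟩ := testBit_msk.1 hb
  have := atom_lt (h x hx).1 (h x hx).2
  omega

theorem mem_of_bit {L : List Atom} (h : ∀ x ∈ L, x.1 < n ∧ x.2 < m) {q l : ℕ} (hl : l < m)
    (hb : (msk m L).testBit (m * q + l) = true) : (q, l) ∈ L := by
  obtain ⟨x, hx, e⟩ := testBit_msk.1 hb
  obtain ⟨e1, e2⟩ := atom_inj hl (h x hx).2 e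
  have : x = (q, l) := Prod.ext e1.symm e2.symm
  rw [← this]; exact hx

theorem Agree.symm' (A : Agree n m w W2 MW tab wins X) : Symm (X.clo n m) := by
  intro p hp l hl q hq l' hl'
  show (msk m (X.C p l)).testBit (m * q + l') = (msk m (X.C q l')).testBit (m * p + l)
  rw [Bool.eq_iff_iff]
  constructor
  · intro hb
    exact testBit_msk.2 ⟨_, A.symm p hp l hl _ (mem_of_bit (A.cb p hp l hl) hl' hb), rfl⟩
  · intro hb
    exact testBit_msk.2 ⟨_, A.symm q hq l' hl' _ (mem_of_bit (A.cb q hq l' hl') hl hb), rfl⟩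

theorem Agree.tab' (A : Agree n m w W2 MW tab wins X) :
    Tab (X.clo n m) (fun p l => msk m (X.P p l)) w (blk W2 MW tab) where
  hw := A.hw
  low := by
    intro p hp l hl i hi
    have h1 : msk m (X.C p l) < 2 ^ w := by rw [A.hw]; exact msk_lt (A.cb p hp l hl)
    show (Nat.land (Nat.shiftRight tab (Nat.mul W2 (m * p + l))) MW).testBit i =
      (msk m (X.C p l)).testBit i
    rw [A.tab p hp l hl, Nat.testBit_two_pow_mul_add _ h1, if_pos hi]
  high := by
    intro p hp l hl i hb
    have h1 : msk m (X.C p l) < 2 ^ w := by rw [A.hw]; exact msk_lt (A.cb p hp l hl)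
    have hb' : (Nat.land (Nat.shiftRight tab (Nat.mul W2 (m * p + l))) MW).testBit (w + i) = true :=
      hb
    rw [A.tab p hp l hl, Nat.testBit_two_pow_mul_add _ h1, if_neg (by omega),
      Nat.add_sub_cancel_left] at hb'
    obtain ⟨x, hx, e⟩ := testBit_msk.1 hb'
    rcases List.mem_cons.1 hx with h2 | h2
    · subst h2; exact Or.inl e
    · exact Or.inr (testBit_msk.2 ⟨x, h2, e⟩)

/-- a legal selection of the text -/
structure TLeg (n m : ℕ) (X : Text) (h : ℕ → ℕ) : Prop where
  lt : ∀ q < n, h q < m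
  free : ∀ p < n, ∀ x ∈ X.C p (h p), h x.1 ≠ x.2

/-- no window in the union of two selections -/
structure TWin (n m : ℕ) (X : Text) (h h' : ℕ → ℕ) : Prop where
  two : ∀ p < n, ∀ l < m, (h p = l ∨ h' p = l) → ∀ x ∈ X.P p l, ¬ (h x.1 = x.2 ∨ h' x.1 = x.2)
  win : ∀ u ∈ X.W, ¬ ∀ x ∈ u, h x.1 = x.2 ∨ h' x.1 = x.2

theorem Agree.leg' (A : Agree n m w W2 MW tab wins X) {h : ℕ → ℕ} (H : TLeg n m X h) :
    Clo.Leg (X.clo n m) h where
  lt := H.lt
  free := by
    intro p hp q hq
    rw [Bool.eq_false_iff]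
    intro hb
    have hl := H.lt p hp
    exact H.free p hp _ (mem_of_bit (A.cb p hp _ hl) (H.lt q hq) hb) rfl

theorem Agree.noPair (A : Agree n m w W2 MW tab wins X) {h h' : ℕ → ℕ} (H : TLeg n m X h)
    (H' : TLeg n m X h') (N : TWin n m X h h') :
    NoPair (X.clo n m) (fun p l => msk m (X.P p l)) h h' := by
  intro r hr x hx q hq y hy
  have hr' : r < n := hr
  have hq' : q < n := hq
  have hxm : x < m := by
    rcases hx with h1 | h1
    · rw [← h1]; exact H.lt r hr'
    · rw [← h1]; exact H'.lt r hr'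
  have hym : y < m := by
    rcases hy with h1 | h1
    · rw [← h1]; exact H.lt q hq'
    · rw [← h1]; exact H'.lt q hq'
  rw [Bool.eq_false_iff]
  intro hb
  exact N.two r hr' x hxm hx _ (mem_of_bit (A.pb r hr' x hxm) hym hb) hy

theorem Agree.noWin (A : Agree n m w W2 MW tab wins X) {h h' : ℕ → ℕ} (H : TLeg n m X h)
    (H' : TLeg n m X h') (N : TWin n m X h h') : NoWin (X.clo n m) h h' := by
  intro u hu he
  obtain ⟨u', hu', rfl⟩ := List.mem_map.1 (show u ∈ X.W.map (msk m) from hu)
  refine N.win u' hu' fun x hx => ?_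
  obtain ⟨a1, a2⟩ := A.wb u' hu' x hx
  have b1 : (msk m u').testBit (m * x.1 + x.2) = true := testBit_msk.2 ⟨x, hx, rfl⟩
  have b2 : (Nat.land (Nat.lor (scode m h n) (scode m h' n)) (msk m u')).testBit
      (m * x.1 + x.2) = true := by rw [show Nat.land (Nat.lor (scode m h n) (scode m h' n))
        (msk m u') = msk m u' from he]; exact b1
  rw [land_bit, b1, Bool.and_true, lor_bit, testBit_scode H.lt a1 a2, testBit_scode H'.lt a1 a2,
    Bool.or_eq_true, decide_eq_true_eq, decide_eq_true_eq] at b2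
  exact b2

/-- **Classes.** -/
theorem Agree.cls (A : Agree n m w W2 MW tab wins X) {M : ℕ} (hM : M = 2 ^ m - 1) {cls : ℕ → ℕ}
    (hc : clsChk n m M w W2 MW tab wins cls = true) {h h' : ℕ → ℕ} (H : TLeg n m X h)
    (H' : TLeg n m X h') (N : TWin n m X h h') : cls (scode m h n) = cls (scode m h' n) := by
  subst hM
  have e := A.wins
  subst e
  exact cls_sound (D := X.clo n m) A.tab' A.symm' hc (A.leg' H) (A.leg' H') (A.noWin H H' N)
    (A.noPair H H' N)

/-- **One move from a position of the list**, for every leaf test. -/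
theorem Agree.nam (A : Agree n m w W2 MW tab wins X) {M : ℕ} (hM : M = 2 ^ m - 1)
    {L : ℕ → ℕ → ℕ → Bool} {ps : List ℕ} (hc : namChk n m M w W2 MW tab wins L ps = true)
    {h h' : ℕ → ℕ} (H : TLeg n m X h) (H' : TLeg n m X h') (N : TWin n m X h h') {p : ℕ}
    (hps : p ∈ ps) (hp : p < n) (hd : h p ≠ h' p) :
    ∃ P : ℕ → Bool, P p = true ∧ (∀ q, P q = true → q < n ∧ h q ≠ h' q) ∧
      Clo.Leg (X.clo n m) (mix h h' P) ∧ L p (scode m h n) (scode m (mix h h' P) n) = true := by
  subst hM
  have e := A.wins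
  subst e
  exact movN_step (D := X.clo n m) A.tab' A.symm' hc (A.leg' H) (A.leg' H') (A.noWin H H' N)
    (A.noPair H H' N) hps hp hd

/-- **Every legal selection (without windows) passes the test.** -/
theorem Agree.leg (A : Agree n m w W2 MW tab wins X) {M : ℕ} (hM : M = 2 ^ m - 1) {f : ℕ → Bool}
    (hc : legChk n m M w W2 MW tab f = true) {h : ℕ → ℕ} (H : TLeg n m X h)
    (N : TWin n m X h h) : f (scode m h n) = true := by
  subst hM
  obtain ⟨_, _, hf⟩ := fsel_all (D := X.clo n m) A.tab' A.symm' hc (A.leg' H) (A.noPair H H N)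
  exact hf

/-! ### Splitting -/

theorem bits_complete {F : ℕ → Bool} : ∀ {k x : ℕ}, x < 2 ^ k → (∀ l, x.testBit l = true → F l = true) →
    bits F k x = true
  | 0, x, hx, _ => by
      have : x = 0 := by simpa using hx
      subst this; rfl
  | k + 1, 0, _, _ => rfl
  | k + 1, y + 1, hx, h => by
      show force (Nat.log2 (Nat.succ y)) (fun l =>
        @Bool.rec (fun _ => Bool) false (force (Nat.sub (Nat.succ y) (Nat.pow 2 l)) (bits F k))
          (F l)) = true
      rw [force_eq, h _ (Nat.testBit_log2 (by omega))]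
      show force (Nat.sub (Nat.succ y) (Nat.pow 2 (Nat.log2 (Nat.succ y)))) (bits F k) = true
      rw [force_eq]
      have h1 : 2 ^ Nat.log2 (y + 1) ≤ y + 1 := Nat.log2_self_le (by omega)
      have h2 : y + 1 < 2 ^ (Nat.log2 (y + 1) + 1) := Nat.lt_log2_self
      have h3 : Nat.log2 (y + 1) ≤ k := by
        by_contra hc
        have : 2 ^ (k + 1) ≤ 2 ^ Nat.log2 (y + 1) := Nat.pow_le_pow_right (by norm_num) (by omega)
        omega
      have h4 : 2 ^ Nat.log2 (y + 1) ≤ 2 ^ k := Nat.pow_le_pow_right (by norm_num) h3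
      refine bits_complete ?_ fun l hl => ?_
      · show y + 1 - 2 ^ Nat.log2 (y + 1) < 2 ^ k
        rw [pow_succ] at h2; omega
      · apply h
        have e : y + 1 = 2 ^ Nat.log2 (y + 1) + (y + 1 - 2 ^ Nat.log2 (y + 1)) := by omega
        have hl' : (y + 1 - 2 ^ Nat.log2 (y + 1)).testBit l = true := hl
        have hlt : l < Nat.log2 (y + 1) := by
          by_contra hc
          have : y + 1 - 2 ^ Nat.log2 (y + 1) < 2 ^ l :=
            lt_of_lt_of_le (by rw [pow_succ] at h2; omega)
              (Nat.pow_le_pow_right (by norm_num) (show Nat.log2 (y + 1) ≤ l by omega))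
          rw [Nat.testBit_lt_two_pow this] at hl'
          exact absurd hl' (by simp)
        rw [e, Nat.testBit_two_pow_add_gt hlt]
        exact hl'

/-- a node of the search from its children -/
theorem fsel_node {M b c A : ℕ} {f : ℕ → ℕ → Bool} {k : ℕ} (hM : M < 2 ^ m)
    (h : ∀ l < m, (av M w A b).testBit l = true →
      fsel m M w W2 MW tab f k (b + m) (c + 2 ^ (b + l)) (Nat.lor A (blk W2 MW tab (b + l))) = true) :
    fsel m M w W2 MW tab f (k + 1) b c A = true := by
  show force (Nat.add b m) (fun b' =>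
    bits (fun l => force (Nat.add b l) fun j => force (Nat.add c (Nat.pow 2 j)) fun c' =>
      force (Nat.lor A (blk W2 MW tab j)) fun A' =>
      fsel m M w W2 MW tab f k b' c' A') m (av M w A b)) = true
  simp only [force_eq]
  have hlt : av M w A b < 2 ^ m := lt_of_le_of_lt (Nat.sub_le _ _) hM
  refine bits_complete hlt fun l hl => h l ?_ hl
  by_contra hc
  have : av M w A b < 2 ^ l := lt_of_lt_of_le hlt (Nat.pow_le_pow_right (by norm_num) (by omega))
  rw [Nat.testBit_lt_two_pow this] at hl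
  exact absurd hl (by simp)

/-- the complete search from the parts with the first letter `l` -/
theorem fsel_root {M : ℕ} {f : ℕ → ℕ → Bool} {k : ℕ} (hM : M < 2 ^ m)
    (h : ∀ l < m, fsel m M w W2 MW tab f k m (2 ^ l) (blk W2 MW tab l) = true) :
    fsel m M w W2 MW tab f (k + 1) 0 0 0 = true := by
  refine fsel_node hM fun l hl _ => ?_
  have e1 : Nat.lor 0 (blk W2 MW tab (0 + l)) = blk W2 MW tab l := by
    rw [Nat.zero_add]; exact Nat.zero_or _
  rw [e1, Nat.zero_add, Nat.zero_add, Nat.zero_add]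
  exact h l hl

end Fst

end Vale.Agent.P032.R2.H741
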