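import Vale.Agent.P032.R2.H741.Fst2

/-!
# P032, W4.CERT: the fast check for the data of `Clo.lean`

`Clo.Chk D L`: the leaf test holds for all generated moves (the conclusion of `Clo.gen_sound`).
`Fst.Tbl`: a table for given data `D`, `D.wins` contains all windows (also those with two atoms);
`Tbl.chk`: `Chk` from the fast check (all start positions); `Tbl.cls`: equal classes from the
reduced check; `Tbl.all`: all legal selections.
-/

set_option autoImplicit false

namespace Vale.Agent.P032.R2.H741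

namespace Clo

/-- the leaf test holds for all generated moves -/
def Chk (D : Clo) (L : ℕ → ℕ → ℕ → Bool) : Prop := ∀ h h' p, Clo.Leg D h → Clo.Leg D h' →
  NoWin D h h' → Gen D h h' p → L p (scode D.m h D.n) (scode D.m h' D.n) = true

theorem chk_of_check {D : Clo} (S : Symm D) {L : ℕ → ℕ → ℕ → Bool} (hc : D.check L = true) :
    Chk D L := fun _ _ _ H H' N hg => gen_sound S hc H H' N hg

/-- a generated move from one first step -/
theorem gen_of_start {D : Clo} {L : ℕ → ℕ → ℕ → Bool} {h h' : ℕ → ℕ} {p : ℕ}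
    (hg : Gen D h h' p) (hs : ∃ P : ℕ → Bool, P p = true ∧
      (∀ q, P q = true → q < D.n ∧ h q ≠ h' q) ∧ Clo.Leg D (mix h h' P) ∧
      L p (scode D.m h D.n) (scode D.m (mix h h' P) D.n) = true) :
    L p (scode D.m h D.n) (scode D.m h' D.n) = true := by
  obtain ⟨P, g1, g2, g3, g4⟩ := hs
  have key := hg.2.2 (fun q => P q = true) g1 (fun r q hr hrn hqn hb => by
    by_contra hq
    rw [Bool.not_eq_true] at hq
    have h1 := g3.free r hrn q hqn
    unfold mix at h1
    rw [if_pos hr, if_neg (by simp [hq])] at h1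
    rw [h1] at hb
    exact absurd hb (by simp))
  have e : scode D.m (mix h h' P) D.n = scode D.m h' D.n := pcode_congr fun q hq => by
    unfold mix
    by_cases hP : P q = true
    · rw [if_pos hP]
    · rw [if_neg hP]
      by_cases hd : h q = h' q
      · rw [hd]
      · exact absurd (key q hq hd) hP
  rwa [e] at g4

end Clo

namespace Fst

open Clo

/-- a table for the data `D` (decidable); `P p l` partners of windows with two atoms -/
structure Tbl (D : Clo) (P : ℕ → ℕ → List Atom) (w W2 MW tab : ℕ) : Prop where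
  hw : w = D.m * D.n
  clt : ∀ p < D.n, ∀ l < D.m, D.conf p l < 2 ^ w
  tab : ∀ p < D.n, ∀ l < D.m, Nat.land (Nat.shiftRight tab (Nat.mul W2 (D.m * p + l))) MW =
    2 ^ w * msk D.m ((p, l) :: P p l) + D.conf p l
  pb : ∀ p < D.n, ∀ l < D.m, ∀ x ∈ P p l, x.1 < D.n ∧ x.2 < D.m
  win : ∀ p < D.n, ∀ l < D.m, ∀ x ∈ P p l, msk D.m [(p, l), x] ∈ D.wins

variable {D : Clo} {P : ℕ → ℕ → List Atom} {w W2 MW tab : ℕ}

theorem Tbl.tab' (A : Tbl D P w W2 MW tab) : Tab D (fun p l => msk D.m (P p l)) w (blk W2 MW tab)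
    where
  hw := A.hw
  low := by
    intro p hp l hl i hi
    show (Nat.land (Nat.shiftRight tab (Nat.mul W2 (D.m * p + l))) MW).testBit i =
      (D.conf p l).testBit i
    rw [A.tab p hp l hl, Nat.testBit_two_pow_mul_add _ (A.clt p hp l hl), if_pos hi]
  high := by
    intro p hp l hl i hb
    have hb' : (Nat.land (Nat.shiftRight tab (Nat.mul W2 (D.m * p + l))) MW).testBit (w + i) =
      true := hb
    rw [A.tab p hp l hl, Nat.testBit_two_pow_mul_add _ (A.clt p hp l hl), if_neg (by omega),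
      Nat.add_sub_cancel_left] at hb'
    obtain ⟨x, hx, e⟩ := testBit_msk.1 hb'
    rcases List.mem_cons.1 hx with h2 | h2
    · subst h2; exact Or.inl e
    · exact Or.inr (testBit_msk.2 ⟨x, h2, e⟩)

theorem Tbl.noPair (A : Tbl D P w W2 MW tab) {h h' : ℕ → ℕ} (H : Clo.Leg D h) (H' : Clo.Leg D h')
    (N : NoWin D h h') : NoPair D (fun p l => msk D.m (P p l)) h h' := by
  intro r hr x hx q hq y hy
  have hxm : x < D.m := by
    rcases hx with h1 | h1
    · rw [← h1]; exact H.lt r hr
    · rw [← h1]; exact H'.lt r hr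
  have hym : y < D.m := by
    rcases hy with h1 | h1
    · rw [← h1]; exact H.lt q hq
    · rw [← h1]; exact H'.lt q hq
  rw [Bool.eq_false_iff]
  intro hb
  have hmem : (q, y) ∈ P r x := mem_of_bit (A.pb r hr x hxm) hym hb
  refine N _ (A.win r hr x hxm _ hmem) (Nat.eq_of_testBit_eq fun i => ?_)
  have bit : ∀ {s z : ℕ}, s < D.n → z < D.m → (h s = z ∨ h' s = z) →
      (Nat.lor (scode D.m h D.n) (scode D.m h' D.n)).testBit (D.m * s + z) = true := by
    intro s z hs hz hsz
    rw [lor_bit, testBit_scode H.lt hs hz, testBit_scode H'.lt hs hz, Bool.or_eq_true,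
      decide_eq_true_eq, decide_eq_true_eq]
    exact hsz
  rw [land_bit]
  by_cases hi : (msk D.m [(r, x), (q, y)]).testBit i = true
  · rw [hi, Bool.and_true]
    obtain ⟨s, hs, e⟩ := testBit_msk.1 hi
    rcases List.mem_cons.1 hs with h1 | h1
    · subst h1; rw [e]; exact bit hr hxm hx
    · rcases List.mem_cons.1 h1 with h2 | h2
      · subst h2; rw [e]; exact bit hq hym hy
      · exact absurd h2 (by simp)
  · rw [Bool.not_eq_true] at hi
    rw [hi, Bool.and_false]

/-- **`Chk` from the fast check with all start positions.** -/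
theorem Tbl.chk (A : Tbl D P w W2 MW tab) (S : Symm D) {L : ℕ → ℕ → ℕ → Bool} {ps : List ℕ}
    (hps : ∀ p < D.n, p ∈ ps)
    (hc : fsel D.m (2 ^ D.m - 1) w W2 MW tab
      (movN D.n D.m (2 ^ D.m - 1) w W2 MW tab D.wins L ps) D.n 0 0 0 = true) : Chk D L := by
  intro h h' p H H' N hg
  exact gen_of_start hg (movN_step A.tab' S hc H H' N (A.noPair H H' N) (hps p hg.1) hg.1 hg.2.1)

/-- **Equal classes from the reduced check.** -/
theorem Tbl.cls (A : Tbl D P w W2 MW tab) (S : Symm D) {cls : ℕ → ℕ}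
    (hc : fsel D.m (2 ^ D.m - 1) w W2 MW tab
      (movR D.n D.m (2 ^ D.m - 1) w W2 MW tab D.wins (same cls)) D.n 0 0 0 = true)
    {h h' : ℕ → ℕ} (H : Clo.Leg D h) (H' : Clo.Leg D h') (N : NoWin D h h') :
    cls (scode D.m h D.n) = cls (scode D.m h' D.n) :=
  cls_sound A.tab' S hc H H' N (A.noPair H H' N)

/-- **All legal selections without windows.** -/
theorem Tbl.all (A : Tbl D P w W2 MW tab) (S : Symm D) {f : ℕ → ℕ → Bool}
    (hc : fsel D.m (2 ^ D.m - 1) w W2 MW tab f D.n 0 0 0 = true) {h : ℕ → ℕ}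
    (H : Clo.Leg D h) (N : NoWin D h h) :
    ∃ A', f (scode D.m h D.n) A' = true := by
  obtain ⟨A', _, h1⟩ := fsel_all A.tab' S hc H (A.noPair H H N)
  exact ⟨A', h1⟩

end Fst

end Vale.Agent.P032.R2.H741
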