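import Vale.Agent.P032.R2.H741.Fst3
import Vale.Agent.P032.R2.H137.TableF

/-!
# P032, W4.CERT: one ring of the S3 world

Positions `0 .. 5`, letters `0 = e`, `1 = f`, `2 = A` (pair `ab`), `3 = C` (pair `cd`).  `B0`: base windows;
`viol k`: what cannot be if `k` is the centre of a triple swap.  `XA`: no ends `abe` and `cde`;
`XB`: no end `abe`; named windows of `XB`: kind `0` the end `cde`, kind `1` the end `abf`.
-/

set_option autoImplicit false

namespace Vale.Agent.P032.R2.H741.RingS3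

open Vale.Agent.P032.Words Vale.Agent.P032.S5.H767

/-- shift of a window -/
def sh (p : ℕ) (w : List Atom) : List Atom := w.map fun x => ((x.1 + p) % 6, x.2)

/-- violations of a triple swap with the centre `k` -/
def viol (k : ℕ) : List (List Atom) :=
  [[((k + 1) % 6, 2)], [((k + 1) % 6, 3)], [((k + 5) % 6, 2)], [((k + 5) % 6, 3)],
    [((k + 2) % 6, 0), ((k + 2) % 6, 1)], [((k + 4) % 6, 0), ((k + 4) % 6, 1)],
    [((k + 2) % 6, 2), ((k + 4) % 6, 3)], [((k + 2) % 6, 3), ((k + 4) % 6, 2)]]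

/-- base windows -/
def B0 : List (List Atom) :=
  [[(0, 2), (0, 3)], [(0, 2), (3, 3)], [(0, 0), (0, 1), (0, 2)], [(0, 0), (0, 1), (0, 3)],
    [(0, 0), (0, 2), (1, 0), (1, 2)], [(0, 0), (0, 3), (1, 0), (1, 3)],
    [(0, 1), (0, 2), (1, 1), (1, 2)], [(0, 1), (0, 3), (1, 1), (1, 3)]] ++
  (viol 0).flatMap fun v => (viol 1).map fun v' => [(0, 0), (0, 1), (1, 0), (1, 1)] ++ v ++ v'

/-- conflicts -/
def Cf (p l : ℕ) : List Atom := [((p + 1) % 6, l), ((p + 5) % 6, l)]

/-- all shifts -/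
def shifts (B : List (List Atom)) : List (List Atom) := (List.range 6).flatMap fun p => B.map (sh p)

/-- base windows, no ends `abe` and `cde` -/
def BA : List (List Atom) := B0 ++ [[(0, 2), (0, 0)], [(0, 3), (0, 0)]]

/-- base windows, no end `abe` -/
def BB : List (List Atom) := B0 ++ [[(0, 2), (0, 0)]]

/-- the text without ends `abe` and `cde` -/
def XA : Clo.Text := ⟨Cf, shifts BA⟩

/-- the text without ends `abe` -/
def XB : Clo.Text := ⟨Cf, shifts BB⟩

/-- the data of `XA` -/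
def DA : Clo := ⟨6, 4, fun p l => msk 4 (Cf p l), XA.W.map (msk 4)⟩

/-- the data of `XB` -/
def DB : Clo := ⟨6, 4, fun p l => msk 4 (Cf p l), XB.W.map (msk 4)⟩

/-- named windows -/
def nwB (K k : ℕ) : List (List Atom) :=
  match K with
  | 0 => [[(k, 3), (k, 0)]]
  | _ => [[(k, 2), (k, 1)]]

/-- masks of the named windows -/
def nwmB (K k : ℕ) : List ℕ := (nwB K k).map (msk 4)

/-- no named windows -/
def nwmA (_ _ : ℕ) : List ℕ := []

/-- no named windows, as lists -/
def nwA (_ _ : ℕ) : List (List Atom) := []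

theorem nagreeA : NAgree 6 4 0 nwmA nwA where
  mask := fun _ h => absurd h (by omega)
  bd := fun _ h => absurd h (by omega)
  dis := fun _ h => absurd h (by omega)

theorem nagreeB : NAgree 6 4 2 nwmB nwB where
  mask := fun _ _ _ _ => rfl
  bd := by decide +kernel
  dis := by decide +kernel

theorem symm_of {D : Clo} (h : Clo.Symm D) {W' : List ℕ} :
    Clo.Symm ⟨D.n, D.m, D.conf, W'⟩ := h

theorem leg_of_eq {D : Clo} {W' : List ℕ} {h : ℕ → ℕ} (H : Clo.Leg D h) :
    Clo.Leg ⟨D.n, D.m, D.conf, W'⟩ h := ⟨H.lt, H.free⟩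

theorem noWin_sub {D : Clo} {W' : List ℕ} (hsub : ∀ x ∈ W', x ∈ D.wins) {h h' : ℕ → ℕ}
    (N : Clo.NoWin D h h') : Clo.NoWin ⟨D.n, D.m, D.conf, W'⟩ h h' := fun x hx => N x (hsub x hx)

theorem chk_of_sub {D : Clo} {W' : List ℕ} (hsub : ∀ x ∈ W', x ∈ D.wins)
    {L : ℕ → ℕ → ℕ → Bool} (hc : Clo.Chk ⟨D.n, D.m, D.conf, W'⟩ L) : Clo.Chk D L :=
  fun h h' p H H' N hg => hc h h' p (leg_of_eq H) (leg_of_eq H') (noWin_sub hsub N) hg

end Vale.Agent.P032.R2.H741.RingS3
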