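import Vale.Agent.P032.R2.H741.Fst

/-!
# P032, W4.CERT: a checker for LRAT proofs, for the kernel

Variables `0 .. V-1`.  Literals: `v` (the variable is true), `V + v` (it is false).  A clause is the
mask of its literals.  `DB`: all clauses, in blocks of `B` bits (`M = 2 ^ (2 V) - 1`), first the given
ones, then the learned ones.  `run V B M DB prf k`: the learned clauses with the numbers `k, k + 1, ..`
follow by unit propagation from clauses with smaller numbers; `prf`: for every learned clause its hints, as digits of 16 bits of one number.

`refute`: if the last clause is empty, the given clauses have no common assignment.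
-/

set_option autoImplicit false

namespace Vale.Agent.P032.R2.H741

namespace Rup

open Fst

/-- truth of a literal -/
def lit (V : ℕ) (a : ℕ → Bool) (i : ℕ) : Bool := if i < V then a i else !a (i - V)

/-- the clause holds -/
def Sat (V : ℕ) (a : ℕ → Bool) (c : ℕ) : Prop := ∃ i, i < 2 * V ∧ c.testBit i = true ∧ lit V a i = true

/-- block of the table -/
noncomputable def cl (B M DB k : ℕ) : ℕ := Nat.land (Nat.shiftRight DB (Nat.mul B k)) M

/-- unit propagation along the hints (`hs`: digits of 16 bits); `Z` the literals which are false -/
noncomputable def prop (V B M DB k : ℕ) (fuel : ℕ) : ℕ → ℕ → Bool :=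
  @Nat.rec (fun _ => ℕ → ℕ → Bool) (fun _ _ => false) (fun _ ih hs Z =>
    @Bool.rec (fun _ => Bool) false
      (@Nat.rec (fun _ => Bool) true (fun y _ =>
        @Bool.rec (fun _ => Bool) false
          (force (Nat.lor Z (Nat.lor (Nat.shiftRight (Nat.succ y) V)
            (Nat.land (Nat.shiftLeft (Nat.succ y) V) M))) (ih (Nat.shiftRight hs 16)))
          (Nat.beq (Nat.land (Nat.succ y) y) 0))
        (Nat.xor (cl B M DB (Nat.land hs 65535)) (Nat.land (cl B M DB (Nat.land hs 65535)) Z)))
      (Nat.ble (Nat.succ (Nat.land hs 65535)) k)) fuel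

/-- the complete check; `prf`: for every learned clause its hints as one number -/
noncomputable def run (V B M DB fuel : ℕ) (prf : List ℕ) : ℕ → Bool :=
  @List.rec ℕ (fun _ => ℕ → Bool) (fun _ => true) (fun hs _ ih k =>
    @Bool.rec (fun _ => Bool) false (force (Nat.succ k) ih)
      (force (cl B M DB k) fun c => prop V B M DB k fuel hs c)) prf

theorem testBit_rest {c Z i : ℕ} :
    (Nat.xor c (Nat.land c Z)).testBit i = (c.testBit i && !Z.testBit i) := by
  show (c ^^^ (c &&& Z)).testBit i = (c.testBit i && !Z.testBit i)
  rw [Nat.testBit_xor, Nat.testBit_and]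
  cases c.testBit i <;> cases Z.testBit i <;> rfl

/-- a number with `x &&& (x - 1) = 0` has one bit -/
theorem one_bit {y : ℕ} (h : (y + 1) &&& y = 0) : ∃ i, y + 1 = 2 ^ i := by
  refine ⟨Nat.log2 (y + 1), ?_⟩
  have h1 : 2 ^ Nat.log2 (y + 1) ≤ y + 1 := Nat.log2_self_le (by omega)
  have h2 : y + 1 < 2 ^ (Nat.log2 (y + 1) + 1) := Nat.lt_log2_self
  by_contra hne
  have h3 : 2 ^ Nat.log2 (y + 1) ≤ y := by omega
  have h4 : (y + 1).testBit (Nat.log2 (y + 1)) = true := Nat.testBit_log2 (by omega)
  have h5 : y.testBit (Nat.log2 (y + 1)) = true := by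
    generalize Nat.log2 (y + 1) = n at h1 h2 hne h3 h4 ⊢
    have e : y = 2 ^ n + (y - 2 ^ n) := by omega
    have hlt : y - 2 ^ n < 2 ^ n := by rw [pow_succ] at h2; omega
    rw [e, Nat.testBit_two_pow_add_eq, Nat.testBit_lt_two_pow hlt]; rfl
  have h6 : ((y + 1) &&& y).testBit (Nat.log2 (y + 1)) = true := by
    rw [Nat.testBit_and, h4, h5]; rfl
  rw [h, Nat.zero_testBit] at h6
  exact absurd h6 (by simp)

/-- the negation of a literal mask -/
theorem testBit_neg {V M i j : ℕ} (hM : M = 2 ^ (2 * V) - 1) :
    (Nat.lor (Nat.shiftRight (2 ^ i) V) (Nat.land (Nat.shiftLeft (2 ^ i) V) M)).testBit j = true →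
    (V ≤ i ∧ j = i - V) ∨ (i < V ∧ j = i + V) := by
  intro h
  have e : Nat.lor (Nat.shiftRight (2 ^ i) V) (Nat.land (Nat.shiftLeft (2 ^ i) V) M) =
    (2 ^ i >>> V) ||| ((2 ^ i <<< V) &&& M) := rfl
  rw [e, Nat.testBit_or, Nat.testBit_shiftRight, Nat.testBit_and, Nat.testBit_shiftLeft, hM,
    Nat.testBit_two_pow_sub_one, Nat.testBit_two_pow, Nat.testBit_two_pow, Bool.or_eq_true,
    decide_eq_true_eq, Bool.and_eq_true, Bool.and_eq_true, decide_eq_true_eq, decide_eq_true_eq,
    decide_eq_true_eq] at h
  rcases h with h | ⟨⟨h1, h2⟩, h3⟩
  · left; omega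
  · right; omega

theorem prop_sound {V B M DB k : ℕ} (hM : M = 2 ^ (2 * V) - 1) {a : ℕ → Bool}
    (hk : ∀ h < k, Sat V a (cl B M DB h)) : ∀ {fuel hs Z : ℕ},
    (∀ i, i < 2 * V → Z.testBit i = true → lit V a i = false) →
    prop V B M DB k fuel hs Z = true → False
  | 0, _, _, _, h => by
      have : false = true := h
      exact absurd this (by simp)
  | fuel + 1, hs, Z, hZ, hr => by
      have h1 : @Bool.rec (fun _ => Bool) false
        (@Nat.rec (fun _ => Bool) true (fun y _ =>
          @Bool.rec (fun _ => Bool) false
            (force (Nat.lor Z (Nat.lor (Nat.shiftRight (Nat.succ y) V)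
              (Nat.land (Nat.shiftLeft (Nat.succ y) V) M)))
              (prop V B M DB k fuel (Nat.shiftRight hs 16)))
            (Nat.beq (Nat.land (Nat.succ y) y) 0))
          (Nat.xor (cl B M DB (Nat.land hs 65535)) (Nat.land (cl B M DB (Nat.land hs 65535)) Z)))
        (Nat.ble (Nat.succ (Nat.land hs 65535)) k) = true := hr
      generalize Nat.land hs 65535 = h at h1
      cases hb : Nat.ble (Nat.succ h) k with
      | false => simp only [hb] at h1; exact absurd h1 (by simp)
      | true =>
          simp only [hb, force_eq] at h1
          have hlt : h < k := Nat.le_of_ble_eq_true hb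
          obtain ⟨i0, g0, g1, g2⟩ := hk h hlt
          have g3 : Z.testBit i0 = false := by
            rw [Bool.eq_false_iff]
            intro g3
            rw [hZ i0 g0 g3] at g2
            exact absurd g2 (by simp)
          have g4 : (Nat.xor (cl B M DB h) (Nat.land (cl B M DB h) Z)).testBit i0 = true := by
            rw [testBit_rest, g1, g3]; rfl
          cases hx : Nat.xor (cl B M DB h) (Nat.land (cl B M DB h) Z) with
          | zero =>
              rw [hx, Nat.zero_testBit] at g4
              exact absurd g4 (by simp)
          | succ y =>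
              rw [hx] at h1 g4
              have h2 : @Bool.rec (fun _ => Bool) false
                (prop V B M DB k fuel (Nat.shiftRight hs 16)
                  (Nat.lor Z (Nat.lor (Nat.shiftRight (Nat.succ y) V)
                  (Nat.land (Nat.shiftLeft (Nat.succ y) V) M))))
                (Nat.beq (Nat.land (Nat.succ y) y) 0) = true := h1
              cases hc : Nat.beq (Nat.land (Nat.succ y) y) 0 with
              | false => simp only [hc] at h2; exact absurd h2 (by simp)
              | true =>
                  simp only [hc] at h2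
                  obtain ⟨i, e⟩ := one_bit (y := y) (Nat.eq_of_beq_eq_true hc)
                  have e1 : i = i0 := by
                    rw [e, Nat.testBit_two_pow, decide_eq_true_eq] at g4
                    exact g4
                  subst e1
                  have h3 : prop V B M DB k fuel (Nat.shiftRight hs 16)
                    (Nat.lor Z (Nat.lor (Nat.shiftRight (y + 1) V)
                    (Nat.land (Nat.shiftLeft (y + 1) V) M))) = true := h2
                  rw [e] at h3
                  refine prop_sound hM hk (fun j hj hb => ?_) h3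
                  rw [Clo.lor_bit, Bool.or_eq_true] at hb
                  rcases hb with hb | hb
                  · exact hZ j hj hb
                  · rcases testBit_neg hM hb with ⟨h5, h6⟩ | ⟨h5, h6⟩
                    · unfold lit at g2 ⊢
                      rw [if_neg (by omega)] at g2
                      rw [if_pos (by omega), h6]
                      simpa using g2
                    · unfold lit at g2 ⊢
                      rw [if_pos h5] at g2
                      rw [if_neg (by omega), h6, Nat.add_sub_cancel, g2]; rfl

theorem run_sound {V B M DB fuel : ℕ} (hM : M = 2 ^ (2 * V) - 1) {a : ℕ → Bool} :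
    ∀ {prf : List ℕ} {k : ℕ},
    (∀ h < k, Sat V a (cl B M DB h)) → run V B M DB fuel prf k = true →
    ∀ h < k + prf.length, Sat V a (cl B M DB h)
  | [], k, hk, _, h, hh => hk h (by simpa using hh)
  | hs :: prf, k, hk, hr, h, hh => by
      have h1 : @Bool.rec (fun _ => Bool) false (force (Nat.succ k) (run V B M DB fuel prf))
        (force (cl B M DB k) fun c => prop V B M DB k fuel hs c) = true := hr
      simp only [force_eq] at h1
      cases hb : prop V B M DB k fuel hs (cl B M DB k) with
      | false => simp only [hb] at h1; exact absurd h1 (by simp)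
      | true =>
          simp only [hb] at h1
          have hsat : Sat V a (cl B M DB k) := by
            by_contra hno
            refine prop_sound hM hk (fun i hlt hi => ?_) hb
            by_contra hc
            rw [Bool.not_eq_false] at hc
            exact hno ⟨i, hlt, hi, hc⟩
          refine run_sound hM (prf := prf) (k := k + 1) (fun j hj => ?_) h1 h (by
            rw [List.length_cons] at hh; omega)
          by_cases e : j = k
          · subst e; exact hsat
          · exact hk j (by omega)

/-- **Refutation.** -/
theorem refute {V B M DB fuel : ℕ} (hM : M = 2 ^ (2 * V) - 1) {a : ℕ → Bool} {prf : List ℕ}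
    {k : ℕ} (hk : ∀ h < k, Sat V a (cl B M DB h)) (hr : run V B M DB fuel prf k = true)
    (he : ∃ h < k + prf.length, cl B M DB h = 0) : False := by
  obtain ⟨h, h1, h2⟩ := he
  obtain ⟨i, -, h3, -⟩ := run_sound hM hk hr h h1
  rw [h2, Nat.zero_testBit] at h3
  exact absurd h3 (by simp)

/-- a big number from its digits of `b` bits (numerals in source files should be short) -/
def packN (b : ℕ) : List ℕ → ℕ
  | [] => 0
  | x :: L => Nat.add (Nat.shiftLeft (packN b L) b) x

/-- mask of a list of literals -/
def cmask : List ℕ → ℕ
  | [] => 0
  | i :: L => Nat.lor (cmask L) (2 ^ i)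

theorem testBit_cmask {L : List ℕ} {i : ℕ} : (cmask L).testBit i = true ↔ i ∈ L := by
  induction L with
  | nil => simp [cmask]
  | cons j L ih =>
      have e : (cmask (j :: L)).testBit i = ((cmask L).testBit i || decide (j = i)) := by
        show (cmask L ||| 2 ^ j).testBit i = _
        rw [Nat.testBit_or, Nat.testBit_two_pow]
      rw [e, Bool.or_eq_true, ih, decide_eq_true_eq, List.mem_cons]
      constructor
      · rintro (h | h)
        · exact Or.inr h
        · exact Or.inl h.symm
      · rintro (h | h)
        · exact Or.inr h.symm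
        · exact Or.inl h

/-- the given clauses are those of the list -/
theorem given {V B M DB : ℕ} {a : ℕ → Bool} {C : List (List ℕ)}
    (hC : ∀ k < C.length, cl B M DB k = cmask (C.getD k []))
    (hs : ∀ c ∈ C, ∃ i ∈ c, i < 2 * V ∧ lit V a i = true) :
    ∀ h < C.length, Sat V a (cl B M DB h) := by
  intro h hh
  obtain ⟨i, h1, h2, h3⟩ := hs _ (by
    rw [List.getD_eq_getElem _ _ hh]; exact List.getElem_mem hh : C.getD h [] ∈ C)
  exact ⟨i, h2, by rw [hC h hh, testBit_cmask]; exact h1, h3⟩

end Rup

end Vale.Agent.P032.R2.H741
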