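import Vale.Agent.P032.R2.H805.Rup

/-!
# P032: atoms at an instant and their numbers

`Sem`: the truth values of all atoms at an instant (rings `r`, positions `k < 6`, letters `l < 4`, colours
`i < 6`; `t = 0`: just before, `t = 1`: just after the instant; `x = 3 k + s`: the direction `k`,
`s = 0, 1, 2`: just before, at, just after the instant).  `val S c`: the truth value of the atom with
the number `c`.  A literal is `2 c` or `2 c + 1` (negated), as in `H805/Rup.lean`.
-/

set_option autoImplicit false

namespace Vale.Agent.P032.R2.H741.Tp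

open Vale.Agent.P032.R2.H805.Rup (Lit)

/-- the atoms -/
structure Sem where
  /-- `X t r k l`: the letter at `(r, k)` is `l` -/
  X : ℕ → ℕ → ℕ → ℕ → Prop
  /-- `C r k i`: the colour `i` is in the palette of the point `(r, k)` -/
  C : ℕ → ℕ → ℕ → Prop
  /-- four colours -/
  Q : ℕ → ℕ → Prop
  /-- harmless -/
  H : ℕ → ℕ → Prop
  /-- `D r k w`: two-pair point, the pairs have the number `w` (see `prt`) -/
  D : ℕ → ℕ → ℕ → Prop
  /-- `n r i x`: the direction `x` is in the dual cone of the colour `i` at the centre `r` -/
  n : ℕ → ℕ → ℕ → Prop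
  /-- `M t r i k`: `n r i k` was true at an earlier time -/
  M : ℕ → ℕ → ℕ → ℕ → Prop
  /-- `g t r j`: the line of the colours `i, q` (`j = 2 i' + q'`) was met -/
  g : ℕ → ℕ → ℕ → Prop
  /-- initial letters -/
  I : ℕ → ℕ → ℕ → Prop
  /-- initial directions -/
  J : ℕ → ℕ → ℕ → Prop
  /-- `N t r a j`: at least `j + 1` points with the palette number `a` were met -/
  N : ℕ → ℕ → ℕ → ℕ → Prop
  /-- `E r a k`: the palette of `(r, k)` has the number `a` -/
  E : ℕ → ℕ → ℕ → Prop
  /-- `ct r s k`: the point `(r, k)` is the centre `s` -/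
  ct : ℕ → ℕ → ℕ → Prop
  /-- `dn t r s`: `ct r s` happened at an earlier time -/
  dn : ℕ → ℕ → ℕ → Prop
  /-- `F t`: the anchor time is not passed -/
  F : ℕ → Prop
  /-- `P r a`: there is a point with the palette number `a` -/
  P : ℕ → ℕ → Prop
  /-- `U r j i`: the colour `i` is in the palette of the corner number `j` of the ring `r` -/
  U : ℕ → ℕ → ℕ → Prop
  /-- `V r j w`: the corner is a two-pair point with the pairs number `w` of the ring `id1 r j` -/
  V : ℕ → ℕ → ℕ → Prop
  /-- `ty t r p k`: the type of the arc with the letter `2 + p` at `(r, k)` -/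
  ty : ℕ → ℕ → ℕ → ℕ → Prop
  /-- initial types -/
  ti : ℕ → ℕ → ℕ → Prop
  /-- `ue r p k`: `(r, k)` is a four-coloured end of an arc with the letter `2 + p` -/
  ue : ℕ → ℕ → ℕ → Prop
  /-- `sn t r p`: `ue r p` happened at an earlier time -/
  sn : ℕ → ℕ → ℕ → Prop

/-! numbers of the atoms: blocks of `704` for every ring -/

def aX (t r k l : ℕ) : ℕ := 704 * r + (24 * t + 4 * k + l)
def aC (r k i : ℕ) : ℕ := 704 * r + (48 + 6 * k + i)
def aQ (r k : ℕ) : ℕ := 704 * r + (84 + k)
def aH (r k : ℕ) : ℕ := 704 * r + (90 + k)
def aD (r k w : ℕ) : ℕ := 704 * r + (96 + 16 * k + w)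
def an (r i x : ℕ) : ℕ := 704 * r + (192 + 18 * i + x)
def aM (t r i k : ℕ) : ℕ := 704 * r + (300 + 36 * t + 6 * i + k)
def ag (t r j : ℕ) : ℕ := 704 * r + (372 + 4 * t + j)
def aI (r k l : ℕ) : ℕ := 704 * r + (380 + 4 * k + l)
def aJ (r i k : ℕ) : ℕ := 704 * r + (404 + 6 * i + k)
def aN (t r a j : ℕ) : ℕ := 704 * r + (440 + 12 * t + 3 * a + j)
def aE (r a k : ℕ) : ℕ := 704 * r + (464 + 6 * a + k)
def act (r s k : ℕ) : ℕ := 704 * r + (488 + 6 * s + k)
def adn (t r s : ℕ) : ℕ := 704 * r + (536 + 8 * t + s)
def aF (t : ℕ) : ℕ := 552 + t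
def aP (r a : ℕ) : ℕ := 704 * r + (554 + a)
def aU (r j i : ℕ) : ℕ := 704 * r + (560 + 6 * j + i)
def aV (r j w : ℕ) : ℕ := 704 * r + (584 + 16 * j + w)
def aty (t r p k : ℕ) : ℕ := 704 * r + (648 + 12 * t + 6 * p + k)
def ati (r p k : ℕ) : ℕ := 704 * r + (672 + 6 * p + k)
def aue (r p k : ℕ) : ℕ := 704 * r + (684 + 6 * p + k)
def asn (t r p : ℕ) : ℕ := 704 * r + (696 + 2 * t + p)

/-- value of the atom number `y` of the ring `r` -/
def valr (S : Sem) (r y : ℕ) : Prop :=
  if y < 48 then S.X (y / 24) r (y % 24 / 4) (y % 4)
  else if y < 84 then S.C r ((y - 48) / 6) ((y - 48) % 6)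
  else if y < 90 then S.Q r (y - 84)
  else if y < 96 then S.H r (y - 90)
  else if y < 192 then S.D r ((y - 96) / 16) ((y - 96) % 16)
  else if y < 300 then S.n r ((y - 192) / 18) ((y - 192) % 18)
  else if y < 372 then S.M ((y - 300) / 36) r ((y - 300) % 36 / 6) ((y - 300) % 6)
  else if y < 380 then S.g ((y - 372) / 4) r ((y - 372) % 4)
  else if y < 404 then S.I r ((y - 380) / 4) ((y - 380) % 4)
  else if y < 440 then S.J r ((y - 404) / 6) ((y - 404) % 6)
  else if y < 464 then S.N ((y - 440) / 12) r ((y - 440) % 12 / 3) ((y - 440) % 3)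
  else if y < 488 then S.E r ((y - 464) / 6) ((y - 464) % 6)
  else if y < 536 then S.ct r ((y - 488) / 6) ((y - 488) % 6)
  else if y < 552 then S.dn ((y - 536) / 8) r ((y - 536) % 8)
  else if y < 554 then S.F (y - 552)
  else if y < 558 then S.P r (y - 554)
  else if y < 584 then S.U r ((y - 560) / 6) ((y - 560) % 6)
  else if y < 648 then S.V r ((y - 584) / 16) ((y - 584) % 16)
  else if y < 672 then S.ty ((y - 648) / 12) r ((y - 648) % 12 / 6) ((y - 648) % 6)
  else if y < 684 then S.ti r ((y - 672) / 6) ((y - 672) % 6)
  else if y < 696 then S.ue r ((y - 684) / 6) ((y - 684) % 6)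
  else S.sn ((y - 696) / 2) r ((y - 696) % 2)

/-- value of an atom -/
def val (S : Sem) (c : ℕ) : Prop := valr S (c / 704) (c % 704)

theorem val_add {S : Sem} {r y : ℕ} (h : y < 704) : val S (704 * r + y) = valr S r y := by
  unfold val
  have e1 : (704 * r + y) / 704 = r := by omega
  have e2 : (704 * r + y) % 704 = y := by omega
  rw [e1, e2]

theorem c1 (f : ℕ → Prop) {a a' : ℕ} (h : a = a') : f a = f a' := by rw [h]
theorem c2 (f : ℕ → ℕ → Prop) {a a' b b' : ℕ} (h : a = a') (h2 : b = b') : f a b = f a' b' := by
  rw [h, h2]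
theorem c3 (f : ℕ → ℕ → ℕ → Prop) {a a' b b' c c' : ℕ} (h : a = a') (h2 : b = b') (h3 : c = c') :
    f a b c = f a' b' c' := by rw [h, h2, h3]
theorem c4 (f : ℕ → ℕ → ℕ → ℕ → Prop) {a a' b b' c c' d d' : ℕ} (h : a = a') (h2 : b = b')
    (h3 : c = c') (h4 : d = d') : f a b c d = f a' b' c' d' := by rw [h, h2, h3, h4]

section
variable {S : Sem} {t r k l i x j a s w p : ℕ}

theorem val_X (ht : t < 2) (hk : k < 6) (hl : l < 4) : val S (aX t r k l) = S.X t r k l := by
  unfold aX
  rw [val_add (by omega)]
  unfold valr
  rewrite [if_pos (by omega)]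
  exact c4 S.X (by omega) rfl (by omega) (by omega)

theorem val_C (hk : k < 6) (hi : i < 6) : val S (aC r k i) = S.C r k i := by
  unfold aC
  rw [val_add (by omega)]
  unfold valr
  rewrite [if_neg (by omega), if_pos (by omega)]
  exact c2 (S.C r) (by omega) (by omega)

theorem val_Q (hk : k < 6) : val S (aQ r k) = S.Q r k := by
  unfold aQ
  rw [val_add (by omega)]
  unfold valr
  rewrite [if_neg (by omega), if_neg (by omega), if_pos (by omega)]
  exact c1 (S.Q r) (by omega)

theorem val_H (hk : k < 6) : val S (aH r k) = S.H r k := by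
  unfold aH
  rw [val_add (by omega)]
  unfold valr
  rewrite [if_neg (by omega), if_neg (by omega), if_neg (by omega), if_pos (by omega)]
  exact c1 (S.H r) (by omega)

theorem val_D (hk : k < 6) (hw : w < 16) : val S (aD r k w) = S.D r k w := by
  unfold aD
  rw [val_add (by omega)]
  unfold valr
  rewrite [if_neg (by omega), if_neg (by omega), if_neg (by omega), if_neg (by omega),
    if_pos (by omega)]
  exact c2 (S.D r) (by omega) (by omega)

theorem val_n (hi : i < 6) (hx : x < 18) : val S (an r i x) = S.n r i x := by
  unfold an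
  rw [val_add (by omega)]
  unfold valr
  rewrite [if_neg (by omega), if_neg (by omega), if_neg (by omega), if_neg (by omega),
    if_neg (by omega), if_pos (by omega)]
  exact c2 (S.n r) (by omega) (by omega)

theorem val_M (ht : t < 2) (hi : i < 6) (hk : k < 6) : val S (aM t r i k) = S.M t r i k := by
  unfold aM
  rw [val_add (by omega)]
  unfold valr
  rewrite [if_neg (by omega), if_neg (by omega), if_neg (by omega), if_neg (by omega),
    if_neg (by omega), if_neg (by omega), if_pos (by omega)]
  exact c4 S.M (by omega) rfl (by omega) (by omega)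

theorem val_g (ht : t < 2) (hj : j < 4) : val S (ag t r j) = S.g t r j := by
  unfold ag
  rw [val_add (by omega)]
  unfold valr
  rewrite [if_neg (by omega), if_neg (by omega), if_neg (by omega), if_neg (by omega),
    if_neg (by omega), if_neg (by omega), if_neg (by omega), if_pos (by omega)]
  exact c3 S.g (by omega) rfl (by omega)

theorem val_I (hk : k < 6) (hl : l < 4) : val S (aI r k l) = S.I r k l := by
  unfold aI
  rw [val_add (by omega)]
  unfold valr
  rewrite [if_neg (by omega), if_neg (by omega), if_neg (by omega), if_neg (by omega),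
    if_neg (by omega), if_neg (by omega), if_neg (by omega), if_neg (by omega),
    if_pos (by omega)]
  exact c2 (S.I r) (by omega) (by omega)

theorem val_J (hi : i < 6) (hk : k < 6) : val S (aJ r i k) = S.J r i k := by
  unfold aJ
  rw [val_add (by omega)]
  unfold valr
  rewrite [if_neg (by omega), if_neg (by omega), if_neg (by omega), if_neg (by omega),
    if_neg (by omega), if_neg (by omega), if_neg (by omega), if_neg (by omega),
    if_neg (by omega), if_pos (by omega)]
  exact c2 (S.J r) (by omega) (by omega)

theorem val_N (ht : t < 2) (ha : a < 4) (hj : j < 3) : val S (aN t r a j) = S.N t r a j := by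
  unfold aN
  rw [val_add (by omega)]
  unfold valr
  rewrite [if_neg (by omega), if_neg (by omega), if_neg (by omega), if_neg (by omega),
    if_neg (by omega), if_neg (by omega), if_neg (by omega), if_neg (by omega),
    if_neg (by omega), if_neg (by omega), if_pos (by omega)]
  exact c4 S.N (by omega) rfl (by omega) (by omega)

theorem val_E (ha : a < 4) (hk : k < 6) : val S (aE r a k) = S.E r a k := by
  unfold aE
  rw [val_add (by omega)]
  unfold valr
  rewrite [if_neg (by omega), if_neg (by omega), if_neg (by omega), if_neg (by omega),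
    if_neg (by omega), if_neg (by omega), if_neg (by omega), if_neg (by omega),
    if_neg (by omega), if_neg (by omega), if_neg (by omega), if_pos (by omega)]
  exact c2 (S.E r) (by omega) (by omega)

theorem val_ct (hs : s < 8) (hk : k < 6) : val S (act r s k) = S.ct r s k := by
  unfold act
  rw [val_add (by omega)]
  unfold valr
  rewrite [if_neg (by omega), if_neg (by omega), if_neg (by omega), if_neg (by omega),
    if_neg (by omega), if_neg (by omega), if_neg (by omega), if_neg (by omega),
    if_neg (by omega), if_neg (by omega), if_neg (by omega), if_neg (by omega),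
    if_pos (by omega)]
  exact c2 (S.ct r) (by omega) (by omega)

theorem val_dn (ht : t < 2) (hs : s < 8) : val S (adn t r s) = S.dn t r s := by
  unfold adn
  rw [val_add (by omega)]
  unfold valr
  rewrite [if_neg (by omega), if_neg (by omega), if_neg (by omega), if_neg (by omega),
    if_neg (by omega), if_neg (by omega), if_neg (by omega), if_neg (by omega),
    if_neg (by omega), if_neg (by omega), if_neg (by omega), if_neg (by omega),
    if_neg (by omega), if_pos (by omega)]
  exact c3 S.dn (by omega) rfl (by omega)

theorem val_F (ht : t < 2) : val S (aF t) = S.F t := by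
  have e : aF t = 704 * 0 + (552 + t) := by unfold aF; omega
  rw [e, val_add (by omega)]
  unfold valr
  rewrite [if_neg (by omega), if_neg (by omega), if_neg (by omega), if_neg (by omega),
    if_neg (by omega), if_neg (by omega), if_neg (by omega), if_neg (by omega),
    if_neg (by omega), if_neg (by omega), if_neg (by omega), if_neg (by omega),
    if_neg (by omega), if_neg (by omega), if_pos (by omega)]
  exact c1 S.F (by omega)

theorem val_P (ha : a < 4) : val S (aP r a) = S.P r a := by
  unfold aP
  rw [val_add (by omega)]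
  unfold valr
  rewrite [if_neg (by omega), if_neg (by omega), if_neg (by omega), if_neg (by omega),
    if_neg (by omega), if_neg (by omega), if_neg (by omega), if_neg (by omega),
    if_neg (by omega), if_neg (by omega), if_neg (by omega), if_neg (by omega),
    if_neg (by omega), if_neg (by omega), if_neg (by omega), if_pos (by omega)]
  exact c1 (S.P r) (by omega)

theorem val_U (hj : j < 4) (hi : i < 6) : val S (aU r j i) = S.U r j i := by
  unfold aU
  rw [val_add (by omega)]
  unfold valr
  rewrite [if_neg (by omega), if_neg (by omega), if_neg (by omega), if_neg (by omega),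
    if_neg (by omega), if_neg (by omega), if_neg (by omega), if_neg (by omega),
    if_neg (by omega), if_neg (by omega), if_neg (by omega), if_neg (by omega),
    if_neg (by omega), if_neg (by omega), if_neg (by omega), if_neg (by omega),
    if_pos (by omega)]
  exact c2 (S.U r) (by omega) (by omega)

theorem val_V (hj : j < 4) (hw : w < 16) : val S (aV r j w) = S.V r j w := by
  unfold aV
  rw [val_add (by omega)]
  unfold valr
  rewrite [if_neg (by omega), if_neg (by omega), if_neg (by omega), if_neg (by omega),
    if_neg (by omega), if_neg (by omega), if_neg (by omega), if_neg (by omega),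
    if_neg (by omega), if_neg (by omega), if_neg (by omega), if_neg (by omega),
    if_neg (by omega), if_neg (by omega), if_neg (by omega), if_neg (by omega),
    if_neg (by omega), if_pos (by omega)]
  exact c2 (S.V r) (by omega) (by omega)

theorem val_ty (ht : t < 2) (hp : p < 2) (hk : k < 6) : val S (aty t r p k) = S.ty t r p k := by
  unfold aty
  rw [val_add (by omega)]
  unfold valr
  rewrite [if_neg (by omega), if_neg (by omega), if_neg (by omega), if_neg (by omega),
    if_neg (by omega), if_neg (by omega), if_neg (by omega), if_neg (by omega),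
    if_neg (by omega), if_neg (by omega), if_neg (by omega), if_neg (by omega),
    if_neg (by omega), if_neg (by omega), if_neg (by omega), if_neg (by omega),
    if_neg (by omega), if_neg (by omega), if_pos (by omega)]
  exact c4 S.ty (by omega) rfl (by omega) (by omega)

theorem val_ti (hp : p < 2) (hk : k < 6) : val S (ati r p k) = S.ti r p k := by
  unfold ati
  rw [val_add (by omega)]
  unfold valr
  rewrite [if_neg (by omega), if_neg (by omega), if_neg (by omega), if_neg (by omega),
    if_neg (by omega), if_neg (by omega), if_neg (by omega), if_neg (by omega),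
    if_neg (by omega), if_neg (by omega), if_neg (by omega), if_neg (by omega),
    if_neg (by omega), if_neg (by omega), if_neg (by omega), if_neg (by omega),
    if_neg (by omega), if_neg (by omega), if_neg (by omega), if_pos (by omega)]
  exact c2 (S.ti r) (by omega) (by omega)

theorem val_ue (hp : p < 2) (hk : k < 6) : val S (aue r p k) = S.ue r p k := by
  unfold aue
  rw [val_add (by omega)]
  unfold valr
  rewrite [if_neg (by omega), if_neg (by omega), if_neg (by omega), if_neg (by omega),
    if_neg (by omega), if_neg (by omega), if_neg (by omega), if_neg (by omega),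
    if_neg (by omega), if_neg (by omega), if_neg (by omega), if_neg (by omega),
    if_neg (by omega), if_neg (by omega), if_neg (by omega), if_neg (by omega),
    if_neg (by omega), if_neg (by omega), if_neg (by omega), if_neg (by omega), if_pos (by omega)]
  exact c2 (S.ue r) (by omega) (by omega)

theorem val_sn (ht : t < 2) (hp : p < 2) : val S (asn t r p) = S.sn t r p := by
  unfold asn
  rw [val_add (by omega)]
  unfold valr
  rewrite [if_neg (by omega), if_neg (by omega), if_neg (by omega), if_neg (by omega),
    if_neg (by omega), if_neg (by omega), if_neg (by omega), if_neg (by omega),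
    if_neg (by omega), if_neg (by omega), if_neg (by omega), if_neg (by omega),
    if_neg (by omega), if_neg (by omega), if_neg (by omega), if_neg (by omega),
    if_neg (by omega), if_neg (by omega), if_neg (by omega), if_neg (by omega), if_neg (by omega)]
  exact c3 S.sn (by omega) rfl (by omega)

end

/-! ## Clauses -/

/-- the literal `the atom holds` -/
def ps (a : ℕ) : ℕ := 2 * a

/-- the literal `the atom does not hold` -/
def ng (a : ℕ) : ℕ := 2 * a + 1

/-- a literal of the list holds -/
def Hd (v : ℕ → Prop) (c : List ℕ) : Prop := ∃ j ∈ c, Lit v j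

theorem lit_ps {v : ℕ → Prop} {a : ℕ} : Lit v (ps a) ↔ v a := by
  unfold Lit ps
  rw [if_pos (by omega), show 2 * a / 2 = a by omega]

theorem lit_ng {v : ℕ → Prop} {a : ℕ} : Lit v (ng a) ↔ ¬ v a := by
  unfold Lit ng
  rw [if_neg (by omega), show (2 * a + 1) / 2 = a by omega]

theorem hd_nil {v : ℕ → Prop} : Hd v [] ↔ False := by unfold Hd; simp

theorem hd_cons {v : ℕ → Prop} {j : ℕ} {c : List ℕ} : Hd v (j :: c) ↔ Lit v j ∨ Hd v c := by
  unfold Hd
  simp only [List.mem_cons, exists_eq_or_imp]

theorem hd_append {v : ℕ → Prop} {c d : List ℕ} : Hd v (c ++ d) ↔ Hd v c ∨ Hd v d := by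
  unfold Hd
  simp only [List.mem_append, or_and_right, exists_or]

theorem hd_ps {v : ℕ → Prop} {a : ℕ} {c : List ℕ} : Hd v (ps a :: c) ↔ (¬ v a → Hd v c) := by
  rw [hd_cons, lit_ps]; tauto

theorem hd_ng {v : ℕ → Prop} {a : ℕ} {c : List ℕ} : Hd v (ng a :: c) ↔ (v a → Hd v c) := by
  rw [hd_cons, lit_ng]; tauto

/-- literals of a list of numbers -/
theorem hd_map {v : ℕ → Prop} {f : ℕ → ℕ} {L : List ℕ} :
    Hd v (L.map f) ↔ ∃ i ∈ L, Lit v (f i) := by
  unfold Hd
  simp only [List.mem_map, exists_exists_and_eq_and]

end Vale.Agent.P032.R2.H741.Tp
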