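import Vale.Agent.P032.R2.H741.TpG

/-!
# P032: the clauses about the step, the start and the end
-/

set_option autoImplicit false

namespace Vale.Agent.P032.R2.H741.Tp

/-- clauses about the step -/
inductive CL
  | some (r k : ℕ) | uniq (r k l m : ℕ) | legal (r k l : ℕ) | legal2 (r s k l m : ℕ)
  | LC (t r k l i : ℕ)
  | le4 (r k j : ℕ) | inside (r k w : ℕ) | insideM (r k i q : ℕ)
  | q4i (r k i j m n : ℕ) | q4e (r k b : ℕ) | q4ge (r k i j m : ℕ)
  | dQ (r k w : ℕ) | dC (r k w i : ℕ) | dd (r k w w' : ℕ) | dH (r k w : ℕ) | hQ (r k : ℕ)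
  | q4cases (r k : ℕ) | notri (r k : ℕ) | swap4 (r k s : ℕ) | flanksame (r k s p x : ℕ)
  | flank4 (r k s w : ℕ) | flankr (r k s i q x : ℕ) | s4word (r k w x : ℕ)
  | single (r k s i : ℕ) | single2 (r s k i : ℕ)
  | notsub (r k s A B : ℕ) | notsub2 (r s k A B : ℕ)
  | faceA (r k s A B j : ℕ) | faceB (r k s A B j : ℕ) | faceC (r s k A B j : ℕ)
  | faceD (r s k m A B j : ℕ) | faceE (r s k m A B j : ℕ)
  | hubA (r k s i q j : ℕ) | hubB (r s k i q j : ℕ)
  | insubA (r k s w x : ℕ) | insubB (r s k w x : ℕ) | two (r s k i j m u v : ℕ)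
  | n0L (r j k : ℕ) | n0R (r j k : ℕ) | opp (r j x : ℕ) | conv (r j x y w : ℕ)
  | convM (r j k y w : ℕ) | convM2 (r j k y w : ℕ) | M (r j k x : ℕ)
  | mix (r i q k : ℕ) | line1 (r i q k m : ℕ) | rkind (r i q k w : ℕ) | mkind (r i q k x y : ℕ)
  | lab1 (r j k : ℕ) | pairlab (r k p w : ℕ) | letlab (r k p w : ℕ)
  | gline (r i q k : ℕ) | gset (r i q k : ℕ) | gmono (r j : ℕ)
  | E1 (r a k i : ℕ) | E2 (r a k : ℕ) | E3 (r a k x : ℕ) | absent (r a k : ℕ) | pres (r a k : ℕ)
  | c1 (b r a k : ℕ) | c2 (b r a k : ℕ) | c3 (b r a k m : ℕ) | c4 (b r a k : ℕ)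
  | c5 (b r a k m : ℕ) | c6 (b r a k : ℕ) | c7 (b r a k m : ℕ) | c8 (b r a k m n : ℕ)
  | c9 (r a j : ℕ) | c10 (r a : ℕ) | c11 (r a : ℕ) | c12 (r a x : ℕ)
  | vis (b r a k x : ℕ) | norz (r k w : ℕ) | first
  | anchor (r s k x : ℕ) | done (r s k m x : ℕ)
  | ident (r j k i x : ℕ) | identD (r j k w w' x : ℕ)
  | ctC (r s k i x : ℕ) | ctD (r s k w x : ℕ) | same (r s k i x : ℕ) | sameH (r s k x : ℕ)
  | sameD (r s k w w' x : ℕ) | agree (r s k i x : ℕ) | tight (r s k t p b x : ℕ)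
  | ysome (s k : ℕ) | yuniq (s k l m : ℕ) | ylegal (s k l : ℕ) | ylegal2 (s k l m : ℕ)
  | nodir (s k x : ℕ) | tpY (s t k m x : ℕ) | sameY (s t l i x : ℕ) | sameZ (s t m : ℕ)
  | tpkeep (r p k x : ℕ) | tpend (r p t k x : ℕ)
  | anch (r p i : ℕ) | anchX (r p x : ℕ) | anchD (r w : ℕ)
  | nc (r p k t : ℕ) | ncD (r p k w : ℕ) | out2 (r i q k m x y : ℕ)

/-- the guard of rule two (only in `E2`) -/
def gd (G : RD) (r a : ℕ) : List ℕ :=
  if G.md r a = 4 then [ng (aP r a), ng (aP r (3 - a))] else []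

/-- the atoms `E` of a palette number, without the position `x` -/
def es (r a x : ℕ) : List ℕ := sel (fun k => !Nat.beq k x) fun k => ps (aE r a k)

/-- number of the contact `iq|ef` -/
def rq (i q : ℕ) : ℕ := 4 + 3 * (2 * i + (q - 2))

/-- a clause of a face: `p` the point, `u` its neighbour, `A ⊂ B` masks -/
def fc (p u : ℕ → ℕ) (A B t : ℕ) : List ℕ :=
  sel (fun i => !(tb A i || Nat.beq i t)) (fun i => ps (p i)) ++
    (sel (tb A) (fun i => ng (u i)) ++ sel (fun i => !tb B i) fun i => ps (u i))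

/-- the eight clauses of `inside a two-pair point` -/
def isb (x0 x1 x2 x3 x : ℕ) : List ℕ :=
  match x with
  | 0 => [ng x0, ps x1]
  | 1 => [ng x1, ps x0]
  | 2 => [ng x2, ps x3]
  | 3 => [ng x3, ps x2]
  | 4 => [ng x0, ng x2]
  | 5 => [ng x0, ng x3]
  | 6 => [ng x1, ng x2]
  | _ => [ng x1, ng x3]

/-- one of the two literals -/
def pick (b : Bool) (a : ℕ) : ℕ := if b then ps a else ng a

/-- the colour is one of the centre -/
def ctr (G : RD) (r i : ℕ) : Bool :=
  Nat.beq i (G.sg r 0) || Nat.beq i (G.sg r 1) || Nat.beq i (G.sg r 2) || Nat.beq i (G.sg r 3)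

/-- the colour is in the pairs number `w` -/
def inD (G : RD) (r w i : ℕ) : Bool :=
  Nat.beq i (pc G r w 0) || Nat.beq i (pc G r w 1) || Nat.beq i (pc G r w 2) ||
    Nat.beq i (pc G r w 3)

def CL.cl (G : RD) : CL → List ℕ
  | .some r k => [ps (aX 1 r k 0), ps (aX 1 r k 1), ps (aX 1 r k 2), ps (aX 1 r k 3)]
  | .uniq r k l m => [ng (aX 1 r k l), ng (aX 1 r k m)]
  | .legal r k l => [ng (aX 1 r k l), ng (aX 1 r ((k + 1) % 6) l)]
  | .legal2 r s k l m => [ng (aX 1 r k l), ng (aX 1 s k m)]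
  | .LC t r k l i => [ng (aX t r k l), ps (aC r k i)]
  | .le4 r k j => sel (fun i => !Nat.beq i j) fun i => ng (aC r k i)
  | .inside r k w => ps (aC r k (G.sg r 4)) :: ps (aC r k (G.sg r 5)) ::
      isb (aC r k (G.sg r 0)) (aC r k (G.sg r 1)) (aC r k (G.sg r 2)) (aC r k (G.sg r 3)) w
  | .insideM r k i q => [ps (aC r k (G.sg r 4)), ps (aC r k (G.sg r 5)), ng (aC r k (G.sg r i)),
      ng (aC r k (G.sg r q))]
  | .q4i r k i j m n => [ng (aC r k i), ng (aC r k j), ng (aC r k m), ng (aC r k n), ps (aQ r k)]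
  | .q4e r k b => [ng (aQ r k), ps (aC r k (G.sg r (4 + b)))]
  | .q4ge r k i j m => [ng (aQ r k), ps (aC r k i), ps (aC r k j), ps (aC r k m)]
  | .dQ r k w => [ng (aD r k w), ps (aQ r k)]
  | .dC r k w i => [ng (aD r k w), pick (inD G r w i) (aC r k i)]
  | .dd r k w w' => [ng (aD r k w), ng (aD r k w')]
  | .dH r k w => [ng (aD r k w), ng (aH r k)]
  | .hQ r k => [ng (aH r k), ps (aQ r k)]
  | .q4cases r k => ng (aQ r k) :: ps (aH r k) ::
      ([0, 1, 2, 3, 4, 5, 6, 7, 8, 9, 10, 11, 12, 13, 14, 15].map fun w => ps (aD r k w))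
  | .notri r k => [ng (aQ r k), ng (aQ r ((k + 1) % 6))]
  | .swap4 r k s => [ng (aQ r k), ng (aC r ((k + s) % 6) (G.sg r 4)),
      ng (aC r ((k + s) % 6) (G.sg r 5)), ps (aD r k 4), ps (aD r k 7), ps (aD r k 10),
      ps (aD r k 13)]
  | .flanksame r k s p x => [ng (aQ r k), ng (aC r k (G.sg r (2 * p))),
      ng (aC r k (G.sg r (2 * p + 1))),
      match x with
      | 0 => ps (aC r ((k + s) % 6) (G.sg r (2 - 2 * p)))
      | 1 => ps (aC r ((k + s) % 6) (G.sg r (3 - 2 * p)))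
      | 2 => ng (aC r ((k + s) % 6) (G.sg r (2 * p)))
      | _ => ng (aC r ((k + s) % 6) (G.sg r (2 * p + 1)))]
  | .flank4 r k s w => [ng (aD r k w), ng (aC r ((k + s) % 6) (G.sg r 4)),
      ng (aC r ((k + s) % 6) (G.sg r 5))]
  | .flankr r k s i q x => ng (aD r k (rq i q)) ::
      match x with
      | 0 => [ps (aC r ((k + s) % 6) (G.sg r 4))]
      | 1 => [ps (aC r ((k + s) % 6) (G.sg r 5))]
      | 2 => [ng (aC r ((k + s) % 6) (G.sg r i))]
      | 3 => [ng (aC r ((k + s) % 6) (G.sg r q))]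
      | _ => [ng (aC r ((k + s) % 6) (G.sg r (1 - i))), ng (aC r ((k + s) % 6) (G.sg r (5 - q)))]
  | .s4word r k w x => match x with
      | 0 => [ng (aD r k w), ps (aX 0 r k (2 + w / 2)), ps (aX 1 r k (2 + w / 2))]
      | _ => [ng (aD r k w), ng (aX 0 r k (2 + w / 2)), ng (aX 1 r k (2 + w / 2))]
  | .single r k s i => sel (fun j => !Nat.beq j i) (fun j => ps (aC r k j)) ++
      [ng (aC r ((k + s) % 6) i)]
  | .single2 r s k i => sel (fun j => !Nat.beq j i) (fun j => ps (aC r k j)) ++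
      (ng (aC s k i) :: exc r s k)
  | .notsub r k s A B => fc (aC r k) (aC r ((k + s) % 6)) A B 6
  | .notsub2 r s k A B => fc (aC r k) (aC s k) A B 6 ++ exc r s k
  | .faceA r k s A B j => fc (aC r k) (aC r ((k + s) % 6)) A B (G.sg r j)
  | .faceB r k s A B j => fc (aC r k) (aC r ((k + s) % 6)) A B j ++
      [ng (aC r ((k + 6 - s) % 6) j)]
  | .faceC r s k A B j => fc (aC r k) (aC s k) A B (G.sg r j) ++ exc r s k
  | .faceD r s k m A B j => fc (aC r k) (aC s k) A B j ++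
      (ng (aC r ((k + m) % 6) j) :: (exc r s (k + 2 * m) ++ exc r s k))
  | .faceE r s k m A B j => fc (aC r k) (aC r ((k + m) % 6)) A B j ++
      (ng (aC s k j) :: (exc r s (k + 2 * m) ++ exc r s k))
  | .hubA r k s i q j =>
      sel (fun m => !(Nat.beq m (G.sg r i) || Nat.beq m (G.sg r q) || Nat.beq m j))
        (fun m => ps (aC r k m)) ++ [ng (aC r ((k + s) % 6) j)]
  | .hubB r s k i q j =>
      sel (fun m => !(Nat.beq m (G.sg r i) || Nat.beq m (G.sg r q) || Nat.beq m j))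
        (fun m => ps (aC r k m)) ++ (ng (aC s k j) :: exc r s k)
  | .insubA r k s w x => ng (aD r ((k + s) % 6) w) ::
      (sel (fun j => !inD G r w j) (fun j => ps (aC r k j)) ++
        isb (aC r k (pc G r w 0)) (aC r k (pc G r w 1)) (aC r k (pc G r w 2))
          (aC r k (pc G r w 3)) x)
  | .insubB r s k w x => ng (aD s k w) ::
      (sel (fun j => !inD G s w j) (fun j => ps (aC r k j)) ++
        (isb (aC r k (pc G s w 0)) (aC r k (pc G s w 1)) (aC r k (pc G s w 2))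
          (aC r k (pc G s w 3)) x ++ exc r s k))
  | .two r s k i j m u v => [ng (aC r k i), ng (aC r k j), ng (aC r k m), ng (aC r k u),
      ng (aC s k i), ng (aC s k j), ng (aC s k m), ng (aC s k v)] ++ exc r s k
  | .n0L r j k => [ng (an r (G.sg r j) (3 * k)), ps (an r (G.sg r j) (3 * k + 1))]
  | .n0R r j k => [ng (an r (G.sg r j) (3 * k + 2)), ps (an r (G.sg r j) (3 * k + 1))]
  | .opp r j x => [ng (an r (G.sg r j) x), ng (an r (G.sg r j) (x + 9))]
  | .conv r j x y w => [ng (an r (G.sg r j) x), ng (an r (G.sg r j) (y % 18)),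
      ps (an r (G.sg r j) (w % 18))]
  | .convM r j k y w => [ng (aM 0 r (G.sg r j) k), ng (an r (G.sg r j) (y % 18)),
      ps (an r (G.sg r j) (w % 18))]
  | .convM2 r j k y w => [ng (aM 0 r (G.sg r j) k), ng (an r (G.sg r j) (y % 18)),
      ps (an r (G.sg r j) (w % 18))]
  | .M r j k x => match x with
      | 0 => [ng (aM 1 r (G.sg r j) k), ps (aM 0 r (G.sg r j) k), ps (an r (G.sg r j) (3 * k + 1))]
      | 1 => [ng (aM 0 r (G.sg r j) k), ps (aM 1 r (G.sg r j) k)]
      | _ => [ng (an r (G.sg r j) (3 * k + 1)), ps (aM 1 r (G.sg r j) k)]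
  | .mix r i q k => [ng (an r (G.sg r i) (3 * k + 2)),
      ng (an r (G.sg r q) (3 * ((k + 3) % 6) + 2))]
  | .line1 r i q k m => [ng (an r (G.sg r i) (3 * k + 1)),
      ng (an r (G.sg r q) (3 * ((k + 3) % 6) + 1)), ng (an r (G.sg r i) (3 * m + 1)),
      ng (an r (G.sg r q) (3 * ((m + 3) % 6) + 1))]
  | .rkind r i q k w => ng (aD r k (rq i q)) ::
      four (an r (G.sg r i) (3 * k + 1)) (an r (G.sg r i) (3 * ((k + 3) % 6) + 1))
        (an r (G.sg r q) (3 * k + 1)) (an r (G.sg r q) (3 * ((k + 3) % 6) + 1)) w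
  | .mkind r i q k x y =>
      (match x with
        | 0 => [ng (aD r k (rq i q + 1))]
        | 1 => [ng (aD r k (rq i q + 2))]
        | _ => [ng (aH r k), ng (aC r k (G.sg r i)), ng (aC r k (G.sg r q))]) ++
      (match y with
        | 0 => [ng (an r (G.sg r i) (3 * k + 1)), ng (an r (G.sg r q) (3 * ((k + 3) % 6) + 1))]
        | _ => [ng (an r (G.sg r i) (3 * ((k + 3) % 6) + 1)), ng (an r (G.sg r q) (3 * k + 1))])
  | .lab1 r j k => [ng (aC r k (G.sg r j)), ps (an r (G.sg r j) (3 * k + 1)),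
      ps (an r (G.sg r j) (3 * ((k + 3) % 6) + 1))]
  | .pairlab r k p w => ng (aC r k (G.sg r (2 * p))) :: ng (aC r k (G.sg r (2 * p + 1))) ::
      four (an r (G.sg r (2 * p)) (3 * k + 1)) (an r (G.sg r (2 * p)) (3 * ((k + 3) % 6) + 1))
        (an r (G.sg r (2 * p + 1)) (3 * k + 1))
        (an r (G.sg r (2 * p + 1)) (3 * ((k + 3) % 6) + 1)) w
  | .letlab r k p w => ng (aX 1 r k (2 + p)) ::
      four (an r (G.sg r (2 * p)) (3 * k + 2)) (an r (G.sg r (2 * p)) (3 * ((k + 3) % 6) + 2))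
        (an r (G.sg r (2 * p + 1)) (3 * k + 2))
        (an r (G.sg r (2 * p + 1)) (3 * ((k + 3) % 6) + 2)) w
  | .gline r i q k => [ng (ag 0 r (2 * i + (q - 2))), ng (an r (G.sg r i) (3 * k + 1)),
      ng (an r (G.sg r q) (3 * ((k + 3) % 6) + 1))]
  | .gset r i q k => [ng (an r (G.sg r i) (3 * k + 1)),
      ng (an r (G.sg r q) (3 * ((k + 3) % 6) + 1)), ps (ag 1 r (2 * i + (q - 2)))]
  | .gmono r j => [ng (ag 0 r j), ps (ag 1 r j)]
  | .E1 r a k i => [ng (aE r a k), pick (inl i (tc G r a)) (aC r k i)]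
  | .E2 r a k => nis G r k a ++ (ps (aE r a k) :: gd G r a)
  | .E3 r a k x => match x with
      | 0 => [ng (aE r a k), ps (aP r a)]
      | _ => [ng (aE r a k), ps (aP r (3 - a))]
  | .absent r a k => nis G r k a
  | .pres r a k => nis G r k a ++ [ps (aP r a)]
  | .c1 b r a k => lst G b r k a ++ [ps (aN 1 r a 0)]
  | .c2 b r a k => lst G b r k a ++ [ng (aN 0 r a 0), ps (aN 1 r a 1)]
  | .c3 b r a k m => lst G b r k a ++ (lst G b r m a ++ [ps (aN 1 r a 1)])
  | .c4 b r a k => lst G b r k a ++ [ng (aN 0 r a 0)]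
  | .c5 b r a k m => lst G b r k a ++ lst G b r m a
  | .c6 b r a k => lst G b r k a ++ [ng (aN 0 r a 1)]
  | .c7 b r a k m => lst G b r k a ++ (lst G b r m a ++ [ng (aN 0 r a 0)])
  | .c8 b r a k m n => lst G b r k a ++ (lst G b r m a ++ lst G b r n a)
  | .c9 r a j => [ng (aN 0 r a j), ps (aN 1 r a j)]
  | .c10 r a => ng (aN 1 r a 0) :: ps (aN 0 r a 0) :: es r a 6
  | .c11 r a => ng (aN 1 r a 1) :: ps (aN 0 r a 1) :: es r a 6
  | .c12 r a x => ng (aN 1 r a 1) :: ps (aN 0 r a 1) :: ps (aN 0 r a 0) :: es r a x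
  | .vis b r a k x => lst G b r k a ++
      match x with
      | 0 => [ng (aX 0 r k (2 + a / 2)), ng (aX 1 r k (2 + a / 2))]
      | _ => [ng (aX 0 r k (a % 2)), ng (aX 1 r k (a % 2))]
  | .norz r k w => [ng (aD r k w)]
  | .first => [ng (aF 1)]
  | .anchor r s k x => match x with
      | 0 => [ng (act r s k)]
      | 1 => [ng (act r s k), ps (aF 0)]
      | _ => [ps (act r s k), ng (aF 0)]
  | .done r s k m x => match x with
      | 0 => [ng (adn 0 r s), ng (act r s k)]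
      | 1 => [ng (act r s k), ps (adn 1 r s)]
      | 2 => [ng (act r s k), ng (act r s m)]
      | 3 => [ng (adn 0 r s), ps (adn 1 r s)]
      | _ => ng (adn 1 r s) :: ps (adn 0 r s) :: sel (fun _ => true) fun k => ps (act r s k)
  | .ident r j k i x => match x with
      | 0 => [ng (cta r (G.id2 r j) k), ng (aC (G.id1 r j) k i), ps (aU r j i)]
      | 1 => [ng (cta r (G.id2 r j) k), ps (aC (G.id1 r j) k i), ng (aU r j i)]
      | 2 => [ng (cta r (G.id1 r j) k), ng (aC (G.id2 r j) k i), ps (aU r j i)]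
      | _ => [ng (cta r (G.id1 r j) k), ps (aC (G.id2 r j) k i), ng (aU r j i)]
  | .identD r j k w w' x => match x with
      | 0 => [ng (cta r (G.id2 r j) k), ng (aD (G.id1 r j) k w), ps (aV r j w)]
      | 1 => [ng (cta r (G.id2 r j) k), ps (aD (G.id1 r j) k w), ng (aV r j w)]
      | 2 => [ng (cta r (G.id1 r j) k), ng (aD (G.id2 r j) k w'), ps (aV r j w)]
      | _ => [ng (cta r (G.id1 r j) k), ps (aD (G.id2 r j) k w'), ng (aV r j w)]
  | .ctC r s k i x => match x with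
      | 0 => [ng (act r s k), pick (ctr G s i) (aC r k i)]
      | _ => [ng (act r s k), pick (ctr G r i) (aC s ((k + 3) % 6) i)]
  | .ctD r s k w x => match x with
      | 0 => [ng (act r s k), ps (aD r k w)]
      | _ => [ng (act r s k), ps (aD s ((k + 3) % 6) w)]
  | .same r s k i x => match x with
      | 0 => [ng (act r s k), ng (aC r ((k + 1) % 6) i), ps (aC s ((k + 2) % 6) i)]
      | 1 => [ng (act r s k), ps (aC r ((k + 1) % 6) i), ng (aC s ((k + 2) % 6) i)]
      | 2 => [ng (act r s k), ng (aC r ((k + 5) % 6) i), ps (aC s ((k + 4) % 6) i)]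
      | _ => [ng (act r s k), ps (aC r ((k + 5) % 6) i), ng (aC s ((k + 4) % 6) i)]
  | .sameH r s k x => match x with
      | 0 => [ng (act r s k), ng (aH r ((k + 1) % 6)), ps (aH s ((k + 2) % 6))]
      | 1 => [ng (act r s k), ps (aH r ((k + 1) % 6)), ng (aH s ((k + 2) % 6))]
      | 2 => [ng (act r s k), ng (aH r ((k + 5) % 6)), ps (aH s ((k + 4) % 6))]
      | _ => [ng (act r s k), ps (aH r ((k + 5) % 6)), ng (aH s ((k + 4) % 6))]
  | .sameD r s k w w' x => match x with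
      | 0 => [ng (act r s k), ng (aD r ((k + 1) % 6) w), ps (aD s ((k + 2) % 6) w')]
      | 1 => [ng (act r s k), ps (aD r ((k + 1) % 6) w), ng (aD s ((k + 2) % 6) w')]
      | 2 => [ng (act r s k), ng (aD r ((k + 5) % 6) w), ps (aD s ((k + 4) % 6) w')]
      | _ => [ng (act r s k), ps (aD r ((k + 5) % 6) w), ng (aD s ((k + 4) % 6) w')]
  | .agree r s k i x => match x with
      | 0 => [ng (act r s k), ng (an r i (3 * k + 1)), ps (an s i (3 * ((k + 3) % 6) + 1))]
      | 1 => [ng (act r s k), ps (an r i (3 * k + 1)), ng (an s i (3 * ((k + 3) % 6) + 1))]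
      | 2 => [ng (act r s k), ng (an r i (3 * ((k + 3) % 6) + 1)), ps (an s i (3 * k + 1))]
      | _ => [ng (act r s k), ps (an r i (3 * ((k + 3) % 6) + 1)), ng (an s i (3 * k + 1))]
  | .tight r s k t p b x =>
      [ng (cta r s k), ng (aX t r k (2 + p)), ng (an s (G.sg r (2 * p + b)) (3 * ((k + 3) % 6) + 1)),
        ng (an s (G.sg r (2 * p + 1 - b)) (3 * k + 1)),
        match x with
        | 0 => ng (an s (G.sg r (2 * p + b)) (3 * ((k + 3) % 6) + 2 * t))
        | 1 => ps (an s (G.sg r (2 * p + b)) (3 * ((k + 3) % 6) + 2 * (1 - t)))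
        | 2 => ps (an s (G.sg r (2 * p + 1 - b)) (3 * k + 2 * t))
        | _ => ng (an s (G.sg r (2 * p + 1 - b)) (3 * k + 2 * (1 - t)))]
  | .ysome s k => [ps (aX 1 s k 0), ps (aX 1 s k 1), ps (aX 1 s k 2), ps (aX 1 s k 3)]
  | .yuniq s k l m => [ng (aX 1 s k l), ng (aX 1 s k m)]
  | .ylegal s k l => [ng (aX 1 s k l), ng (aX 1 s ((k + 1) % 6) l)]
  | .ylegal2 s k l m => [ng (aX 1 (G.yr s) k l), ng (aX 1 s k m)]
  | .nodir s k x => match x with
      | 0 => [ng (aX 0 s k 2), ng (aX 1 s k 3)]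
      | _ => [ng (aX 0 s k 3), ng (aX 1 s k 2)]
  | .tpY s t k m x => match x with
      | 0 => [ng (aX t (G.yr s) k (2 + G.yp s)), ng (aX t s k m),
          ng (aC (G.yr s) k (G.sg (G.yr s) 4)), ps (aC (G.yr s) k (G.sg (G.yr s) 5))]
      | _ => [ng (aX t (G.yr s) k (2 + G.yp s)), ng (aX t s k m),
          ng (aC (G.yr s) k (G.sg (G.yr s) 5)), ps (aC (G.yr s) k (G.sg (G.yr s) 4))]
  | .sameY s t l i x => match x with
      | 0 => [ng (aF 0), ng (aX t s 2 l), ps (aC (G.yr s) 1 i)]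
      | _ => [ng (aF 0), ng (aX t s 4 l), ps (aC (G.yr s) 5 i)]
  | .sameZ s t m => [ng (aF 0), ng (aX t s 3 m)]
  | .tpkeep r p k x => match x with
      | 0 => [ng (aX 0 r k (2 + p)), ng (aX 1 r k (2 + p)), ng (aty 0 r p k), ps (aty 1 r p k)]
      | _ => [ng (aX 0 r k (2 + p)), ng (aX 1 r k (2 + p)), ps (aty 0 r p k), ng (aty 1 r p k)]
  | .tpend r p t k x => match x with
      | 0 => [ng (aX t r k (2 + p)), ng (aC r k (G.sg r 4)), ps (aC r k (G.sg r 5)),
          ng (aty t r p k)]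
      | _ => [ng (aX t r k (2 + p)), ng (aC r k (G.sg r 5)), ps (aC r k (G.sg r 4)),
          ps (aty t r p k)]
  | .anch r p i => [ng (aF 0), pick (Nat.beq i (G.sg r (2 * p)) || Nat.beq i (G.sg r (2 * p + 1)) ||
      Nat.beq i (G.sg r 4) || Nat.beq i (G.sg r 5)) (aC r 0 i)]
  | .anchX r p x => match x with
      | 0 => [ng (aF 0), ps (aX 0 r 0 (2 + p)), ps (aX 1 r 0 (2 + p))]
      | _ => [ng (aF 0), ng (aX 0 r 0 (2 + p)), ng (aX 1 r 0 (2 + p))]
  | .anchD r w => [ng (aF 0), ps (aD r 0 w)]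
  | .nc r p k t => [ng (aQ r k), ng (aC r k (G.sg r (2 * p))), ng (aC r k (G.sg r (2 * p + 1))),
      ng (aX t r k (2 + p))]
  | .ncD r _ k w => [ng (aD r k w)]
  | .out2 r i q k m x y => [ng (aD r k (rq i q)), ps (aC r ((k + m) % 6) (G.sg r x)),
      ps (aC r ((k + m) % 6) (G.sg r y))]

/-- one or five -/
def o5 (s : ℕ) : Bool := Nat.beq s 1 || Nat.beq s 5

/-- the pair is adjacent -/
def aj (G : RD) (r s : ℕ) : Bool := lt r G.R && lt s G.R && (G.adj r s || G.adj s r)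

/-- a colour of the first two and one of the last two -/
def iq (i q : ℕ) : Bool := lt i 2 && lt 1 q && lt q 4

def CL.ok (G : RD) : CL → Bool
  | .some r k => lt r G.R && lt k 6
  | .uniq r k l m => lt r G.R && lt k 6 && lt l 4 && lt m 4 && !Nat.beq l m
  | .legal r k l => lt r G.R && lt k 6 && lt l 4
  | .legal2 r s k l m => lt r G.R && lt s G.R && lt k 6 && lt l 4 && lt m 4 && G.adj r s &&
      com G r s l m
  | .LC t r k l i => lt t 2 && lt r G.R && lt k 6 && lt l 4 && inl i (lc G r l)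
  | .le4 r k j => lt r G.R && lt k 6 && lt j 6
  | .inside r k _ => lt r G.R && lt k 6
  | .insideM r k i q => lt r G.R && lt k 6 && iq i q
  | .q4i r k i j m n => lt r G.R && lt k 6 && lt i j && lt j m && lt m n && lt n 6
  | .q4e r k b => lt r G.R && lt k 6 && lt b 2
  | .q4ge r k i j m => lt r G.R && lt k 6 && lt i j && lt j m && lt m 6
  | .dQ r k w => lt r G.R && lt k 6 && lt w 16
  | .dC r k w i => lt r G.R && lt k 6 && lt w 16 && lt i 6
  | .dd r k w w' => lt r G.R && lt k 6 && lt w 16 && lt w' 16 && !Nat.beq w w'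
  | .dH r k w => lt r G.R && lt k 6 && lt w 16
  | .hQ r k => lt r G.R && lt k 6
  | .q4cases r k => lt r G.R && lt k 6
  | .notri r k => lt r G.R && lt k 6
  | .swap4 r k s => lt r G.R && lt k 6 && o5 s
  | .flanksame r k s p _ => lt r G.R && lt k 6 && o5 s && lt p 2
  | .flank4 r k s w => lt r G.R && lt k 6 && o5 s && lt w 4
  | .flankr r k s i q _ => lt r G.R && lt k 6 && o5 s && iq i q
  | .s4word r k w _ => lt r G.R && lt k 6 && lt w 4
  | .single r k s i => lt r G.R && lt k 6 && o5 s && lt i 6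
  | .single2 r s k i => aj G r s && lt k 6 && lt i 6
  | .notsub r k s _ B => lt r G.R && lt k 6 && o5 s && small B
  | .notsub2 r s k _ B => aj G r s && lt k 6 && small B
  | .faceA r k s _ B j => lt r G.R && lt k 6 && o5 s && small B && lt j 4
  | .faceB r k s _ B j => lt r G.R && lt k 6 && o5 s && small B && lt j 6
  | .faceC r s k _ B j => aj G r s && lt k 6 && small B && lt j 4
  | .faceD r s k m _ B j => aj G r s && lt k 6 && o5 m && small B && lt j 6
  | .faceE r s k m _ B j => aj G r s && lt k 6 && o5 m && small B && lt j 6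
  | .hubA r k s i q j => lt r G.R && lt k 6 && o5 s && iq i q && lt j 6 &&
      !Nat.beq j (G.sg r i) && !Nat.beq j (G.sg r q)
  | .hubB r s k i q j => aj G r s && lt k 6 && iq i q && lt j 6 &&
      !Nat.beq j (G.sg r i) && !Nat.beq j (G.sg r q)
  | .insubA r k s w _ => lt r G.R && lt k 6 && o5 s && lt w 16
  | .insubB r s k w _ => aj G r s && lt k 6 && lt w 16
  | .two r s k i j m u v => lt r G.R && lt s G.R && G.adj r s && lt k 6 && lt i j && lt j m &&
      lt m 6 && lt u 6 && lt v 6 && !Nat.beq u i && !Nat.beq u j && !Nat.beq u m &&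
      !Nat.beq v i && !Nat.beq v j && !Nat.beq v m
  | .n0L r j k => lt r G.R && lt j 4 && lt k 6
  | .n0R r j k => lt r G.R && lt j 4 && lt k 6
  | .opp r j x => lt r G.R && lt j 4 && lt x 9
  | .conv r j x y w => lt r G.R && lt j 4 && lt x 18 && lt x w && lt w y && lt y (x + 9)
  | .convM r j k y w => lt r G.R && lt j 4 && lt k 6 && lt (3 * k) (w + 1) && lt w y &&
      lt y (3 * k + 9)
  | .convM2 r j k y w => lt r G.R && lt j 4 && lt k 6 && lt (3 * k + 12) (y + 1) && lt y w &&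
      lt w (3 * k + 18)
  | .M r j k _ => lt r G.R && lt j 4 && lt k 6
  | .mix r i q k => lt r G.R && iq i q && lt k 6
  | .line1 r i q k m => lt r G.R && iq i q && lt k 6 && lt m 6 && !Nat.beq k m
  | .rkind r i q k _ => lt r G.R && iq i q && lt k 6
  | .mkind r i q k _ _ => lt r G.R && iq i q && lt k 6
  | .lab1 r j k => lt r G.R && lt j 4 && lt k 6
  | .pairlab r k p _ => lt r G.R && lt k 6 && lt p 2
  | .letlab r k p _ => lt r G.R && lt k 6 && lt p 2
  | .gline r i q k => lt r G.R && iq i q && lt k 6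
  | .gset r i q k => lt r G.R && iq i q && lt k 6
  | .gmono r j => lt r G.R && lt j 4
  | .E1 r a k i => lt r G.R && lt a 4 && lt k 6 && lt i 6
  | .E2 r a k => lt r G.R && lt a 4 && lt k 6
  | .E3 r a k _ => lt r G.R && lt a 4 && lt k 6 && Nat.beq (G.md r a) 4
  | .absent r a k => lt r G.R && lt a 4 && Nat.beq (G.md r a) 1 && lt k 6
  | .pres r a k => lt r G.R && lt a 4 && lt k 6 && Nat.beq (G.md r a) 4
  | .c1 _ r a k => lt r G.R && lt a 4 && lt k 6 && lt 1 (G.md r a)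
  | .c2 _ r a k => lt r G.R && lt a 4 && lt k 6 && lt 1 (G.md r a)
  | .c3 _ r a k m => lt r G.R && lt a 4 && lt k 6 && lt m 6 && !Nat.beq k m && lt 1 (G.md r a)
  | .c4 _ r a k => lt r G.R && lt a 4 && lt k 6 && Nat.beq (G.md r a) 2
  | .c5 _ r a k m => lt r G.R && lt a 4 && lt k 6 && lt m 6 && !Nat.beq k m &&
      Nat.beq (G.md r a) 2
  | .c6 _ r a k => lt r G.R && lt a 4 && lt k 6 && (Nat.beq (G.md r a) 3 || Nat.beq (G.md r a) 4)
  | .c7 _ r a k m => lt r G.R && lt a 4 && lt k 6 && lt m 6 && !Nat.beq k m &&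
      (Nat.beq (G.md r a) 3 || Nat.beq (G.md r a) 4)
  | .c8 _ r a k m n => lt r G.R && lt a 4 && lt k 6 && lt m 6 && lt n 6 && !Nat.beq k m &&
      !Nat.beq k n && !Nat.beq m n && (Nat.beq (G.md r a) 3 || Nat.beq (G.md r a) 4)
  | .c9 r a j => lt r G.R && lt a 4 && lt j 2 && lt 1 (G.md r a)
  | .c10 r a => lt r G.R && lt a 4 && lt 1 (G.md r a)
  | .c11 r a => lt r G.R && lt a 4 && lt 1 (G.md r a)
  | .c12 r a x => lt r G.R && lt a 4 && lt x 6 && lt 1 (G.md r a)
  | .vis _ r a k _ => lt r G.R && lt a 4 && lt k 6 && lt 1 (G.md r a)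
  | .norz r k w => lt r G.R && G.nr r && lt k 6 &&
      (Nat.beq w 4 || Nat.beq w 7 || Nat.beq w 10 || Nat.beq w 13)
  | .first => true
  | .anchor r s k x => lt r G.R && lt s G.R && G.adj r s && lt k 6 && lt s 8 &&
      match x with
      | 0 => lt 0 (G.an r s) && lt (G.an r s) 7 && !Nat.beq (k + 1) (G.an r s)
      | _ => Nat.beq (k + 1) (G.an r s)
  | .done r s k m x => lt r G.R && lt s G.R && G.adj r s && lt k 6 && lt m 6 && lt s 8 &&
      Nat.beq (G.an r s) 0 && (!Nat.beq x 2 || !Nat.beq k m)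
  | .ident r j k i _ => lt r G.R && lt j (G.idn r) && lt j 4 && lt k 6 && lt i 6 && lt r 8 &&
      lt (G.id1 r j) 8 && lt (G.id2 r j) 8
  | .identD r j k w w' x => lt r G.R && lt j (G.idn r) && lt j 4 && lt k 6 && lt w 16 &&
      lt w' 16 && lt r 8 && lt (G.id1 r j) 8 && lt (G.id2 r j) 8 &&
      match x with
      | 0 => true
      | 1 => true
      | _ => smp (pc G (G.id1 r j) w 0) (pc G (G.id1 r j) w 1) (pc G (G.id1 r j) w 2)
          (pc G (G.id1 r j) w 3) (pc G (G.id2 r j) w' 0) (pc G (G.id2 r j) w' 1)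
          (pc G (G.id2 r j) w' 2) (pc G (G.id2 r j) w' 3)
  | .ctC r s k i _ => lt r G.R && lt s G.R && G.adj r s && lt k 6 && lt i 6 && lt s 8
  | .ctD r s k w x => lt r G.R && lt s G.R && G.adj r s && lt k 6 && lt w 16 && lt s 8 &&
      match x with
      | 0 => smp (pc G r w 0) (pc G r w 1) (pc G r w 2) (pc G r w 3) (G.sg s 0) (G.sg s 1)
          (G.sg s 2) (G.sg s 3)
      | _ => smp (pc G s w 0) (pc G s w 1) (pc G s w 2) (pc G s w 3) (G.sg r 0) (G.sg r 1)
          (G.sg r 2) (G.sg r 3)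
  | .same r s k i _ => lt r G.R && lt s G.R && G.adj r s && lt k 6 && lt i 6 && lt s 8
  | .sameH r s k _ => lt r G.R && lt s G.R && G.adj r s && lt k 6 && lt s 8
  | .sameD r s k w w' _ => lt r G.R && lt s G.R && G.adj r s && lt k 6 && lt w 16 && lt w' 16 &&
      lt s 8 && smp (pc G r w 0) (pc G r w 1) (pc G r w 2) (pc G r w 3) (pc G s w' 0)
        (pc G s w' 1) (pc G s w' 2) (pc G s w' 3)
  | .agree r s k i _ => lt r G.R && lt s G.R && G.adj r s && lt k 6 && lt i 6 && lt s 8 &&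
      ctr G r i && ctr G s i
  | .tight r s k t p b _ => aj G r s && lt k 6 && lt t 2 && lt p 2 && lt b 2 && lt r 8 &&
      lt s 8 &&
      (((Nat.beq (G.sg r (2 * p + b)) (G.sg s 0) || Nat.beq (G.sg r (2 * p + b)) (G.sg s 1)) &&
        (Nat.beq (G.sg r (2 * p + 1 - b)) (G.sg s 2) ||
          Nat.beq (G.sg r (2 * p + 1 - b)) (G.sg s 3))) ||
       ((Nat.beq (G.sg r (2 * p + b)) (G.sg s 2) || Nat.beq (G.sg r (2 * p + b)) (G.sg s 3)) &&
        (Nat.beq (G.sg r (2 * p + 1 - b)) (G.sg s 0) ||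
          Nat.beq (G.sg r (2 * p + 1 - b)) (G.sg s 1))))
  | .ysome s k => yk G s && lt k 6
  | .yuniq s k l m => yk G s && lt k 6 && lt l 4 && lt m 4 && !Nat.beq l m
  | .ylegal s k l => yk G s && lt k 6 && lt l 4
  | .ylegal2 s k l m => yk G s && lt k 6 && lt l 4 && lt m 4 && com G (G.yr s) s l m
  | .nodir s k _ => yk G s && lt k 6
  | .tpY s t k m x => yk G s && lt (G.yr s) G.R && lt (G.yp s) 2 && lt t 2 && lt k 6 && lt 1 m &&
      lt m 4 &&
      match x with
      | 0 => inl (G.sg (G.yr s) 4) (lc G s m)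
      | _ => inl (G.sg (G.yr s) 5) (lc G s m)
  | .sameY s t l i _ => yk G s && G.ya s && lt t 2 && lt l 4 && lt i 6 && inl i (lc G s l)
  | .sameZ s t m => yk G s && G.ya s && lt t 2 && lt 1 m && lt m 4
  | .tpkeep r p k _ => lt r G.R && lt p 2 && G.ty r p && lt k 6
  | .tpend r p t k _ => lt r G.R && lt p 2 && G.ty r p && lt t 2 && lt k 6
  | .anch r p i => lt r G.R && lt p 2 && Nat.beq (G.ap r) (p + 1) && lt i 6
  | .anchX r p _ => lt r G.R && lt p 2 && Nat.beq (G.ap r) (p + 1)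
  | .anchD r w => lt r G.R && lt w 16 && Nat.beq (G.ad r) (w + 1)
  | .nc r p k t => lt r G.R && lt p 2 && G.nc r p && lt k 6 && lt t 2
  | .ncD r p k w => lt r G.R && lt p 2 && G.nc r p && lt k 6 && Nat.beq (w / 2) p
  | .out2 r i q k m x y => lt r G.R && iq i q && lt k 6 && (Nat.beq m 2 || Nat.beq m 4) &&
      lt x 2 && lt 1 y && lt y 4

/-- clauses about the start -/
inductive CI
  | initX (r k l x : ℕ) | initn (r j k x : ℕ) | M0 (r j k : ℕ) | g0 (r j : ℕ) | cnt0 (r a j : ℕ)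
  | done0 (r s : ℕ) | first | initF (r p k x : ℕ)

def CI.cl (G : RD) : CI → List ℕ
  | .initX r k l x => match x with
      | 0 => [ng (aX 0 r k l), ps (aI r k l)]
      | _ => [ps (aX 0 r k l), ng (aI r k l)]
  | .initn r j k x => match x with
      | 0 => [ng (an r (G.sg r j) (3 * k)), ps (aJ r (G.sg r j) k)]
      | _ => [ps (an r (G.sg r j) (3 * k)), ng (aJ r (G.sg r j) k)]
  | .M0 r j k => [ng (aM 0 r (G.sg r j) k)]
  | .g0 r j => [ng (ag 0 r j)]
  | .cnt0 r a j => [ng (aN 0 r a j)]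
  | .done0 r s => [ng (adn 0 r s)]
  | .first => [ps (aF 0)]
  | .initF r p k x => match x with
      | 0 => [ng (aty 0 r p k), ps (ati r p k)]
      | _ => [ps (aty 0 r p k), ng (ati r p k)]

def CI.ok (G : RD) : CI → Bool
  | .initX r k l _ => lt r (G.R + G.Y) && lt k 6 && lt l 4
  | .initn r j k _ => lt r G.R && lt j 4 && lt k 6
  | .M0 r j k => lt r G.R && lt j 4 && lt k 6
  | .g0 r j => lt r G.R && lt j 4
  | .cnt0 r a j => lt r G.R && lt a 4 && lt j 2
  | .done0 r s => lt r G.R && lt s G.R && lt s 8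
  | .first => true
  | .initF r p k _ => lt r G.R && lt p 2 && G.ty r p && lt k 6

/-- clauses about the end -/
inductive CB
  | closeX (r k l x : ℕ) | closen (r j k x : ℕ) | cntend1 (r a : ℕ) | cntend2 (r a : ℕ)
  | cntend (r a : ℕ) | doneend (r s : ℕ) | first | closeF (r p k x : ℕ)

def CB.cl (G : RD) : CB → List ℕ
  | .closeX r k l x => match x with
      | 0 => [ng (aX 0 r k l), ps (aI r ((k + 1) % 6) l)]
      | _ => [ps (aX 0 r k l), ng (aI r ((k + 1) % 6) l)]
  | .closen r j k x => match x with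
      | 0 => [ng (an r (G.sg r j) (3 * k)), ps (aJ r (G.sg r j) ((k + 1) % 6))]
      | _ => [ps (an r (G.sg r j) (3 * k)), ng (aJ r (G.sg r j) ((k + 1) % 6))]
  | .cntend1 r a => [ps (aN 0 r a 0)]
  | .cntend2 r a => [ps (aN 0 r a 1)]
  | .cntend r a => [ng (aP r a), ng (aP r (3 - a)), ps (aN 0 r a 0)]
  | .doneend r s => [ps (adn 0 r s)]
  | .first => [ng (aF 0)]
  | .closeF r p k x => match x with
      | 0 => [ng (aX 0 r k (2 + p)), ng (aty 0 r p k), ps (ati r p ((k + 1) % 6))]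
      | _ => [ng (aX 0 r k (2 + p)), ps (aty 0 r p k), ng (ati r p ((k + 1) % 6))]

def CB.ok (G : RD) : CB → Bool
  | .closeX r k l _ => lt r (G.R + G.Y) && lt k 6 && lt l 4
  | .closen r j k _ => lt r G.R && lt j 4 && lt k 6
  | .cntend1 r a => lt r G.R && lt a 4 && lt 1 (G.md r a) && lt (G.md r a) 4
  | .cntend2 r a => lt r G.R && lt a 4 && Nat.beq (G.md r a) 3
  | .cntend r a => lt r G.R && lt a 4 && Nat.beq (G.md r a) 4
  | .doneend r s => lt r G.R && lt s G.R && G.adj r s && Nat.beq (G.an r s) 0 && lt s 8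
  | .first => true
  | .closeF r p k _ => lt r G.R && lt p 2 && G.ty r p && lt k 6

end Vale.Agent.P032.R2.H741.Tp
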