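import Vale.Agent.P032.R2.H741.TpF
import Mathlib.Tactic.Tauto

/-!
# P032: the clauses of the facts

`CS`: clauses about the state before the instant, `CT`: about the step, `CI`: about the start, `CB`:
about the end.  `cl`: the clause, `ok`: the parameters are in range.  `CS.sound`, `CT.sound`, ...: the
clauses hold if the facts hold.
-/

set_option autoImplicit false

namespace Vale.Agent.P032.R2.H741.Tp

open Vale.Agent.P032.R2.H805.Rup (Lit)

/-- the colours -/
def six : List ℕ := [0, 1, 2, 3, 4, 5]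

theorem mem_six {i : ℕ} : i ∈ six ↔ i < 6 := by
  unfold six
  simp only [List.mem_cons, List.not_mem_nil, or_false]
  omega

/-- a bit of a mask -/
def tb (A i : ℕ) : Bool := Nat.beq (Nat.land (Nat.shiftRight A i) 1) 1

/-- literals of the colours with a property -/
def sel (P : ℕ → Bool) (f : ℕ → ℕ) : List ℕ := (six.filter P).map f

theorem hd_sel {v : ℕ → Prop} {P : ℕ → Bool} {f : ℕ → ℕ} :
    Hd v (sel P f) ↔ ∃ i < 6, P i = true ∧ Lit v (f i) := by
  unfold sel
  rw [hd_map]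
  simp only [List.mem_filter, mem_six, and_assoc]

/-- the complement of a colour set is small -/
def small (B : ℕ) : Bool := Nat.ble ((six.filter (tb B)).length) 3

theorem small_spec {B : ℕ} (h : small B = true) : ((six.filter (tb B)).toFinset).card ≤ 3 :=
  le_trans (List.toFinset_card_le _) (Nat.le_of_ble_eq_true h)

theorem mem_small {B i : ℕ} : i ∈ (six.filter (tb B)).toFinset ↔ i < 6 ∧ tb B i = true := by
  rw [List.mem_toFinset, List.mem_filter, mem_six]

/-- the colour is in the list -/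
def inl (i : ℕ) (L : List ℕ) : Bool := L.any (Nat.beq i)

theorem inl_iff {i : ℕ} {L : List ℕ} : inl i L = true ↔ i ∈ L := by
  unfold inl
  rw [List.any_eq_true]
  constructor
  · rintro ⟨x, h1, h2⟩
    rw [Nat.eq_of_beq_eq_true h2]; exact h1
  · exact fun h => ⟨i, h, Nat.beq_refl i⟩

/-- exceptions of a cross pair -/
def exc (r s j : ℕ) : List ℕ :=
  [ps (act (min r s) (max r s) (j % 6)), ps (act (min r s) (max r s) ((j + 3) % 6))]

/-- contact variable -/
def cta (r s k : ℕ) : ℕ := if r < s then act r s k else act s r ((k + 3) % 6)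

/-- the palette of `(r, k)` is not the palette number `a` -/
def nis (G : RD) (r k a : ℕ) : List ℕ :=
  six.map fun i => if inl i (tc G r a) then ng (aC r k i) else ps (aC r k i)

/-- the same with the atom `E` (`b = 0` or rule two) or the palette -/
def lst (G : RD) (b r k a : ℕ) : List ℕ :=
  if b = 0 ∨ G.md r a = 4 then [ng (aE r a k)] else nis G r k a

/-- four clauses of `(x ∧ y3) ∨ (y ∧ x3)` -/
def four (x x3 y y3 w : ℕ) : List ℕ :=
  match w with
  | 0 => [ps x, ps y]
  | 1 => [ps x, ps x3]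
  | 2 => [ps y3, ps y]
  | _ => [ps y3, ps x3]

/-- clauses about the state before the instant -/
inductive CS
  | some (r k : ℕ) | uniq (r k l m : ℕ) | legal (r k l : ℕ) | legal2 (r s k l m : ℕ)
  | opp (r j k : ℕ) | conv (r j k : ℕ) | mix (r i q k : ℕ) | letlab (r k p w : ℕ)
  | cntmono (r a : ℕ)
  | ysome (s k : ℕ) | yuniq (s k l m : ℕ) | ylegal (s k l : ℕ) | ylegal2 (s k l m : ℕ)

/-- common colour of two letters -/
def com (G : RD) (r s l m : ℕ) : Bool := (lc G r l).any fun i => inl i (lc G s m)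

def CS.cl (G : RD) : CS → List ℕ
  | .some r k => [ps (aX 0 r k 0), ps (aX 0 r k 1), ps (aX 0 r k 2), ps (aX 0 r k 3)]
  | .uniq r k l m => [ng (aX 0 r k l), ng (aX 0 r k m)]
  | .legal r k l => [ng (aX 0 r k l), ng (aX 0 r ((k + 1) % 6) l)]
  | .legal2 r s k l m => [ng (aX 0 r k l), ng (aX 0 s k m)]
  | .opp r j k => [ng (an r (G.sg r j) (3 * k)), ng (an r (G.sg r j) (3 * k + 9))]
  | .conv r j k => [ng (an r (G.sg r j) (3 * k)), ng (an r (G.sg r j) (3 * ((k + 2) % 6))),
      ps (an r (G.sg r j) (3 * ((k + 1) % 6)))]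
  | .mix r i q k => [ng (an r (G.sg r i) (3 * k)), ng (an r (G.sg r q) (3 * ((k + 3) % 6)))]
  | .letlab r k p w => ng (aX 0 r k (2 + p)) ::
      four (an r (G.sg r (2 * p)) (3 * k)) (an r (G.sg r (2 * p)) (3 * ((k + 3) % 6)))
        (an r (G.sg r (2 * p + 1)) (3 * k)) (an r (G.sg r (2 * p + 1)) (3 * ((k + 3) % 6))) w
  | .cntmono r a => [ng (aN 0 r a 1), ps (aN 0 r a 0)]
  | .ysome s k => [ps (aX 0 s k 0), ps (aX 0 s k 1), ps (aX 0 s k 2), ps (aX 0 s k 3)]
  | .yuniq s k l m => [ng (aX 0 s k l), ng (aX 0 s k m)]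
  | .ylegal s k l => [ng (aX 0 s k l), ng (aX 0 s ((k + 1) % 6) l)]
  | .ylegal2 s k l m => [ng (aX 0 (G.yr s) k l), ng (aX 0 s k m)]

/-- `a < b` -/
def lt (a b : ℕ) : Bool := Nat.ble (a + 1) b

theorem lt_iff {a b : ℕ} : lt a b = true ↔ a < b := by
  unfold lt
  rw [Nat.ble_eq]
  omega

/-- a ring with letters only -/
def yk (G : RD) (s : ℕ) : Bool := Nat.ble G.R s && lt s (G.R + G.Y)

def CS.ok (G : RD) : CS → Bool
  | .some r k => lt r G.R && lt k 6
  | .uniq r k l m => lt r G.R && lt k 6 && lt l 4 && lt m 4 && !Nat.beq l m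
  | .legal r k l => lt r G.R && lt k 6 && lt l 4
  | .legal2 r s k l m => lt r G.R && lt s G.R && lt k 6 && lt l 4 && lt m 4 && G.adj r s &&
      com G r s l m
  | .opp r j k => lt r G.R && lt j 4 && lt k 3
  | .conv r j k => lt r G.R && lt j 4 && lt k 6
  | .mix r i q k => lt r G.R && lt i 2 && lt 1 q && lt q 4 && lt k 6
  | .letlab r k p _ => lt r G.R && lt k 6 && lt p 2
  | .cntmono r a => lt r G.R && lt a 4 && lt 1 (G.md r a)
  | .ysome s k => yk G s && lt k 6
  | .yuniq s k l m => yk G s && lt k 6 && lt l 4 && lt m 4 && !Nat.beq l m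
  | .ylegal s k l => yk G s && lt k 6 && lt l 4
  | .ylegal2 s k l m => yk G s && lt k 6 && lt l 4 && lt m 4 && com G (G.yr s) s l m

theorem yk_iff {G : RD} {s : ℕ} : yk G s = true ↔ G.R ≤ s ∧ s < G.R + G.Y := by
  unfold yk
  rw [Bool.and_eq_true, lt_iff, Nat.ble_eq]

/-- colours are numbers below six -/
def Good (G : RD) : Prop := ∀ r < G.R, ∀ j < 6, G.sg r j < 6

theorem lc_lt {G : RD} (hG : Good G) {r l i : ℕ} (hr : r < G.R) (hi : i ∈ lc G r l) : i < 6 := by
  unfold lc at hi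
  split at hi
  · rw [List.mem_singleton] at hi; rw [hi]; exact hG r hr 4 (by omega)
  · rw [List.mem_singleton] at hi; rw [hi]; exact hG r hr 5 (by omega)
  · rw [List.mem_cons, List.mem_singleton] at hi
    rcases hi with h | h <;> rw [h]
    · exact hG r hr 0 (by omega)
    · exact hG r hr 1 (by omega)
  · rw [List.mem_cons, List.mem_singleton] at hi
    rcases hi with h | h <;> rw [h]
    · exact hG r hr 2 (by omega)
    · exact hG r hr 3 (by omega)

/-- the four clauses -/
theorem hd_four {v : ℕ → Prop} {x x3 y y3 w : ℕ} (h : (v x ∧ v y3) ∨ (v y ∧ v x3)) :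
    Hd v (four x x3 y y3 w) := by
  unfold four
  split <;> simp only [hd_ps, hd_nil] <;> tauto

theorem CS.sound {G : RD} (hG : Good G) {S : Sem} (F : SF G S) : ∀ {f : CS}, f.ok G = true →
    Hd (val S) (f.cl G) := by
  intro f h
  cases f with
  | some r k =>
    simp only [CS.ok, Bool.and_eq_true, lt_iff] at h
    have := F.some r h.1 k h.2
    simp only [CS.cl, hd_ps, hd_nil, val_X (t := 0) (by omega) h.2 (show 0 < 4 by omega),
      val_X (t := 0) (by omega) h.2 (show 1 < 4 by omega),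
      val_X (t := 0) (by omega) h.2 (show 2 < 4 by omega),
      val_X (t := 0) (by omega) h.2 (show 3 < 4 by omega)]
    tauto
  | uniq r k l m =>
    simp only [CS.ok, Bool.and_eq_true, lt_iff, Bool.not_eq_true'] at h
    obtain ⟨⟨⟨⟨h1, h2⟩, h3⟩, h4⟩, h5⟩ := h
    simp only [CS.cl, hd_ng, hd_nil, val_X (t := 0) (by omega) h2 h3,
      val_X (t := 0) (by omega) h2 h4]
    intro a b
    have := F.uniq r h1 k h2 l h3 m h4 a b
    subst this
    rw [Nat.beq_refl] at h5
    exact absurd h5 (by simp)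
  | legal r k l =>
    simp only [CS.ok, Bool.and_eq_true, lt_iff] at h
    obtain ⟨⟨h1, h2⟩, h3⟩ := h
    simp only [CS.cl, hd_ng, hd_nil, val_X (t := 0) (by omega) h2 h3,
      val_X (t := 0) (by omega) (Nat.mod_lt (k + 1) (by omega : 0 < 6)) h3]
    exact F.legal r h1 k h2 l h3
  | legal2 r s k l m =>
    simp only [CS.ok, Bool.and_eq_true, lt_iff] at h
    obtain ⟨⟨⟨⟨⟨⟨h1, h2⟩, h3⟩, h4⟩, h5⟩, h6⟩, h7⟩ := h
    simp only [CS.cl, hd_ng, hd_nil, val_X (t := 0) (by omega) h3 h4,
      val_X (t := 0) (by omega) h3 h5]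
    unfold com at h7
    rw [List.any_eq_true] at h7
    obtain ⟨i, hi, hi'⟩ := h7
    exact F.legal2 r h1 s h2 h6 k h3 l h4 m h5 i hi (inl_iff.1 hi')
  | opp r j k =>
    simp only [CS.ok, Bool.and_eq_true, lt_iff] at h
    obtain ⟨⟨h1, h2⟩, h3⟩ := h
    have hg := hG r h1 j (by omega)
    simp only [CS.cl, hd_ng, hd_nil, val_n hg (show 3 * k < 18 by omega),
      val_n hg (show 3 * k + 9 < 18 by omega)]
    exact fun a b => F.opp r h1 j h2 k h3 ⟨a, b⟩
  | conv r j k =>
    simp only [CS.ok, Bool.and_eq_true, lt_iff] at h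
    obtain ⟨⟨h1, h2⟩, h3⟩ := h
    have hg := hG r h1 j (by omega)
    simp only [CS.cl, hd_ng, hd_ps, hd_nil, val_n hg (show 3 * k < 18 by omega),
      val_n hg (show 3 * ((k + 2) % 6) < 18 by omega),
      val_n hg (show 3 * ((k + 1) % 6) < 18 by omega)]
    exact fun a b c => c (F.conv r h1 j h2 k h3 a b)
  | mix r i q k =>
    simp only [CS.ok, Bool.and_eq_true, lt_iff] at h
    obtain ⟨⟨⟨⟨h1, h2⟩, h3⟩, h4⟩, h5⟩ := h
    simp only [CS.cl, hd_ng, hd_nil, val_n (hG r h1 i (by omega)) (show 3 * k < 18 by omega),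
      val_n (hG r h1 q (by omega)) (show 3 * ((k + 3) % 6) < 18 by omega)]
    exact F.mix r h1 i h2 q (by omega) h4 k h5
  | letlab r k p w =>
    simp only [CS.ok, Bool.and_eq_true, lt_iff] at h
    obtain ⟨⟨h1, h2⟩, h3⟩ := h
    rw [CS.cl, hd_ng, val_X (by omega) h2 (by omega)]
    intro a
    apply hd_four
    rw [val_n (hG r h1 _ (by omega)) (by omega), val_n (hG r h1 _ (by omega)) (by omega),
      val_n (hG r h1 _ (by omega)) (by omega), val_n (hG r h1 _ (by omega)) (by omega)]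
    exact F.letlab r h1 k h2 p h3 a
  | cntmono r a =>
    simp only [CS.ok, Bool.and_eq_true, lt_iff] at h
    obtain ⟨⟨h1, h2⟩, h3⟩ := h
    simp only [CS.cl, hd_ng, hd_ps, hd_nil, val_N (t := 0) (by omega) h2 (show 1 < 3 by omega),
      val_N (t := 0) (by omega) h2 (show 0 < 3 by omega)]
    exact fun x y => y (F.cntmono r h1 a h2 (by omega) x)
  | ysome s k =>
    simp only [CS.ok, Bool.and_eq_true, lt_iff, yk_iff] at h
    have := F.ysome s h.1.1 h.1.2 k h.2
    simp only [CS.cl, hd_ps, hd_nil, val_X (t := 0) (by omega) h.2 (show 0 < 4 by omega),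
      val_X (t := 0) (by omega) h.2 (show 1 < 4 by omega),
      val_X (t := 0) (by omega) h.2 (show 2 < 4 by omega),
      val_X (t := 0) (by omega) h.2 (show 3 < 4 by omega)]
    tauto
  | yuniq s k l m =>
    simp only [CS.ok, Bool.and_eq_true, lt_iff, yk_iff, Bool.not_eq_true'] at h
    obtain ⟨⟨⟨⟨h1, h2⟩, h3⟩, h4⟩, h5⟩ := h
    simp only [CS.cl, hd_ng, hd_nil, val_X (t := 0) (by omega) h2 h3,
      val_X (t := 0) (by omega) h2 h4]
    intro a b
    have := F.yuniq s h1.1 h1.2 k h2 l h3 m h4 a b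
    subst this
    rw [Nat.beq_refl] at h5
    exact absurd h5 (by simp)
  | ylegal s k l =>
    simp only [CS.ok, Bool.and_eq_true, lt_iff, yk_iff] at h
    obtain ⟨⟨h1, h2⟩, h3⟩ := h
    simp only [CS.cl, hd_ng, hd_nil, val_X (t := 0) (by omega) h2 h3,
      val_X (t := 0) (by omega) (Nat.mod_lt (k + 1) (by omega : 0 < 6)) h3]
    exact F.ylegal s h1.1 h1.2 k h2 l h3
  | ylegal2 s k l m =>
    simp only [CS.ok, Bool.and_eq_true, lt_iff, yk_iff] at h
    obtain ⟨⟨⟨⟨h1, h2⟩, h3⟩, h4⟩, h5⟩ := h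
    simp only [CS.cl, hd_ng, hd_nil, val_X (t := 0) (by omega) h2 h3,
      val_X (t := 0) (by omega) h2 h4]
    unfold com at h5
    rw [List.any_eq_true] at h5
    obtain ⟨i, hi, hi'⟩ := h5
    exact F.ylegal2 s h1.1 h1.2 k h2 l h3 m h4 i hi (inl_iff.1 hi')

end Vale.Agent.P032.R2.H741.Tp
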