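import Vale.Agent.P032.R2.H741.TpH0

/-!
# P032: soundness of the clauses, points with at most three colours, faces
-/

set_option autoImplicit false
set_option linter.unusedSimpArgs false

namespace Vale.Agent.P032.R2.H741.Tp

open Vale.Agent.P032.R2.H805.Rup (Lit)

variable {G : RD} {S : Sem}

namespace CL

theorem isb_ok {x0 x1 x2 x3 x : ℕ} {v : ℕ → Prop} (h : (v x0 ↔ v x1) ∧ (v x2 ↔ v x3) ∧
    ¬ (v x0 ∧ v x2)) : Hd v (isb x0 x1 x2 x3 x) := by
  unfold isb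
  split <;> simp only [hd_ps, hd_ng, hd_nil] <;> tauto

/-- a face clause for the palettes -/
theorem fcS {r k r' k' A B t : ℕ} {L : List ℕ} (hk : k < 6) (hk' : k' < 6)
    (h : (∀ i < 6, S.C r k i → i = t ∨ S.C r' k' i) →
      (∀ i < 6, S.C r' k' i → i ∈ (six.filter (tb B)).toFinset) → Hd (val S) L) :
    Hd (val S) (fc (aC r k) (aC r' k') A B t ++ L) := by
  refine hd_fc fun h1 h2 => h (fun i hi hc => ?_) fun i hi hc => ?_
  · have h3 := h1 i hi (by rw [val_C hk hi]; exact hc)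
    rwa [val_C hk' hi] at h3
  · exact h2 i hi (by rw [val_C hk' hi]; exact hc)

theorem fcS0 {r k r' k' A B t : ℕ} (hk : k < 6) (hk' : k' < 6)
    (h : (∀ i < 6, S.C r k i → i = t ∨ S.C r' k' i) →
      (∀ i < 6, S.C r' k' i → i ∈ (six.filter (tb B)).toFinset) → False) :
    Hd (val S) (fc (aC r k) (aC r' k') A B t) := by
  rw [← List.append_nil (fc (aC r k) (aC r' k') A B t)]
  exact fcS hk hk' fun h1 h2 => (h h1 h2).elim

/-- positive colours -/
theorem selS {r k : ℕ} {P : ℕ → Bool} {L : List ℕ} (hk : k < 6)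
    (h : (∀ i < 6, S.C r k i → P i = false) → Hd (val S) L) :
    Hd (val S) (sel P (fun i => ps (aC r k i)) ++ L) :=
  sel_pos fun h1 => h fun i hi hc => h1 i hi (by rw [val_C hk hi]; exact hc)

theorem h_single (F : TF G S) {r k s i : ℕ} (h : (CL.single r k s i).ok G = true) :
    Hd (val S) ((CL.single r k s i).cl G) := by
  simp only [CL.ok, Bool.and_eq_true, Bool.or_eq_true, Bool.not_eq_true', lt_iff, beq_iff,
    beq_ff, o5_iff, iq_iff, yk_iff, inl_iff] at h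
  obtain ⟨⟨⟨h1, h2⟩, h3⟩, h4⟩ := h
  rw [CL.cl]
  refine selS h2 fun h' => ?_
  rw [hd_ng, hd_nil, val_C (Nat.mod_lt _ (by omega)) h4]
  refine F.single r h1 k h2 s h3 i h4 fun j hj hc => ?_
  have := h' j hj hc
  rwa [Bool.not_eq_false', beq_iff] at this

theorem h_single2 (h8 : G.R ≤ 8) (F : TF G S) {r s k i : ℕ} (h : (CL.single2 r s k i).ok G = true) :
    Hd (val S) ((CL.single2 r s k i).cl G) := by
  simp only [CL.ok, Bool.and_eq_true, lt_iff, aj_iff] at h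
  obtain ⟨⟨⟨h1, h2, h3⟩, h4⟩, h5⟩ := h
  rw [CL.cl]
  rcases off_or (S := S) (r := r) (s := s) (j := k) (by omega) with hO | hE
  · refine selS h4 fun h' => ?_
    rw [hd_ng, val_C h4 h5]
    intro hc
    refine absurd hc (F.single2 r h1 s h2 h3 k h4 hO i h5 fun j hj hc => ?_)
    have := h' j hj hc
    rwa [Bool.not_eq_false', beq_iff] at this
  · exact hd_right (hd_cons.2 (Or.inr hE))

theorem h_notsub (F : TF G S) {r k s A B : ℕ} (h : (CL.notsub r k s A B).ok G = true) :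
    Hd (val S) ((CL.notsub r k s A B).cl G) := by
  simp only [CL.ok, Bool.and_eq_true, Bool.or_eq_true, Bool.not_eq_true', lt_iff, beq_iff,
    beq_ff, o5_iff, iq_iff, yk_iff, inl_iff] at h
  obtain ⟨⟨⟨h1, h2⟩, h3⟩, h4⟩ := h
  rw [CL.cl]
  refine fcS0 h2 (Nat.mod_lt _ (by omega)) fun h5 h6 => ?_
  obtain ⟨i, hi, h7, h8⟩ := F.notsub r h1 k h2 s h3 _ (small_spec h4) h6
  rcases h5 i hi h7 with h9 | h9
  · omega
  · exact h8 h9

theorem h_notsub2 (h8 : G.R ≤ 8) (F : TF G S) {r s k A B : ℕ}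
    (h : (CL.notsub2 r s k A B).ok G = true) : Hd (val S) ((CL.notsub2 r s k A B).cl G) := by
  simp only [CL.ok, Bool.and_eq_true, lt_iff, aj_iff] at h
  obtain ⟨⟨⟨h1, h2, h3⟩, h4⟩, h5⟩ := h
  rw [CL.cl]
  rcases off_or (S := S) (r := r) (s := s) (j := k) (by omega) with hO | hE
  · refine fcS h4 h4 fun h6 h7 => ?_
    obtain ⟨i, hi, h9, h10⟩ := F.notsub2 r h1 s h2 h3 k h4 hO _ (small_spec h5) h7
    rcases h6 i hi h9 with h11 | h11
    · omega
    · exact absurd h11 h10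
  · exact hd_right hE

theorem h_faceA (F : TF G S) {r k s A B j : ℕ} (h : (CL.faceA r k s A B j).ok G = true) :
    Hd (val S) ((CL.faceA r k s A B j).cl G) := by
  simp only [CL.ok, Bool.and_eq_true, Bool.or_eq_true, Bool.not_eq_true', lt_iff, beq_iff,
    beq_ff, o5_iff, iq_iff, yk_iff, inl_iff] at h
  obtain ⟨⟨⟨⟨h1, h2⟩, h3⟩, h4⟩, h5⟩ := h
  rw [CL.cl]
  exact fcS0 h2 (Nat.mod_lt _ (by omega)) fun h6 h7 =>
    F.faceA r h1 k h2 s h3 _ (small_spec h4) h7 j h5 h6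

theorem h_faceB (F : TF G S) {r k s A B j : ℕ} (h : (CL.faceB r k s A B j).ok G = true) :
    Hd (val S) ((CL.faceB r k s A B j).cl G) := by
  simp only [CL.ok, Bool.and_eq_true, Bool.or_eq_true, Bool.not_eq_true', lt_iff, beq_iff,
    beq_ff, o5_iff, iq_iff, yk_iff, inl_iff] at h
  obtain ⟨⟨⟨⟨h1, h2⟩, h3⟩, h4⟩, h5⟩ := h
  rw [CL.cl]
  refine fcS h2 (Nat.mod_lt _ (by omega)) fun h6 h7 => ?_
  rw [hd_ng, hd_nil, val_C (Nat.mod_lt _ (by omega)) h5]
  exact F.faceB r h1 k h2 s h3 _ (small_spec h4) h7 j h5 h6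

theorem h_faceC (h8 : G.R ≤ 8) (F : TF G S) {r s k A B j : ℕ}
    (h : (CL.faceC r s k A B j).ok G = true) : Hd (val S) ((CL.faceC r s k A B j).cl G) := by
  simp only [CL.ok, Bool.and_eq_true, lt_iff, aj_iff] at h
  obtain ⟨⟨⟨⟨h1, h2, h3⟩, h4⟩, h5⟩, h6⟩ := h
  rw [CL.cl]
  rcases off_or (S := S) (r := r) (s := s) (j := k) (by omega) with hO | hE
  · exact fcS h4 h4 fun h9 h10 =>
      (F.faceC r h1 s h2 h3 k h4 hO _ (small_spec h5) h10 j h6 h9).elim
  · exact hd_right hE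

theorem h_faceD (h8 : G.R ≤ 8) (F : TF G S) {r s k m A B j : ℕ}
    (h : (CL.faceD r s k m A B j).ok G = true) : Hd (val S) ((CL.faceD r s k m A B j).cl G) := by
  simp only [CL.ok, Bool.and_eq_true, lt_iff, aj_iff, o5_iff] at h
  obtain ⟨⟨⟨⟨⟨h1, h2, h3⟩, h4⟩, h5⟩, h6⟩, h7⟩ := h
  rw [CL.cl]
  rcases off_or (S := S) (r := r) (s := s) (j := k) (by omega) with hO | hE
  · rcases off_or (S := S) (r := r) (s := s) (j := k + 2 * m) (by omega) with hO2 | hE2
    · refine fcS h4 h4 fun h9 h10 => ?_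
      rw [hd_ng, val_C (Nat.mod_lt _ (by omega)) h7]
      exact fun hc => absurd hc
        (F.faceD r h1 s h2 h3 k h4 hO m h5 hO2 _ (small_spec h6) h10 j h7 h9)
    · exact hd_right (hd_cons.2 (Or.inr (hd_left hE2)))
  · exact hd_right (hd_cons.2 (Or.inr (hd_right hE)))

theorem h_faceE (h8 : G.R ≤ 8) (F : TF G S) {r s k m A B j : ℕ}
    (h : (CL.faceE r s k m A B j).ok G = true) : Hd (val S) ((CL.faceE r s k m A B j).cl G) := by
  simp only [CL.ok, Bool.and_eq_true, lt_iff, aj_iff, o5_iff] at h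
  obtain ⟨⟨⟨⟨⟨h1, h2, h3⟩, h4⟩, h5⟩, h6⟩, h7⟩ := h
  rw [CL.cl]
  rcases off_or (S := S) (r := r) (s := s) (j := k) (by omega) with hO | hE
  · rcases off_or (S := S) (r := r) (s := s) (j := k + 2 * m) (by omega) with hO2 | hE2
    · refine fcS h4 (Nat.mod_lt _ (by omega)) fun h9 h10 => ?_
      rw [hd_ng, val_C h4 h7]
      exact fun hc => absurd hc
        (F.faceE r h1 s h2 h3 k h4 hO m h5 hO2 _ (small_spec h6) h10 j h7 h9)
    · exact hd_right (hd_cons.2 (Or.inr (hd_left hE2)))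
  · exact hd_right (hd_cons.2 (Or.inr (hd_right hE)))

theorem h_hubA (F : TF G S) {r k s i q j : ℕ} (h : (CL.hubA r k s i q j).ok G = true) :
    Hd (val S) ((CL.hubA r k s i q j).cl G) := by
  simp only [CL.ok, Bool.and_eq_true, Bool.or_eq_true, Bool.not_eq_true', lt_iff, beq_iff,
    beq_ff, o5_iff, iq_iff, yk_iff, inl_iff] at h
  obtain ⟨⟨⟨⟨⟨⟨h1, h2⟩, h3⟩, h4, h5, h6⟩, h7⟩, h8⟩, h9⟩ := h
  rw [CL.cl]
  refine selS h2 fun h' => ?_
  rw [hd_ng, hd_nil, val_C (Nat.mod_lt _ (by omega)) h7]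
  refine F.hubA r h1 k h2 s h3 i h4 q h5 h6 j h7 (fun m hm hc => ?_) h8 h9
  have := h' m hm hc
  simpa only [Bool.not_eq_false', Bool.or_eq_true, beq_iff, or_assoc] using this

theorem h_hubB (h8 : G.R ≤ 8) (F : TF G S) {r s k i q j : ℕ}
    (h : (CL.hubB r s k i q j).ok G = true) : Hd (val S) ((CL.hubB r s k i q j).cl G) := by
  simp only [CL.ok, Bool.and_eq_true, lt_iff, aj_iff, iq_iff, Bool.not_eq_true', beq_ff] at h
  obtain ⟨⟨⟨⟨⟨⟨h1, h2, h3⟩, h4⟩, h5, h6, h7⟩, h9⟩, h10⟩, h11⟩ := h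
  rw [CL.cl]
  rcases off_or (S := S) (r := r) (s := s) (j := k) (by omega) with hO | hE
  · refine selS h4 fun h' => ?_
    rw [hd_ng, val_C h4 h9]
    intro hc
    refine absurd hc (F.hubB r h1 s h2 h3 k h4 hO i h5 q h6 h7 j h9 (fun m hm hc => ?_) h10 h11)
    have := h' m hm hc
    simpa only [Bool.not_eq_false', Bool.or_eq_true, beq_iff, or_assoc] using this
  · exact hd_right (hd_cons.2 (Or.inr hE))

theorem prt_lt : ∀ w < 16, ∀ j < 4, prt w j < 6 := by decide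

theorem pc_lt (hG : Good G) {r w j : ℕ} (hr : r < G.R) (hw : w < 16) (hj : j < 4) :
    pc G r w j < 6 := hG r hr _ (prt_lt w hw j hj)

theorem inD_iff' {r w i : ℕ} : inD G r w i = true ↔
    i = pc G r w 0 ∨ i = pc G r w 1 ∨ i = pc G r w 2 ∨ i = pc G r w 3 := by
  unfold inD
  simp only [Bool.or_eq_true, beq_iff, or_assoc]

theorem h_insubA (hG : Good G) (F : TF G S) {r k s w x : ℕ}
    (h : (CL.insubA r k s w x).ok G = true) : Hd (val S) ((CL.insubA r k s w x).cl G) := by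
  simp only [CL.ok, Bool.and_eq_true, Bool.or_eq_true, Bool.not_eq_true', lt_iff, beq_iff,
    beq_ff, o5_iff, iq_iff, yk_iff, inl_iff] at h
  obtain ⟨⟨⟨h1, h2⟩, h3⟩, h4⟩ := h
  have hk : (k + s) % 6 < 6 := Nat.mod_lt _ (by omega)
  rw [CL.cl, hd_ng, val_D hk h4]
  intro hD
  refine selS h2 fun h' => isb_ok ?_
  rw [val_C h2 (pc_lt hG h1 h4 (by omega)), val_C h2 (pc_lt hG h1 h4 (by omega)),
    val_C h2 (pc_lt hG h1 h4 (by omega)), val_C h2 (pc_lt hG h1 h4 (by omega))]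
  refine F.insubA r h1 k h2 s h3 w h4 hD fun i hi hc => ?_
  have := h' i hi hc
  rw [Bool.not_eq_false', inD_iff'] at this
  exact (F.dC r h1 _ hk w h4 hD i hi).2 this

theorem h_insubB (h8 : G.R ≤ 8) (hG : Good G) (F : TF G S) {r s k w x : ℕ}
    (h : (CL.insubB r s k w x).ok G = true) : Hd (val S) ((CL.insubB r s k w x).cl G) := by
  simp only [CL.ok, Bool.and_eq_true, lt_iff, aj_iff] at h
  obtain ⟨⟨⟨h1, h2, h3⟩, h4⟩, h5⟩ := h
  rw [CL.cl, hd_ng, val_D h4 h5]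
  intro hD
  rcases off_or (S := S) (r := r) (s := s) (j := k) (by omega) with hO | hE
  · refine selS h4 fun h' => hd_left (isb_ok ?_)
    rw [val_C h4 (pc_lt hG h2 h5 (by omega)), val_C h4 (pc_lt hG h2 h5 (by omega)),
      val_C h4 (pc_lt hG h2 h5 (by omega)), val_C h4 (pc_lt hG h2 h5 (by omega))]
    refine F.insubB r h1 s h2 h3 k h4 hO w h5 hD fun i hi hc => ?_
    have := h' i hi hc
    rw [Bool.not_eq_false', inD_iff'] at this
    exact (F.dC s h2 _ h4 w h5 hD i hi).2 this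
  · exact hd_right (hd_right hE)

theorem h_two (h8 : G.R ≤ 8) (F : TF G S) {r s k i j m u v : ℕ}
    (h : (CL.two r s k i j m u v).ok G = true) : Hd (val S) ((CL.two r s k i j m u v).cl G) := by
  simp only [CL.ok, Bool.and_eq_true, Bool.or_eq_true, Bool.not_eq_true', lt_iff, beq_iff,
    beq_ff, o5_iff, iq_iff, yk_iff, inl_iff] at h
  obtain ⟨⟨⟨⟨⟨⟨⟨⟨⟨⟨⟨⟨⟨⟨h1, h2⟩, h3⟩, h4⟩, h5⟩, h6⟩, h7⟩, h9⟩, h10⟩, h11⟩, h12⟩, h13⟩, h14⟩, h15⟩,
    h16⟩ := h
  rw [CL.cl]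
  rcases off_or (S := S) (r := r) (s := s) (j := k) (by omega) with hO | hE
  · refine hd_left ?_
    simp (disch := omega) only [hd_ng, hd_nil, val_C]
    exact F.two r h1 s h2 h3 k h4 hO i j m u v h5 h6 h7 h9 h10 h11 h12 h13 h14 h15 h16
  · exact hd_right hE

end CL

end Vale.Agent.P032.R2.H741.Tp
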