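import Vale.Agent.P032.R2.H741.TpH0

/-!
# P032: soundness of the clauses, directions
-/

set_option autoImplicit false
set_option linter.unusedSimpArgs false

namespace Vale.Agent.P032.R2.H741.Tp

open Vale.Agent.P032.R2.H805.Rup (Lit)

variable {G : RD} {S : Sem}

namespace CL

theorem h_n0L (hG : Good G) (F : TF G S) {r j k : ℕ} (h : (CL.n0L r j k).ok G = true) :
    Hd (val S) ((CL.n0L r j k).cl G) := by
  simp only [CL.ok, Bool.and_eq_true, Bool.or_eq_true, Bool.not_eq_true', lt_iff, beq_iff,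
    beq_ff, o5_iff, iq_iff, yk_iff, inl_iff] at h
  obtain ⟨⟨h1, h2⟩, h3⟩ := h
  rw [CL.cl]
  simp (disch := first | omega | exact hG.lt (by omega) (by omega)) only [hd_ng, hd_ps, hd_nil,
      val_X, val_C, val_Q, val_H, val_D, val_n, val_M, val_g, val_I, val_J, val_N, val_E, val_ct,
      val_dn, val_F, val_P, val_U, val_V, val_ty, val_ti]
  exact fun a b => b (F.n0L r h1 j h2 k h3 a)

theorem h_n0R (hG : Good G) (F : TF G S) {r j k : ℕ} (h : (CL.n0R r j k).ok G = true) :
    Hd (val S) ((CL.n0R r j k).cl G) := by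
  simp only [CL.ok, Bool.and_eq_true, Bool.or_eq_true, Bool.not_eq_true', lt_iff, beq_iff,
    beq_ff, o5_iff, iq_iff, yk_iff, inl_iff] at h
  obtain ⟨⟨h1, h2⟩, h3⟩ := h
  rw [CL.cl]
  simp (disch := first | omega | exact hG.lt (by omega) (by omega)) only [hd_ng, hd_ps, hd_nil,
      val_X, val_C, val_Q, val_H, val_D, val_n, val_M, val_g, val_I, val_J, val_N, val_E, val_ct,
      val_dn, val_F, val_P, val_U, val_V, val_ty, val_ti]
  exact fun a b => b (F.n0R r h1 j h2 k h3 a)

theorem h_opp (hG : Good G) (F : TF G S) {r j x : ℕ} (h : (CL.opp r j x).ok G = true) :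
    Hd (val S) ((CL.opp r j x).cl G) := by
  simp only [CL.ok, Bool.and_eq_true, Bool.or_eq_true, Bool.not_eq_true', lt_iff, beq_iff,
    beq_ff, o5_iff, iq_iff, yk_iff, inl_iff] at h
  obtain ⟨⟨h1, h2⟩, h3⟩ := h
  rw [CL.cl]
  simp (disch := first | omega | exact hG.lt (by omega) (by omega)) only [hd_ng, hd_ps, hd_nil,
      val_X, val_C, val_Q, val_H, val_D, val_n, val_M, val_g, val_I, val_J, val_N, val_E, val_ct,
      val_dn, val_F, val_P, val_U, val_V, val_ty, val_ti]
  exact fun a b => F.opp r h1 j h2 x h3 ⟨a, b⟩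

theorem h_conv (hG : Good G) (F : TF G S) {r j x y w : ℕ} (h : (CL.conv r j x y w).ok G = true) :
    Hd (val S) ((CL.conv r j x y w).cl G) := by
  simp only [CL.ok, Bool.and_eq_true, Bool.or_eq_true, Bool.not_eq_true', lt_iff, beq_iff,
    beq_ff, o5_iff, iq_iff, yk_iff, inl_iff] at h
  obtain ⟨⟨⟨⟨⟨h1, h2⟩, h3⟩, h4⟩, h5⟩, h6⟩ := h
  rw [CL.cl]
  simp (disch := first | omega | exact hG.lt (by omega) (by omega)) only [hd_ng, hd_ps, hd_nil,
      val_X, val_C, val_Q, val_H, val_D, val_n, val_M, val_g, val_I, val_J, val_N, val_E, val_ct,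
      val_dn, val_F, val_P, val_U, val_V, val_ty, val_ti]
  exact fun a b c => c (F.conv r h1 j h2 x h3 y w h4 h5 h6 a b)

theorem h_convM (hG : Good G) (F : TF G S) {r j k y w : ℕ} (h : (CL.convM r j k y w).ok G = true) :
    Hd (val S) ((CL.convM r j k y w).cl G) := by
  simp only [CL.ok, Bool.and_eq_true, Bool.or_eq_true, Bool.not_eq_true', lt_iff, beq_iff,
    beq_ff, o5_iff, iq_iff, yk_iff, inl_iff] at h
  obtain ⟨⟨⟨⟨⟨h1, h2⟩, h3⟩, h4⟩, h5⟩, h6⟩ := h
  rw [CL.cl]
  simp (disch := first | omega | exact hG.lt (by omega) (by omega)) only [hd_ng, hd_ps, hd_nil,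
      val_X, val_C, val_Q, val_H, val_D, val_n, val_M, val_g, val_I, val_J, val_N, val_E, val_ct,
      val_dn, val_F, val_P, val_U, val_V, val_ty, val_ti]
  exact fun a b c => c (F.convM r h1 j h2 k h3 y w (by omega) h5 h6 a b)

theorem h_convM2 (hG : Good G) (F : TF G S) {r j k y w : ℕ}
    (h : (CL.convM2 r j k y w).ok G = true) : Hd (val S) ((CL.convM2 r j k y w).cl G) := by
  simp only [CL.ok, Bool.and_eq_true, Bool.or_eq_true, Bool.not_eq_true', lt_iff, beq_iff,
    beq_ff, o5_iff, iq_iff, yk_iff, inl_iff] at h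
  obtain ⟨⟨⟨⟨⟨h1, h2⟩, h3⟩, h4⟩, h5⟩, h6⟩ := h
  rw [CL.cl]
  simp (disch := first | omega | exact hG.lt (by omega) (by omega)) only [hd_ng, hd_ps, hd_nil,
      val_X, val_C, val_Q, val_H, val_D, val_n, val_M, val_g, val_I, val_J, val_N, val_E, val_ct,
      val_dn, val_F, val_P, val_U, val_V, val_ty, val_ti]
  exact fun a b c => c (F.convM2 r h1 j h2 k h3 y w (by omega) h5 h6 a b)

theorem h_M (hG : Good G) (F : TF G S) {r j k x : ℕ}
    (h : (CL.M r j k x).ok G = true) : Hd (val S) ((CL.M r j k x).cl G) := by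
  simp only [CL.ok, Bool.and_eq_true, Bool.or_eq_true, Bool.not_eq_true', lt_iff, beq_iff,
    beq_ff, o5_iff, iq_iff, yk_iff, inl_iff] at h
  obtain ⟨⟨h1, h2⟩, h3⟩ := h
  have f := F.M r h1 j h2 k h3
  delta CL.cl
  dsimp only
  split
  · simp (disch := first | omega | exact hG.lt (by omega) (by omega)) only [hd_ng, hd_ps, hd_nil,
      val_X, val_C, val_Q, val_H, val_D, val_n, val_M, val_g, val_I, val_J, val_N, val_E, val_ct,
      val_dn, val_F, val_P, val_U, val_V, val_ty, val_ti]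
    tauto
  · simp (disch := first | omega | exact hG.lt (by omega) (by omega)) only [hd_ng, hd_ps, hd_nil,
      val_X, val_C, val_Q, val_H, val_D, val_n, val_M, val_g, val_I, val_J, val_N, val_E, val_ct,
      val_dn, val_F, val_P, val_U, val_V, val_ty, val_ti]
    tauto
  · simp (disch := first | omega | exact hG.lt (by omega) (by omega)) only [hd_ng, hd_ps, hd_nil,
      val_X, val_C, val_Q, val_H, val_D, val_n, val_M, val_g, val_I, val_J, val_N, val_E, val_ct,
      val_dn, val_F, val_P, val_U, val_V, val_ty, val_ti]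
    tauto

theorem h_mix (hG : Good G) (F : TF G S) {r i q k : ℕ} (h : (CL.mix r i q k).ok G = true) :
    Hd (val S) ((CL.mix r i q k).cl G) := by
  simp only [CL.ok, Bool.and_eq_true, Bool.or_eq_true, Bool.not_eq_true', lt_iff, beq_iff,
    beq_ff, o5_iff, iq_iff, yk_iff, inl_iff] at h
  obtain ⟨⟨h1, h2, h3, h4⟩, h5⟩ := h
  rw [CL.cl]
  simp (disch := first | omega | exact hG.lt (by omega) (by omega)) only [hd_ng, hd_ps, hd_nil,
      val_X, val_C, val_Q, val_H, val_D, val_n, val_M, val_g, val_I, val_J, val_N, val_E, val_ct,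
      val_dn, val_F, val_P, val_U, val_V, val_ty, val_ti]
  exact fun a b => F.mix r h1 i h2 q h3 h4 k h5 a b

theorem h_line1 (hG : Good G) (F : TF G S) {r i q k m : ℕ} (h : (CL.line1 r i q k m).ok G = true) :
    Hd (val S) ((CL.line1 r i q k m).cl G) := by
  simp only [CL.ok, Bool.and_eq_true, Bool.or_eq_true, Bool.not_eq_true', lt_iff, beq_iff,
    beq_ff, o5_iff, iq_iff, yk_iff, inl_iff] at h
  obtain ⟨⟨⟨⟨h1, h2, h3, h4⟩, h5⟩, h6⟩, h7⟩ := h
  rw [CL.cl]
  simp (disch := first | omega | exact hG.lt (by omega) (by omega)) only [hd_ng, hd_ps, hd_nil,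
      val_X, val_C, val_Q, val_H, val_D, val_n, val_M, val_g, val_I, val_J, val_N, val_E, val_ct,
      val_dn, val_F, val_P, val_U, val_V, val_ty, val_ti]
  exact fun a b c d => F.line1 r h1 i h2 q h3 h4 k h5 m h6 h7 a b c d

theorem h_rkind (hG : Good G) (F : TF G S) {r i q k w : ℕ}
    (h : (CL.rkind r i q k w).ok G = true) : Hd (val S) ((CL.rkind r i q k w).cl G) := by
  simp only [CL.ok, Bool.and_eq_true, Bool.or_eq_true, Bool.not_eq_true', lt_iff, beq_iff,
    beq_ff, o5_iff, iq_iff, yk_iff, inl_iff] at h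
  obtain ⟨⟨h1, h2, h3, h4⟩, h5⟩ := h
  have hw : rq i q < 16 := by unfold rq; omega
  rw [CL.cl, hd_ng, val_D h5 hw]
  intro a
  apply hd_four
  rw [val_n (hG r h1 _ (by omega)) (by omega), val_n (hG r h1 _ (by omega)) (by omega),
    val_n (hG r h1 _ (by omega)) (by omega), val_n (hG r h1 _ (by omega)) (by omega)]
  exact F.rkind r h1 i h2 q h3 h4 k h5 a

theorem h_mkind (hG : Good G) (F : TF G S) {r i q k x y : ℕ}
    (h : (CL.mkind r i q k x y).ok G = true) : Hd (val S) ((CL.mkind r i q k x y).cl G) := by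
  simp only [CL.ok, Bool.and_eq_true, Bool.or_eq_true, Bool.not_eq_true', lt_iff, beq_iff,
    beq_ff, o5_iff, iq_iff, yk_iff, inl_iff] at h
  obtain ⟨⟨h1, h2, h3, h4⟩, h5⟩ := h
  have hw1 : rq i q + 1 < 16 := by unfold rq; omega
  have hw2 : rq i q + 2 < 16 := by unfold rq; omega
  have e1 : rq i q + 1 = 5 + 3 * (2 * i + (q - 2)) := by unfold rq; omega
  have e2 : rq i q + 2 = 6 + 3 * (2 * i + (q - 2)) := by unfold rq; omega
  have f := F.mkind r h1 i h2 q h3 h4 k h5
  rw [← e1, ← e2] at f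
  delta CL.cl
  dsimp only
  by_cases hc : S.D r k (rq i q + 1) ∨ S.D r k (rq i q + 2) ∨
      (S.H r k ∧ S.C r k (G.sg r i) ∧ S.C r k (G.sg r q))
  · refine hd_right ?_
    have f' := f hc
    split
    · simp (disch := first | omega | exact hG.lt (by omega) (by omega)) only [hd_ng, hd_ps, hd_nil,
      val_X, val_C, val_Q, val_H, val_D, val_n, val_M, val_g, val_I, val_J, val_N, val_E, val_ct,
      val_dn, val_F, val_P, val_U, val_V, val_ty, val_ti]
      exact fun a b => f'.1 ⟨a, b⟩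
    · simp (disch := first | omega | exact hG.lt (by omega) (by omega)) only [hd_ng, hd_ps, hd_nil,
      val_X, val_C, val_Q, val_H, val_D, val_n, val_M, val_g, val_I, val_J, val_N, val_E, val_ct,
      val_dn, val_F, val_P, val_U, val_V, val_ty, val_ti]
      exact fun a b => f'.2 ⟨a, b⟩
  · refine hd_left ?_
    split
    · simp (disch := first | omega | exact hG.lt (by omega) (by omega)) only [hd_ng, hd_ps, hd_nil,
      val_X, val_C, val_Q, val_H, val_D, val_n, val_M, val_g, val_I, val_J, val_N, val_E, val_ct,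
      val_dn, val_F, val_P, val_U, val_V, val_ty, val_ti]
      tauto
    · simp (disch := first | omega | exact hG.lt (by omega) (by omega)) only [hd_ng, hd_ps, hd_nil,
      val_X, val_C, val_Q, val_H, val_D, val_n, val_M, val_g, val_I, val_J, val_N, val_E, val_ct,
      val_dn, val_F, val_P, val_U, val_V, val_ty, val_ti]
      tauto
    · simp (disch := first | omega | exact hG.lt (by omega) (by omega)) only [hd_ng, hd_ps, hd_nil,
      val_X, val_C, val_Q, val_H, val_D, val_n, val_M, val_g, val_I, val_J, val_N, val_E, val_ct,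
      val_dn, val_F, val_P, val_U, val_V, val_ty, val_ti]
      tauto

theorem h_lab1 (hG : Good G) (F : TF G S) {r j k : ℕ} (h : (CL.lab1 r j k).ok G = true) :
    Hd (val S) ((CL.lab1 r j k).cl G) := by
  simp only [CL.ok, Bool.and_eq_true, Bool.or_eq_true, Bool.not_eq_true', lt_iff, beq_iff,
    beq_ff, o5_iff, iq_iff, yk_iff, inl_iff] at h
  obtain ⟨⟨h1, h2⟩, h3⟩ := h
  rw [CL.cl]
  simp (disch := first | omega | exact hG.lt (by omega) (by omega)) only [hd_ng, hd_ps, hd_nil,
      val_X, val_C, val_Q, val_H, val_D, val_n, val_M, val_g, val_I, val_J, val_N, val_E, val_ct,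
      val_dn, val_F, val_P, val_U, val_V, val_ty, val_ti]
  intro a b c
  rcases F.lab1 r h1 j h2 k h3 a with f | f
  · exact b f
  · exact c f

theorem h_pairlab (hG : Good G) (F : TF G S) {r k p w : ℕ}
    (h : (CL.pairlab r k p w).ok G = true) : Hd (val S) ((CL.pairlab r k p w).cl G) := by
  simp only [CL.ok, Bool.and_eq_true, Bool.or_eq_true, Bool.not_eq_true', lt_iff, beq_iff,
    beq_ff, o5_iff, iq_iff, yk_iff, inl_iff] at h
  obtain ⟨⟨h1, h2⟩, h3⟩ := h
  rw [CL.cl, hd_ng, hd_ng, val_C h2 (hG r h1 _ (by omega)), val_C h2 (hG r h1 _ (by omega))]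
  intro a b
  apply hd_four
  rw [val_n (hG r h1 _ (by omega)) (by omega), val_n (hG r h1 _ (by omega)) (by omega),
    val_n (hG r h1 _ (by omega)) (by omega), val_n (hG r h1 _ (by omega)) (by omega)]
  exact F.pairlab r h1 k h2 p h3 a b

theorem h_letlab (hG : Good G) (F : TF G S) {r k p w : ℕ}
    (h : (CL.letlab r k p w).ok G = true) : Hd (val S) ((CL.letlab r k p w).cl G) := by
  simp only [CL.ok, Bool.and_eq_true, Bool.or_eq_true, Bool.not_eq_true', lt_iff, beq_iff,
    beq_ff, o5_iff, iq_iff, yk_iff, inl_iff] at h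
  obtain ⟨⟨h1, h2⟩, h3⟩ := h
  rw [CL.cl, hd_ng, val_X (by omega) h2 (by omega)]
  intro a
  apply hd_four
  rw [val_n (hG r h1 _ (by omega)) (by omega), val_n (hG r h1 _ (by omega)) (by omega),
    val_n (hG r h1 _ (by omega)) (by omega), val_n (hG r h1 _ (by omega)) (by omega)]
  exact F.letlab r h1 k h2 p h3 a

theorem h_gline (hG : Good G) (F : TF G S) {r i q k : ℕ} (h : (CL.gline r i q k).ok G = true) :
    Hd (val S) ((CL.gline r i q k).cl G) := by
  simp only [CL.ok, Bool.and_eq_true, Bool.or_eq_true, Bool.not_eq_true', lt_iff, beq_iff,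
    beq_ff, o5_iff, iq_iff, yk_iff, inl_iff] at h
  obtain ⟨⟨h1, h2, h3, h4⟩, h5⟩ := h
  rw [CL.cl]
  simp (disch := first | omega | exact hG.lt (by omega) (by omega)) only [hd_ng, hd_ps, hd_nil,
      val_X, val_C, val_Q, val_H, val_D, val_n, val_M, val_g, val_I, val_J, val_N, val_E, val_ct,
      val_dn, val_F, val_P, val_U, val_V, val_ty, val_ti]
  exact fun a b c => F.gline r h1 i h2 q h3 h4 k h5 a b c

theorem h_gset (hG : Good G) (F : TF G S) {r i q k : ℕ} (h : (CL.gset r i q k).ok G = true) :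
    Hd (val S) ((CL.gset r i q k).cl G) := by
  simp only [CL.ok, Bool.and_eq_true, Bool.or_eq_true, Bool.not_eq_true', lt_iff, beq_iff,
    beq_ff, o5_iff, iq_iff, yk_iff, inl_iff] at h
  obtain ⟨⟨h1, h2, h3, h4⟩, h5⟩ := h
  rw [CL.cl]
  simp (disch := first | omega | exact hG.lt (by omega) (by omega)) only [hd_ng, hd_ps, hd_nil,
      val_X, val_C, val_Q, val_H, val_D, val_n, val_M, val_g, val_I, val_J, val_N, val_E, val_ct,
      val_dn, val_F, val_P, val_U, val_V, val_ty, val_ti]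
  exact fun a b c => c (F.gset r h1 i h2 q h3 h4 k h5 a b)

theorem h_gmono (F : TF G S) {r j : ℕ} (h : (CL.gmono r j).ok G = true) :
    Hd (val S) ((CL.gmono r j).cl G) := by
  simp only [CL.ok, Bool.and_eq_true, Bool.or_eq_true, Bool.not_eq_true', lt_iff, beq_iff,
    beq_ff, o5_iff, iq_iff, yk_iff, inl_iff] at h
  obtain ⟨h1, h2⟩ := h
  rw [CL.cl]
  simp (disch := omega) only [hd_ng, hd_ps, hd_nil, val_g]
  exact fun a b => b (F.gmono r h1 j h2 a)

end CL

end Vale.Agent.P032.R2.H741.Tp
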