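import Vale.Agent.P032.R2.H741.TpH0

/-!
# P032: soundness of the clauses, numbers of points
-/

set_option autoImplicit false
set_option linter.unusedSimpArgs false

namespace Vale.Agent.P032.R2.H741.Tp

open Vale.Agent.P032.R2.H805.Rup (Lit)

variable {G : RD} {S : Sem}

namespace CL

theorem h_E1 (F : TF G S) {r a k i : ℕ} (h : (CL.E1 r a k i).ok G = true) :
    Hd (val S) ((CL.E1 r a k i).cl G) := by
  simp only [CL.ok, Bool.and_eq_true, Bool.or_eq_true, Bool.not_eq_true', lt_iff, beq_iff,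
    beq_ff, o5_iff, iq_iff, yk_iff, inl_iff] at h
  obtain ⟨⟨⟨h1, h2⟩, h3⟩, h4⟩ := h
  rw [CL.cl, hd_ng, hd_pick, val_E h2 h3, val_C h3 h4, inl_iff, F.E r h1 a h2 k h3]
  exact fun e => (e.1 i h4).symm

theorem h_E2 (F : TF G S) {r a k : ℕ} (h : (CL.E2 r a k).ok G = true) :
    Hd (val S) ((CL.E2 r a k).cl G) := by
  simp only [CL.ok, Bool.and_eq_true, Bool.or_eq_true, Bool.not_eq_true', lt_iff, beq_iff,
    beq_ff, o5_iff, iq_iff, yk_iff, inl_iff] at h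
  obtain ⟨⟨h1, h2⟩, h3⟩ := h
  have f := F.E r h1 a h2 k h3
  rw [CL.cl]
  by_cases hT : IsT G S r k a
  · refine hd_right ?_
    rw [hd_ps, val_E h2 h3]
    intro he
    unfold gd
    split_ifs with h4
    · simp (disch := omega) only [hd_ng, hd_nil, val_P]
      exact fun p q => he (f.2 ⟨hT, fun _ => ⟨p, q⟩⟩)
    · exact absurd (f.2 ⟨hT, fun h5 => absurd h5 h4⟩) he
  · exact hd_left ((hd_nis h3).2 hT)

theorem h_E3 (F : TF G S) {r a k x : ℕ} (h : (CL.E3 r a k x).ok G = true) :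
    Hd (val S) ((CL.E3 r a k x).cl G) := by
  simp only [CL.ok, Bool.and_eq_true, Bool.or_eq_true, Bool.not_eq_true', lt_iff, beq_iff,
    beq_ff, o5_iff, iq_iff, yk_iff, inl_iff] at h
  obtain ⟨⟨⟨h1, h2⟩, h3⟩, h4⟩ := h
  have f := F.E r h1 a h2 k h3
  delta CL.cl
  dsimp only
  split
  · simp (disch := omega) only [hd_ng, hd_ps, hd_nil, val_P, val_E]
    exact fun p q => q ((f.1 p).2 h4).1
  · simp (disch := omega) only [hd_ng, hd_ps, hd_nil, val_P, val_E]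
    exact fun p q => q ((f.1 p).2 h4).2

theorem h_absent (F : TF G S) {r a k : ℕ} (h : (CL.absent r a k).ok G = true) :
    Hd (val S) ((CL.absent r a k).cl G) := by
  simp only [CL.ok, Bool.and_eq_true, Bool.or_eq_true, Bool.not_eq_true', lt_iff, beq_iff,
    beq_ff, o5_iff, iq_iff, yk_iff, inl_iff] at h
  obtain ⟨⟨⟨h1, h2⟩, h3⟩, h4⟩ := h
  rw [CL.cl, hd_nis h4]
  exact F.absent r h1 a h2 h3 k h4

theorem h_pres (F : TF G S) {r a k : ℕ} (h : (CL.pres r a k).ok G = true) :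
    Hd (val S) ((CL.pres r a k).cl G) := by
  simp only [CL.ok, Bool.and_eq_true, Bool.or_eq_true, Bool.not_eq_true', lt_iff, beq_iff,
    beq_ff, o5_iff, iq_iff, yk_iff, inl_iff] at h
  obtain ⟨⟨⟨h1, h2⟩, h3⟩, h4⟩ := h
  rw [CL.cl, hd_append, hd_nis h3, hd_ps, hd_nil, val_P h2]
  have f := F.pres r h1 a h2 h4 k h3
  tauto

theorem h_c1 (F : TF G S) {b r a k : ℕ} (h : (CL.c1 b r a k).ok G = true) :
    Hd (val S) ((CL.c1 b r a k).cl G) := by
  simp only [CL.ok, Bool.and_eq_true, Bool.or_eq_true, Bool.not_eq_true', lt_iff, beq_iff,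
    beq_ff, o5_iff, iq_iff, yk_iff, inl_iff] at h
  obtain ⟨⟨⟨h1, h2⟩, h3⟩, h4⟩ := h
  obtain ⟨c0, f0, f1, -⟩ := F.cnt r h1 a h2 (by omega)
  rw [CL.cl, hd_append, hd_lst F h1 h2 h3, hd_ps, hd_nil, val_N (by omega) h2 (by omega),
    f1 0 (by omega)]
  by_cases he : S.E r a k
  · have := pos_one h3 he
    exact Or.inr fun h5 => h5 (by omega)
  · exact Or.inl he

theorem h_c2 (F : TF G S) {b r a k : ℕ} (h : (CL.c2 b r a k).ok G = true) :
    Hd (val S) ((CL.c2 b r a k).cl G) := by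
  simp only [CL.ok, Bool.and_eq_true, Bool.or_eq_true, Bool.not_eq_true', lt_iff, beq_iff,
    beq_ff, o5_iff, iq_iff, yk_iff, inl_iff] at h
  obtain ⟨⟨⟨h1, h2⟩, h3⟩, h4⟩ := h
  obtain ⟨c0, f0, f1, -⟩ := F.cnt r h1 a h2 (by omega)
  rw [CL.cl, hd_append, hd_lst F h1 h2 h3, hd_ng, hd_ps, hd_nil,
    val_N (by omega) h2 (by omega), val_N (by omega) h2 (by omega),
    f0 0 (by omega), f1 1 (by omega)]
  by_cases he : S.E r a k
  · have := pos_one h3 he
    exact Or.inr fun h5 h6 => h6 (by omega)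
  · exact Or.inl he

theorem h_c3 (F : TF G S) {b r a k m : ℕ} (h : (CL.c3 b r a k m).ok G = true) :
    Hd (val S) ((CL.c3 b r a k m).cl G) := by
  simp only [CL.ok, Bool.and_eq_true, Bool.or_eq_true, Bool.not_eq_true', lt_iff, beq_iff,
    beq_ff, o5_iff, iq_iff, yk_iff, inl_iff] at h
  obtain ⟨⟨⟨⟨⟨h1, h2⟩, h3⟩, h4⟩, h5⟩, h6⟩ := h
  obtain ⟨c0, f0, f1, -⟩ := F.cnt r h1 a h2 (by omega)
  rw [CL.cl, hd_append, hd_append, hd_lst F h1 h2 h3, hd_lst F h1 h2 h4, hd_ps, hd_nil,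
    val_N (by omega) h2 (by omega), f1 1 (by omega)]
  by_cases he : S.E r a k
  · by_cases he' : S.E r a m
    · have := pos_two h3 h4 h5 he he'
      exact Or.inr (Or.inr fun h5 => h5 (by omega))
    · exact Or.inr (Or.inl he')
  · exact Or.inl he

theorem h_c4 (F : TF G S) {b r a k : ℕ} (h : (CL.c4 b r a k).ok G = true) :
    Hd (val S) ((CL.c4 b r a k).cl G) := by
  simp only [CL.ok, Bool.and_eq_true, Bool.or_eq_true, Bool.not_eq_true', lt_iff, beq_iff,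
    beq_ff, o5_iff, iq_iff, yk_iff, inl_iff] at h
  obtain ⟨⟨⟨h1, h2⟩, h3⟩, h4⟩ := h
  obtain ⟨c0, f0, f1, f2, -⟩ := F.cnt r h1 a h2 (by omega)
  rw [CL.cl, hd_append, hd_lst F h1 h2 h3, hd_ng, hd_nil, val_N (by omega) h2 (by omega),
    f0 0 (by omega)]
  by_cases he : S.E r a k
  · have := pos_one h3 he
    have := f2 h4
    exact Or.inr fun h5 => by omega
  · exact Or.inl he

theorem h_c5 (F : TF G S) {b r a k m : ℕ} (h : (CL.c5 b r a k m).ok G = true) :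
    Hd (val S) ((CL.c5 b r a k m).cl G) := by
  simp only [CL.ok, Bool.and_eq_true, Bool.or_eq_true, Bool.not_eq_true', lt_iff, beq_iff,
    beq_ff, o5_iff, iq_iff, yk_iff, inl_iff] at h
  obtain ⟨⟨⟨⟨⟨h1, h2⟩, h3⟩, h4⟩, h5⟩, h6⟩ := h
  obtain ⟨c0, f0, f1, f2, -⟩ := F.cnt r h1 a h2 (by omega)
  rw [CL.cl, hd_append, hd_lst F h1 h2 h3, hd_lst F h1 h2 h4]
  by_cases he : S.E r a k
  · by_cases he' : S.E r a m
    · have := pos_two h3 h4 h5 he he'
      have := f2 h6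
      omega
    · exact Or.inr he'
  · exact Or.inl he

/-- at most two points -/
theorem cnt_two (F : TF G S) {r a : ℕ} (h1 : r < G.R) (h2 : a < 4)
    (h3 : G.md r a = 3 ∨ G.md r a = 4) : ∃ c0 : ℕ, (∀ j < 2, S.N 0 r a j ↔ j < c0) ∧
    c0 + {k : ℕ | k < 6 ∧ S.E r a k}.ncard ≤ 2 := by
  obtain ⟨c0, f0, f1, f2, f3, f4⟩ := F.cnt r h1 a h2 (by omega)
  refine ⟨c0, f0, ?_⟩
  rcases h3 with h3 | h3
  · exact f3 h3
  · exact f4 h3

theorem h_c6 (F : TF G S) {b r a k : ℕ} (h : (CL.c6 b r a k).ok G = true) :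
    Hd (val S) ((CL.c6 b r a k).cl G) := by
  simp only [CL.ok, Bool.and_eq_true, Bool.or_eq_true, Bool.not_eq_true', lt_iff, beq_iff,
    beq_ff, o5_iff, iq_iff, yk_iff, inl_iff] at h
  obtain ⟨⟨⟨h1, h2⟩, h3⟩, h4⟩ := h
  obtain ⟨c0, f0, f2⟩ := cnt_two F h1 h2 h4
  rw [CL.cl, hd_append, hd_lst F h1 h2 h3, hd_ng, hd_nil, val_N (by omega) h2 (by omega),
    f0 1 (by omega)]
  by_cases he : S.E r a k
  · have := pos_one h3 he
    exact Or.inr fun h5 => by omega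
  · exact Or.inl he

theorem h_c7 (F : TF G S) {b r a k m : ℕ} (h : (CL.c7 b r a k m).ok G = true) :
    Hd (val S) ((CL.c7 b r a k m).cl G) := by
  simp only [CL.ok, Bool.and_eq_true, Bool.or_eq_true, Bool.not_eq_true', lt_iff, beq_iff,
    beq_ff, o5_iff, iq_iff, yk_iff, inl_iff] at h
  obtain ⟨⟨⟨⟨⟨h1, h2⟩, h3⟩, h4⟩, h5⟩, h6⟩ := h
  obtain ⟨c0, f0, f2⟩ := cnt_two F h1 h2 h6
  rw [CL.cl, hd_append, hd_append, hd_lst F h1 h2 h3, hd_lst F h1 h2 h4, hd_ng, hd_nil,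
    val_N (by omega) h2 (by omega), f0 0 (by omega)]
  by_cases he : S.E r a k
  · by_cases he' : S.E r a m
    · have := pos_two h3 h4 h5 he he'
      exact Or.inr (Or.inr fun h5 => by omega)
    · exact Or.inr (Or.inl he')
  · exact Or.inl he

theorem h_c8 (F : TF G S) {b r a k m n : ℕ} (h : (CL.c8 b r a k m n).ok G = true) :
    Hd (val S) ((CL.c8 b r a k m n).cl G) := by
  simp only [CL.ok, Bool.and_eq_true, Bool.or_eq_true, Bool.not_eq_true', lt_iff, beq_iff,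
    beq_ff, o5_iff, iq_iff, yk_iff, inl_iff] at h
  obtain ⟨⟨⟨⟨⟨⟨⟨⟨h1, h2⟩, h3⟩, h4⟩, h5⟩, h6⟩, h7⟩, h8⟩, h9⟩ := h
  obtain ⟨c0, f0, f2⟩ := cnt_two F h1 h2 h9
  rw [CL.cl, hd_append, hd_append, hd_lst F h1 h2 h3, hd_lst F h1 h2 h4, hd_lst F h1 h2 h5]
  by_cases he : S.E r a k
  · by_cases he' : S.E r a m
    · refine Or.inr (Or.inr fun he'' => ?_)
      have := pos_three h3 h4 h5 h6 h7 h8 he he' he''
      omega
    · exact Or.inr (Or.inl he')
  · exact Or.inl he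

theorem h_c9 (F : TF G S) {r a j : ℕ} (h : (CL.c9 r a j).ok G = true) :
    Hd (val S) ((CL.c9 r a j).cl G) := by
  simp only [CL.ok, Bool.and_eq_true, Bool.or_eq_true, Bool.not_eq_true', lt_iff, beq_iff,
    beq_ff, o5_iff, iq_iff, yk_iff, inl_iff] at h
  obtain ⟨⟨⟨h1, h2⟩, h3⟩, h4⟩ := h
  obtain ⟨c0, f0, f1, -⟩ := F.cnt r h1 a h2 (by omega)
  rw [CL.cl, hd_ng, hd_ps, hd_nil, val_N (by omega) h2 (by omega),
    val_N (by omega) h2 (by omega), f0 j h3, f1 j h3]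
  exact fun h5 h6 => h6 (by omega)

theorem h_c10 (F : TF G S) {r a : ℕ} (h : (CL.c10 r a).ok G = true) :
    Hd (val S) ((CL.c10 r a).cl G) := by
  simp only [CL.ok, Bool.and_eq_true, Bool.or_eq_true, Bool.not_eq_true', lt_iff, beq_iff,
    beq_ff, o5_iff, iq_iff, yk_iff, inl_iff] at h
  obtain ⟨⟨h1, h2⟩, h4⟩ := h
  obtain ⟨c0, f0, f1, -⟩ := F.cnt r h1 a h2 (by omega)
  rw [CL.cl, hd_ng, hd_ps, hd_es h2, val_N (by omega) h2 (by omega),
    val_N (by omega) h2 (by omega), f0 0 (by omega), f1 0 (by omega)]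
  intro h5 h6
  obtain ⟨k, hk, he⟩ := one_pos (E := fun k => S.E r a k) (by omega)
  exact ⟨k, hk, by omega, he⟩

theorem h_c11 (F : TF G S) {r a : ℕ} (h : (CL.c11 r a).ok G = true) :
    Hd (val S) ((CL.c11 r a).cl G) := by
  simp only [CL.ok, Bool.and_eq_true, Bool.or_eq_true, Bool.not_eq_true', lt_iff, beq_iff,
    beq_ff, o5_iff, iq_iff, yk_iff, inl_iff] at h
  obtain ⟨⟨h1, h2⟩, h4⟩ := h
  obtain ⟨c0, f0, f1, -⟩ := F.cnt r h1 a h2 (by omega)
  rw [CL.cl, hd_ng, hd_ps, hd_es h2, val_N (by omega) h2 (by omega),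
    val_N (by omega) h2 (by omega), f0 1 (by omega), f1 1 (by omega)]
  intro h5 h6
  obtain ⟨k, hk, he⟩ := one_pos (E := fun k => S.E r a k) (by omega)
  exact ⟨k, hk, by omega, he⟩

theorem h_c12 (F : TF G S) {r a x : ℕ} (h : (CL.c12 r a x).ok G = true) :
    Hd (val S) ((CL.c12 r a x).cl G) := by
  simp only [CL.ok, Bool.and_eq_true, Bool.or_eq_true, Bool.not_eq_true', lt_iff, beq_iff,
    beq_ff, o5_iff, iq_iff, yk_iff, inl_iff] at h
  obtain ⟨⟨⟨h1, h2⟩, h3⟩, h4⟩ := h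
  obtain ⟨c0, f0, f1, -⟩ := F.cnt r h1 a h2 (by omega)
  rw [CL.cl, hd_ng, hd_ps, hd_ps, hd_es h2, val_N (by omega) h2 (by omega),
    val_N (by omega) h2 (by omega), val_N (by omega) h2 (by omega), f0 1 (by omega),
    f0 0 (by omega), f1 1 (by omega)]
  intro h5 h6 h7
  exact two_pos (E := fun k => S.E r a k) (x := x) (by omega)

theorem h_vis (F : TF G S) {b r a k x : ℕ} (h : (CL.vis b r a k x).ok G = true) :
    Hd (val S) ((CL.vis b r a k x).cl G) := by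
  simp only [CL.ok, Bool.and_eq_true, Bool.or_eq_true, Bool.not_eq_true', lt_iff, beq_iff,
    beq_ff, o5_iff, iq_iff, yk_iff, inl_iff] at h
  obtain ⟨⟨⟨h1, h2⟩, h3⟩, h4⟩ := h
  delta CL.cl
  dsimp only
  by_cases he : S.E r a k
  · refine hd_right ?_
    obtain ⟨e1, e2⟩ := (F.E r h1 a h2 k h3).1 he
    have f := F.vis r h1 a h2 (by omega) e2 k h3 e1
    split
    · simp (disch := omega) only [hd_ng, hd_nil, val_X]
      exact fun p q => f.1 ⟨p, q⟩
    · simp (disch := omega) only [hd_ng, hd_nil, val_X]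
      exact fun p q => f.2 ⟨p, q⟩
  · exact hd_left ((hd_lst F h1 h2 h3).2 he)

theorem h_norz (F : TF G S) {r k w : ℕ} (h : (CL.norz r k w).ok G = true) :
    Hd (val S) ((CL.norz r k w).cl G) := by
  simp only [CL.ok, Bool.and_eq_true, Bool.or_eq_true, Bool.not_eq_true', lt_iff, beq_iff,
    beq_ff, o5_iff, iq_iff, yk_iff, inl_iff] at h
  obtain ⟨⟨⟨h1, h2⟩, h3⟩, h4⟩ := h
  rw [CL.cl, hd_ng, hd_nil, val_D h3 (by omega)]
  exact F.norz r h1 h2 k h3 w (by omega)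

theorem h_first (F : TF G S) (_h : (CL.first).ok G = true) :
    Hd (val S) ((CL.first).cl G) := by
  rw [CL.cl, hd_ng, hd_nil, val_F (by omega)]
  exact F.first

theorem h_anchor (F : TF G S) {r s k x : ℕ} (h : (CL.anchor r s k x).ok G = true) :
    Hd (val S) ((CL.anchor r s k x).cl G) := by
  delta CL.ok at h
  dsimp only at h
  simp only [Bool.and_eq_true, lt_iff] at h
  obtain ⟨⟨⟨⟨⟨h1, h2⟩, h3⟩, h4⟩, h5⟩, h6⟩ := h
  delta CL.cl
  dsimp only
  split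
  · simp only [Bool.and_eq_true, lt_iff, Bool.not_eq_true', beq_ff] at h6
    simp (disch := omega) only [hd_ng, hd_nil, val_ct]
    intro a
    have := ((F.anchor r h1 s h2 h3 (G.an r s - 1) (by omega) (by omega) k h4).1 a).1
    omega
  · have h7 : k + 1 = G.an r s := beq_iff.1 h6
    simp (disch := omega) only [hd_ng, hd_ps, hd_nil, val_ct, val_F]
    exact fun a b => b ((F.anchor r h1 s h2 h3 k h4 h7.symm k h4).1 a).2
  · have h7 : k + 1 = G.an r s := by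
      revert h6
      split
      · intro h6
        contradiction
      · exact fun h6 => beq_iff.1 h6
    simp (disch := omega) only [hd_ng, hd_ps, hd_nil, val_ct, val_F]
    exact fun a b => a ((F.anchor r h1 s h2 h3 k h4 h7.symm k h4).2 ⟨rfl, b⟩)

theorem h_done (F : TF G S) {r s k m x : ℕ} (h : (CL.done r s k m x).ok G = true) :
    Hd (val S) ((CL.done r s k m x).cl G) := by
  simp only [CL.ok, Bool.and_eq_true, Bool.or_eq_true, Bool.not_eq_true', lt_iff, beq_iff,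
    beq_ff, o5_iff, iq_iff, yk_iff, inl_iff] at h
  obtain ⟨⟨⟨⟨⟨⟨⟨h1, h2⟩, h3⟩, h4⟩, h5⟩, h6⟩, h7⟩, h8⟩ := h
  obtain ⟨f1, f2, f3⟩ := F.done r h1 s h2 h3 h7
  delta CL.cl
  dsimp only
  split
  · simp (disch := omega) only [hd_ng, hd_ps, hd_nil, val_ct, val_dn]
    exact fun a b => f2 k h4 a b
  · simp (disch := omega) only [hd_ng, hd_ps, hd_nil, val_ct, val_dn]
    exact fun a b => b (f1.2 (Or.inr ⟨k, h4, a⟩))
  · simp (disch := omega) only [hd_ng, hd_ps, hd_nil, val_ct, val_dn]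
    intro a b
    have := f3 k h4 m h5 a b
    rcases h8 with h8 | h8
    · exact h8 rfl
    · exact h8 this
  · simp (disch := omega) only [hd_ng, hd_ps, hd_nil, val_ct, val_dn]
    exact fun a b => b (f1.2 (Or.inl a))
  · rw [hd_ng, hd_ps, val_dn (by omega) h6, val_dn (by omega) h6, hd_sel]
    intro a b
    rcases f1.1 a with c | ⟨k', hk', c⟩
    · exact absurd c b
    · exact ⟨k', hk', rfl, lit_ps.2 (by rw [val_ct h6 hk']; exact c)⟩

end CL

end Vale.Agent.P032.R2.H741.Tp
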