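import Vale.Agent.P032.R2.H741.TpH2

/-!
# P032: soundness of the clauses, contacts
-/

set_option autoImplicit false
set_option linter.unusedSimpArgs false

namespace Vale.Agent.P032.R2.H741.Tp

open Vale.Agent.P032.R2.H805.Rup (Lit)

variable {G : RD} {S : Sem}

namespace CL

theorem h_ident (F : TF G S) {r j k i x : ℕ} (h : (CL.ident r j k i x).ok G = true) :
    Hd (val S) ((CL.ident r j k i x).cl G) := by
  simp only [CL.ok, Bool.and_eq_true, Bool.or_eq_true, Bool.not_eq_true', lt_iff, beq_iff,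
    beq_ff, o5_iff, iq_iff, yk_iff, inl_iff] at h
  obtain ⟨⟨⟨⟨⟨⟨⟨h1, h2⟩, h3⟩, h4⟩, h5⟩, h6⟩, h7⟩, h8⟩ := h
  obtain ⟨f1, f2⟩ := F.ident r h1 j h2 k h4
  have e1 : val S (cta r (G.id2 r j) k) = CT G S r (G.id2 r j) k := val_cta h6 h8 h4
  have e2 : val S (cta r (G.id1 r j) k) = CT G S r (G.id1 r j) k := val_cta h6 h7 h4
  delta CL.cl
  dsimp only
  split
  · simp (disch := omega) only [hd_ng, hd_ps, hd_nil, e1, val_C, val_U]
    exact fun a b c => c ((f1 a i h5).1 b)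
  · simp (disch := omega) only [hd_ng, hd_ps, hd_nil, e1, val_C, val_U]
    exact fun a b c => b ((f1 a i h5).2 c)
  · simp (disch := omega) only [hd_ng, hd_ps, hd_nil, e2, val_C, val_U]
    exact fun a b c => c ((f2 a i h5).1 b)
  · simp (disch := omega) only [hd_ng, hd_ps, hd_nil, e2, val_C, val_U]
    exact fun a b c => b ((f2 a i h5).2 c)

theorem h_identD (F : TF G S) {r j k w w' x : ℕ} (h : (CL.identD r j k w w' x).ok G = true) :
    Hd (val S) ((CL.identD r j k w w' x).cl G) := by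
  delta CL.ok at h
  dsimp only at h
  simp only [Bool.and_eq_true, lt_iff] at h
  obtain ⟨⟨⟨⟨⟨⟨⟨⟨⟨h1, h2⟩, h3⟩, h4⟩, h5⟩, h5'⟩, h6⟩, h7⟩, h8⟩, h9⟩ := h
  obtain ⟨f1, f2⟩ := F.identD r h1 j h2 k h4 w h5
  have e1 : val S (cta r (G.id2 r j) k) = CT G S r (G.id2 r j) k := val_cta h6 h8 h4
  have e2 : val S (cta r (G.id1 r j) k) = CT G S r (G.id1 r j) k := val_cta h6 h7 h4
  delta CL.cl
  dsimp only
  match x, h9 with
  | 0, h9 =>
    simp (disch := omega) only [hd_ng, hd_ps, hd_nil, e1, val_D, val_V]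
    exact fun a b c => c ((f1 a).1 b)
  | 1, h9 =>
    simp (disch := omega) only [hd_ng, hd_ps, hd_nil, e1, val_D, val_V]
    exact fun a b c => b ((f1 a).2 c)
  | 2, h9 =>
    simp (disch := omega) only [hd_ng, hd_ps, hd_nil, e2, val_D, val_V]
    exact fun a b c => c ((f2 a w' h5' h9).1 b)
  | x + 3, h9 =>
    simp (disch := omega) only [hd_ng, hd_ps, hd_nil, e2, val_D, val_V]
    exact fun a b c => b ((f2 a w' h5' h9).2 c)

theorem ctr_iff {s i : ℕ} : ctr G s i = true ↔ ∃ j < 4, i = G.sg s j := by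
  unfold ctr
  simp only [Bool.or_eq_true, beq_iff]
  constructor
  · rintro (((h | h) | h) | h)
    · exact ⟨0, by omega, h⟩
    · exact ⟨1, by omega, h⟩
    · exact ⟨2, by omega, h⟩
    · exact ⟨3, by omega, h⟩
  · rintro ⟨j, hj, h⟩
    have : j = 0 ∨ j = 1 ∨ j = 2 ∨ j = 3 := by omega
    rcases this with rfl | rfl | rfl | rfl <;> tauto

theorem h_ctC (F : TF G S) {r s k i x : ℕ} (h : (CL.ctC r s k i x).ok G = true) :
    Hd (val S) ((CL.ctC r s k i x).cl G) := by
  simp only [CL.ok, Bool.and_eq_true, Bool.or_eq_true, Bool.not_eq_true', lt_iff, beq_iff,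
    beq_ff, o5_iff, iq_iff, yk_iff, inl_iff] at h
  obtain ⟨⟨⟨⟨⟨h1, h2⟩, h3⟩, h4⟩, h5⟩, h6⟩ := h
  have f := F.ctC r h1 s h2 h3 k h4
  delta CL.cl
  dsimp only
  split
  · rw [hd_ng, hd_pick, ctr_iff, val_ct h6 h4, val_C h4 h5]
    exact fun a => (f a i h5).1.symm
  · rw [hd_ng, hd_pick, ctr_iff, val_ct h6 h4, val_C (Nat.mod_lt _ (by omega)) h5]
    exact fun a => (f a i h5).2.symm

theorem h_ctD (F : TF G S) {r s k w x : ℕ} (h : (CL.ctD r s k w x).ok G = true) :
    Hd (val S) ((CL.ctD r s k w x).cl G) := by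
  delta CL.ok at h
  dsimp only at h
  simp only [Bool.and_eq_true, lt_iff] at h
  obtain ⟨⟨⟨⟨⟨⟨h1, h2⟩, h3⟩, h4⟩, h5⟩, h6⟩, h7⟩ := h
  have f := F.ctD r h1 s h2 h3 k h4
  delta CL.cl
  dsimp only
  match x, h7 with
  | 0, h7 =>
    simp (disch := omega) only [hd_ng, hd_ps, hd_nil, val_ct, val_D]
    exact fun a b => b ((f a w h5).1 h7)
  | x + 1, h7 =>
    simp (disch := omega) only [hd_ng, hd_ps, hd_nil, val_ct, val_D]
    exact fun a b => b ((f a w h5).2 h7)

theorem h_same (F : TF G S) {r s k i x : ℕ} (h : (CL.same r s k i x).ok G = true) :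
    Hd (val S) ((CL.same r s k i x).cl G) := by
  simp only [CL.ok, Bool.and_eq_true, Bool.or_eq_true, Bool.not_eq_true', lt_iff, beq_iff,
    beq_ff, o5_iff, iq_iff, yk_iff, inl_iff] at h
  obtain ⟨⟨⟨⟨⟨h1, h2⟩, h3⟩, h4⟩, h5⟩, h6⟩ := h
  have f := F.same r h1 s h2 h3 k h4
  delta CL.cl
  dsimp only
  split <;> simp (disch := omega) only [hd_ng, hd_ps, hd_nil, val_ct, val_C] <;>
    intro a b c <;> have g := f a i h5 <;> tauto

theorem h_sameH (F : TF G S) {r s k x : ℕ} (h : (CL.sameH r s k x).ok G = true) :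
    Hd (val S) ((CL.sameH r s k x).cl G) := by
  simp only [CL.ok, Bool.and_eq_true, Bool.or_eq_true, Bool.not_eq_true', lt_iff, beq_iff,
    beq_ff, o5_iff, iq_iff, yk_iff, inl_iff] at h
  obtain ⟨⟨⟨⟨h1, h2⟩, h3⟩, h4⟩, h6⟩ := h
  have f := F.sameH r h1 s h2 h3 k h4
  delta CL.cl
  dsimp only
  split <;> simp (disch := omega) only [hd_ng, hd_ps, hd_nil, val_ct, val_H] <;>
    intro a b c <;> have g := f a <;> tauto

theorem h_sameD (F : TF G S) {r s k w w' x : ℕ} (h : (CL.sameD r s k w w' x).ok G = true) :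
    Hd (val S) ((CL.sameD r s k w w' x).cl G) := by
  simp only [CL.ok, Bool.and_eq_true, Bool.or_eq_true, Bool.not_eq_true', lt_iff, beq_iff,
    beq_ff, o5_iff, iq_iff, yk_iff, inl_iff] at h
  obtain ⟨⟨⟨⟨⟨⟨⟨h1, h2⟩, h3⟩, h4⟩, h5⟩, h5'⟩, h6⟩, h7⟩ := h
  have f := F.sameD r h1 s h2 h3 k h4
  delta CL.cl
  dsimp only
  split <;> simp (disch := omega) only [hd_ng, hd_ps, hd_nil, val_ct, val_D] <;>
    intro a b c <;> have g := f a w h5 w' h5' h7 <;> tauto

theorem h_agree (hG : Good G) (F : TF G S) {r s k i x : ℕ} (h : (CL.agree r s k i x).ok G = true) :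
    Hd (val S) ((CL.agree r s k i x).cl G) := by
  simp only [CL.ok, Bool.and_eq_true, Bool.or_eq_true, Bool.not_eq_true', lt_iff, beq_iff,
    beq_ff, o5_iff, iq_iff, yk_iff, inl_iff] at h
  obtain ⟨⟨⟨⟨⟨⟨⟨h1, h2⟩, h3⟩, h4⟩, h5⟩, h6⟩, h7⟩, h8⟩ := h
  rw [ctr_iff] at h7 h8
  have f := F.agree r h1 s h2 h3 k h4
  delta CL.cl
  dsimp only
  split <;> simp (disch := omega) only [hd_ng, hd_ps, hd_nil, val_ct, val_n] <;>
    intro a b c <;> have g := f a i h5 h7 h8 <;> tauto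

theorem h_tight (hG : Good G) (F : TF G S) {r s k t p b x : ℕ}
    (h : (CL.tight r s k t p b x).ok G = true) : Hd (val S) ((CL.tight r s k t p b x).cl G) := by
  simp only [CL.ok, Bool.and_eq_true, Bool.or_eq_true, lt_iff, aj_iff, beq_iff] at h
  obtain ⟨⟨⟨⟨⟨⟨⟨⟨h1, h2, h3⟩, h4⟩, h5⟩, h6⟩, h7⟩, h8⟩, h9⟩, h10⟩ := h
  have e1 : val S (cta r s k) = CT G S r s k := val_cta h8 h9 h4
  have h3' : (G.adj r s || G.adj s r) = true := by
    rw [Bool.or_eq_true]
    exact h3
  have f : CT G S r s k → _ := fun a => F.tight r h1 s h2 k h4 a h3' t h5 p h6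
    (G.sg r (2 * p + b)) (G.sg r (2 * p + 1 - b)) (by
      have hb : b = 0 ∨ b = 1 := by omega
      rcases hb with rfl | rfl
      · exact Or.inl ⟨rfl, rfl⟩
      · exact Or.inr ⟨rfl, rfl⟩) h10
  delta CL.cl
  dsimp only
  split
  · simp (disch := first | omega | exact hG.lt (by omega) (by omega)) only [hd_ng, hd_ps, hd_nil,
      val_X, val_C, val_Q, val_H, val_D, val_n, val_M, val_g, val_I, val_J, val_N, val_E, val_ct,
      val_dn, val_F, val_P, val_U, val_V, val_ty, val_ti]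
    rw [e1]
    exact fun a b c d e => (f a b c d).1 e
  · simp (disch := first | omega | exact hG.lt (by omega) (by omega)) only [hd_ng, hd_ps, hd_nil,
      val_X, val_C, val_Q, val_H, val_D, val_n, val_M, val_g, val_I, val_J, val_N, val_E, val_ct,
      val_dn, val_F, val_P, val_U, val_V, val_ty, val_ti]
    rw [e1]
    exact fun a b c d e => e (f a b c d).2.1
  · simp (disch := first | omega | exact hG.lt (by omega) (by omega)) only [hd_ng, hd_ps, hd_nil,
      val_X, val_C, val_Q, val_H, val_D, val_n, val_M, val_g, val_I, val_J, val_N, val_E, val_ct,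
      val_dn, val_F, val_P, val_U, val_V, val_ty, val_ti]
    rw [e1]
    exact fun a b c d e => e (f a b c d).2.2.1
  · simp (disch := first | omega | exact hG.lt (by omega) (by omega)) only [hd_ng, hd_ps, hd_nil,
      val_X, val_C, val_Q, val_H, val_D, val_n, val_M, val_g, val_I, val_J, val_N, val_E, val_ct,
      val_dn, val_F, val_P, val_U, val_V, val_ty, val_ti]
    rw [e1]
    exact fun a b c d e => (f a b c d).2.2.2 e

end CL

end Vale.Agent.P032.R2.H741.Tp
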