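import Vale.Agent.P032.R2.H741.TpH0

/-!
# P032: soundness of the clauses, rings with letters only, types, anchor
-/

set_option autoImplicit false
set_option linter.unusedSimpArgs false

namespace Vale.Agent.P032.R2.H741.Tp

open Vale.Agent.P032.R2.H805.Rup (Lit)

variable {G : RD} {S : Sem}

namespace CL

theorem h_ysome (F : TF G S) {s k : ℕ} (h : (CL.ysome s k).ok G = true) :
    Hd (val S) ((CL.ysome s k).cl G) := by
  simp only [CL.ok, Bool.and_eq_true, Bool.or_eq_true, Bool.not_eq_true', lt_iff, beq_iff,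
    beq_ff, o5_iff, iq_iff, yk_iff, inl_iff] at h
  obtain ⟨h1, h2⟩ := h
  have := F.ysome s h1.1 h1.2 k h2
  simp (disch := omega) only [CL.cl, hd_ps, hd_nil, val_X]
  tauto

theorem h_yuniq (F : TF G S) {s k l m : ℕ} (h : (CL.yuniq s k l m).ok G = true) :
    Hd (val S) ((CL.yuniq s k l m).cl G) := by
  simp only [CL.ok, Bool.and_eq_true, Bool.or_eq_true, Bool.not_eq_true', lt_iff, beq_iff,
    beq_ff, o5_iff, iq_iff, yk_iff, inl_iff] at h
  obtain ⟨⟨⟨⟨h1, h2⟩, h3⟩, h4⟩, h5⟩ := h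
  simp (disch := omega) only [CL.cl, hd_ng, hd_nil, val_X]
  exact fun a b => h5 (F.yuniq s h1.1 h1.2 k h2 l h3 m h4 a b)

theorem h_ylegal (F : TF G S) {s k l : ℕ} (h : (CL.ylegal s k l).ok G = true) :
    Hd (val S) ((CL.ylegal s k l).cl G) := by
  simp only [CL.ok, Bool.and_eq_true, Bool.or_eq_true, Bool.not_eq_true', lt_iff, beq_iff,
    beq_ff, o5_iff, iq_iff, yk_iff, inl_iff] at h
  obtain ⟨⟨h1, h2⟩, h3⟩ := h
  simp (disch := omega) only [CL.cl, hd_ng, hd_nil, val_X]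
  exact F.ylegal s h1.1 h1.2 k h2 l h3

theorem h_ylegal2 (F : TF G S) {s k l m : ℕ} (h : (CL.ylegal2 s k l m).ok G = true) :
    Hd (val S) ((CL.ylegal2 s k l m).cl G) := by
  simp only [CL.ok, Bool.and_eq_true, Bool.or_eq_true, Bool.not_eq_true', lt_iff, beq_iff,
    beq_ff, o5_iff, iq_iff, yk_iff, inl_iff] at h
  obtain ⟨⟨⟨⟨h1, h2⟩, h3⟩, h4⟩, h5⟩ := h
  simp (disch := omega) only [CL.cl, hd_ng, hd_nil, val_X]
  unfold com at h5
  rw [List.any_eq_true] at h5
  obtain ⟨i, hi, hi'⟩ := h5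
  exact F.ylegal2 s h1.1 h1.2 k h2 l h3 m h4 i hi (inl_iff.1 hi')

theorem h_nodir (F : TF G S) {s k x : ℕ} (h : (CL.nodir s k x).ok G = true) :
    Hd (val S) ((CL.nodir s k x).cl G) := by
  simp only [CL.ok, Bool.and_eq_true, Bool.or_eq_true, Bool.not_eq_true', lt_iff, beq_iff,
    beq_ff, o5_iff, iq_iff, yk_iff, inl_iff] at h
  obtain ⟨h1, h2⟩ := h
  have f := F.nodir s h1.1 h1.2 k h2
  delta CL.cl
  dsimp only
  split
  · simp (disch := omega) only [hd_ng, hd_nil, val_X]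
    exact fun a b => f.1 ⟨a, b⟩
  · simp (disch := omega) only [hd_ng, hd_nil, val_X]
    exact fun a b => f.2 ⟨a, b⟩

theorem h_tpY (hG : Good G) (F : TF G S) {s t k m x : ℕ} (h : (CL.tpY s t k m x).ok G = true) :
    Hd (val S) ((CL.tpY s t k m x).cl G) := by
  delta CL.ok at h
  dsimp only at h
  simp only [Bool.and_eq_true, lt_iff, yk_iff] at h
  obtain ⟨⟨⟨⟨⟨⟨⟨h1, h2⟩, h3⟩, h4⟩, h5⟩, h6⟩, h7⟩, h8⟩ := h
  have f := F.tpY s h1.1 h1.2 t h4 k h5 m (by omega) h7
  delta CL.cl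
  dsimp only
  match x, h8 with
  | 0, h8 =>
    simp (disch := first | omega | exact hG.lt (by omega) (by omega)) only [hd_ng, hd_ps, hd_nil,
      val_X, val_C, val_Q, val_H, val_D, val_n, val_M, val_g, val_I, val_J, val_N, val_E, val_ct,
      val_dn, val_F, val_P, val_U, val_V, val_ty, val_ti]
    exact fun a b c d => d ((f a b).1 (inl_iff.1 h8) c)
  | x + 1, h8 =>
    simp (disch := first | omega | exact hG.lt (by omega) (by omega)) only [hd_ng, hd_ps, hd_nil,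
      val_X, val_C, val_Q, val_H, val_D, val_n, val_M, val_g, val_I, val_J, val_N, val_E, val_ct,
      val_dn, val_F, val_P, val_U, val_V, val_ty, val_ti]
    exact fun a b c d => d ((f a b).2 (inl_iff.1 h8) c)

theorem h_sameY (F : TF G S) {s t l i x : ℕ}
    (h : (CL.sameY s t l i x).ok G = true) : Hd (val S) ((CL.sameY s t l i x).cl G) := by
  simp only [CL.ok, Bool.and_eq_true, Bool.or_eq_true, Bool.not_eq_true', lt_iff, beq_iff,
    beq_ff, o5_iff, iq_iff, yk_iff, inl_iff] at h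
  obtain ⟨⟨⟨⟨⟨h1, h2⟩, h3⟩, h4⟩, h5⟩, h6⟩ := h
  have f := fun a => (F.sameY s h1.1 h1.2 h2 a t h3).1 l h4 i h6
  delta CL.cl
  dsimp only
  split
  · simp (disch := omega) only [hd_ng, hd_ps, hd_nil, val_X, val_C, val_F]
    exact fun a b c => c ((f a).1 b)
  · simp (disch := omega) only [hd_ng, hd_ps, hd_nil, val_X, val_C, val_F]
    exact fun a b c => c ((f a).2 b)

theorem h_sameZ (F : TF G S) {s t m : ℕ}
    (h : (CL.sameZ s t m).ok G = true) : Hd (val S) ((CL.sameZ s t m).cl G) := by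
  simp only [CL.ok, Bool.and_eq_true, Bool.or_eq_true, Bool.not_eq_true', lt_iff, beq_iff,
    beq_ff, o5_iff, iq_iff, yk_iff, inl_iff] at h
  obtain ⟨⟨⟨⟨h1, h2⟩, h3⟩, h4⟩, h5⟩ := h
  have f := fun a => (F.sameY s h1.1 h1.2 h2 a t h3).2
  rw [CL.cl]
  simp (disch := omega) only [hd_ng, hd_nil, val_X, val_F]
  intro a b
  have hm : m = 2 ∨ m = 3 := by omega
  rcases hm with rfl | rfl
  · exact (f a).1 b
  · exact (f a).2 b

theorem h_tpkeep (F : TF G S) {r p k x : ℕ}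
    (h : (CL.tpkeep r p k x).ok G = true) : Hd (val S) ((CL.tpkeep r p k x).cl G) := by
  simp only [CL.ok, Bool.and_eq_true, Bool.or_eq_true, Bool.not_eq_true', lt_iff, beq_iff,
    beq_ff, o5_iff, iq_iff, yk_iff, inl_iff] at h
  obtain ⟨⟨⟨h1, h2⟩, h3⟩, h4⟩ := h
  have f := F.tpkeep r h1 p h2 h3 k h4
  delta CL.cl
  dsimp only
  split
  · simp (disch := omega) only [hd_ng, hd_ps, hd_nil, val_X, val_ty]
    exact fun a b c d => d ((f a b).1 c)
  · simp (disch := omega) only [hd_ng, hd_ps, hd_nil, val_X, val_ty]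
    exact fun a b c d => c ((f a b).2 d)

theorem h_tpend (hG : Good G) (F : TF G S) {r p t k x : ℕ}
    (h : (CL.tpend r p t k x).ok G = true) : Hd (val S) ((CL.tpend r p t k x).cl G) := by
  simp only [CL.ok, Bool.and_eq_true, Bool.or_eq_true, Bool.not_eq_true', lt_iff, beq_iff,
    beq_ff, o5_iff, iq_iff, yk_iff, inl_iff] at h
  obtain ⟨⟨⟨⟨h1, h2⟩, h3⟩, h4⟩, h5⟩ := h
  have f := F.tpend r h1 p h2 h3 t h4 k h5
  delta CL.cl
  dsimp only
  split
  · simp (disch := first | omega | exact hG.lt (by omega) (by omega)) only [hd_ng, hd_ps, hd_nil,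
      val_X, val_C, val_Q, val_H, val_D, val_n, val_M, val_g, val_I, val_J, val_N, val_E, val_ct,
      val_dn, val_F, val_P, val_U, val_V, val_ty, val_ti]
    exact fun a b c d => (f a).1 b c d
  · simp (disch := first | omega | exact hG.lt (by omega) (by omega)) only [hd_ng, hd_ps, hd_nil,
      val_X, val_C, val_Q, val_H, val_D, val_n, val_M, val_g, val_I, val_J, val_N, val_E, val_ct,
      val_dn, val_F, val_P, val_U, val_V, val_ty, val_ti]
    exact fun a b c d => d ((f a).2 b c)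

theorem h_anch (F : TF G S) {r p i : ℕ}
    (h : (CL.anch r p i).ok G = true) : Hd (val S) ((CL.anch r p i).cl G) := by
  simp only [CL.ok, Bool.and_eq_true, Bool.or_eq_true, Bool.not_eq_true', lt_iff, beq_iff,
    beq_ff, o5_iff, iq_iff, yk_iff, inl_iff] at h
  obtain ⟨⟨⟨h1, h2⟩, h3⟩, h4⟩ := h
  rw [CL.cl, hd_ng, hd_pick, val_F (by omega), val_C (by omega) h4]
  simp only [Bool.or_eq_true, beq_iff, or_assoc]
  exact fun a => ((F.anch r h1 p h2 h3 a).1 i h4).symm

theorem h_anchX (F : TF G S) {r p x : ℕ}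
    (h : (CL.anchX r p x).ok G = true) : Hd (val S) ((CL.anchX r p x).cl G) := by
  simp only [CL.ok, Bool.and_eq_true, Bool.or_eq_true, Bool.not_eq_true', lt_iff, beq_iff,
    beq_ff, o5_iff, iq_iff, yk_iff, inl_iff] at h
  obtain ⟨⟨h1, h2⟩, h3⟩ := h
  have f := fun a => (F.anch r h1 p h2 h3 a).2
  delta CL.cl
  dsimp only
  split
  · simp (disch := omega) only [hd_ng, hd_ps, hd_nil, val_X, val_F]
    intro a
    have g := f a
    tauto
  · simp (disch := omega) only [hd_ng, hd_ps, hd_nil, val_X, val_F]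
    intro a
    have g := f a
    tauto

theorem h_anchD (F : TF G S) {r w : ℕ}
    (h : (CL.anchD r w).ok G = true) : Hd (val S) ((CL.anchD r w).cl G) := by
  simp only [CL.ok, Bool.and_eq_true, Bool.or_eq_true, Bool.not_eq_true', lt_iff, beq_iff,
    beq_ff, o5_iff, iq_iff, yk_iff, inl_iff] at h
  obtain ⟨⟨h1, h2⟩, h3⟩ := h
  rw [CL.cl, hd_ng, hd_ps, hd_nil, val_F (by omega), val_D (by omega) h2]
  exact fun a b => b (F.anchD r h1 w h2 h3 a)

theorem h_nc (hG : Good G) (F : TF G S) {r p k t : ℕ}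
    (h : (CL.nc r p k t).ok G = true) : Hd (val S) ((CL.nc r p k t).cl G) := by
  simp only [CL.ok, Bool.and_eq_true, Bool.or_eq_true, Bool.not_eq_true', lt_iff, beq_iff,
    beq_ff, o5_iff, iq_iff, yk_iff, inl_iff] at h
  obtain ⟨⟨⟨⟨h1, h2⟩, h3⟩, h4⟩, h5⟩ := h
  rw [CL.cl]
  simp (disch := first | omega | exact hG.lt (by omega) (by omega)) only [hd_ng, hd_ps, hd_nil,
      val_X, val_C, val_Q, val_H, val_D, val_n, val_M, val_g, val_I, val_J, val_N, val_E, val_ct,
      val_dn, val_F, val_P, val_U, val_V, val_ty, val_ti]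
  exact fun a b c d => F.nc r h1 p h2 h3 k h4 t h5 a b c d

theorem h_ncD (hG : Good G) (F : TF G S) {r p k w : ℕ}
    (h : (CL.ncD r p k w).ok G = true) : Hd (val S) ((CL.ncD r p k w).cl G) := by
  simp only [CL.ok, Bool.and_eq_true, Bool.or_eq_true, Bool.not_eq_true', lt_iff, beq_iff,
    beq_ff, o5_iff, iq_iff, yk_iff, inl_iff] at h
  obtain ⟨⟨⟨⟨h1, h2⟩, h3⟩, h4⟩, h5⟩ := h
  have hw : w < 4 := by omega
  rw [CL.cl, hd_ng, hd_nil, val_D h4 (by omega)]
  intro hD
  have hQ := F.dQ r h1 k h4 w (by omega) hD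
  have e1 : pc G r w 0 = G.sg r (2 * p) := by
    unfold pc
    have : w = 0 ∨ w = 1 ∨ w = 2 ∨ w = 3 := by omega
    rcases this with rfl | rfl | rfl | rfl <;> subst h5 <;> rfl
  have e2 : pc G r w 2 = G.sg r (2 * p + 1) := by
    unfold pc
    have : w = 0 ∨ w = 1 ∨ w = 2 ∨ w = 3 := by omega
    rcases this with rfl | rfl | rfl | rfl <;> subst h5 <;> rfl
  have hc1 : S.C r k (G.sg r (2 * p)) :=
    (F.dC r h1 k h4 w (by omega) hD _ (hG.lt h1 (by omega))).2 (Or.inl e1.symm)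
  have hc2 : S.C r k (G.sg r (2 * p + 1)) :=
    (F.dC r h1 k h4 w (by omega) hD _ (hG.lt h1 (by omega))).2 (Or.inr (Or.inr (Or.inl e2.symm)))
  have g0 := F.nc r h1 p h2 h3 k h4 0 (by omega) hQ hc1 hc2
  have g1 := F.nc r h1 p h2 h3 k h4 1 (by omega) hQ hc1 hc2
  have f := F.s4word r h1 k h4 w hw hD
  rw [h5] at f
  exact g0 (f.2 g1)

theorem h_out2 (hG : Good G) (F : TF G S) {r i q k m x y : ℕ}
    (h : (CL.out2 r i q k m x y).ok G = true) : Hd (val S) ((CL.out2 r i q k m x y).cl G) := by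
  simp only [CL.ok, Bool.and_eq_true, Bool.or_eq_true, Bool.not_eq_true', lt_iff, beq_iff,
    beq_ff, o5_iff, iq_iff, yk_iff, inl_iff] at h
  obtain ⟨⟨⟨⟨⟨⟨h1, h2, h3, h4⟩, h5⟩, h6⟩, h7⟩, h8⟩, h9⟩ := h
  have hw : rq i q < 16 := by unfold rq; omega
  have f := F.out2 r h1 k h5 m h6 i h2 q h3 h4
  rw [CL.cl, hd_ng, val_D h5 hw]
  simp (disch := first | omega | exact hG.lt (by omega) (by omega)) only [hd_ng, hd_ps, hd_nil,
      val_X, val_C, val_Q, val_H, val_D, val_n, val_M, val_g, val_I, val_J, val_N, val_E, val_ct,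
      val_dn, val_F, val_P, val_U, val_V, val_ty, val_ti]
  intro a b c
  have ex : x = 0 ∨ x = 1 := by omega
  have ey : y = 2 ∨ y = 3 := by omega
  have g := f a
  rcases ex with rfl | rfl <;> rcases ey with rfl | rfl <;> tauto

end CL

end Vale.Agent.P032.R2.H741.Tp
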