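import Vale.Agent.P032.R2.H741.TpH1
import Vale.Agent.P032.R2.H741.TpH2
import Vale.Agent.P032.R2.H741.TpH3
import Vale.Agent.P032.R2.H741.TpH4
import Vale.Agent.P032.R2.H741.TpH5
import Vale.Agent.P032.R2.H741.TpH6

/-!
# P032: soundness of the clauses about the step, the start and the end

`CL.sound`, `CI.sound`, `CB.sound`: a clause whose parameters are in range holds if the facts hold.
-/

set_option autoImplicit false
set_option linter.unusedSimpArgs false

namespace Vale.Agent.P032.R2.H741.Tp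

open Vale.Agent.P032.R2.H805.Rup (Lit)

variable {G : RD} {S : Sem}

/-- **the clauses about the step hold** -/
theorem CL.sound (hG : Good G) (h8 : G.R ≤ 8) (F : TF G S) {f : CL} (h : f.ok G = true) :
    Hd (val S) (f.cl G) := by
  cases f with
  | some _ _ => exact CL.h_some F h
  | uniq _ _ _ _ => exact CL.h_uniq F h
  | legal _ _ _ => exact CL.h_legal F h
  | legal2 _ _ _ _ _ => exact CL.h_legal2 F h
  | LC _ _ _ _ _ => exact CL.h_LC hG F h
  | le4 _ _ _ => exact CL.h_le4 F h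
  | inside _ _ _ => exact CL.h_inside hG F h
  | insideM _ _ _ _ => exact CL.h_insideM hG F h
  | q4i _ _ _ _ _ _ => exact CL.h_q4i F h
  | q4e _ _ _ => exact CL.h_q4e hG F h
  | q4ge _ _ _ _ _ => exact CL.h_q4ge F h
  | dQ _ _ _ => exact CL.h_dQ F h
  | dC _ _ _ _ => exact CL.h_dC F h
  | dd _ _ _ _ => exact CL.h_dd F h
  | dH _ _ _ => exact CL.h_dH F h
  | hQ _ _ => exact CL.h_hQ F h
  | q4cases _ _ => exact CL.h_q4cases F h
  | notri _ _ => exact CL.h_notri F h
  | swap4 _ _ _ => exact CL.h_swap4 hG F h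
  | flanksame _ _ _ _ _ => exact CL.h_flanksame hG F h
  | flank4 _ _ _ _ => exact CL.h_flank4 hG F h
  | flankr _ _ _ _ _ _ => exact CL.h_flankr hG F h
  | s4word _ _ _ _ => exact CL.h_s4word F h
  | single _ _ _ _ => exact CL.h_single F h
  | single2 _ _ _ _ => exact CL.h_single2 h8 F h
  | notsub _ _ _ _ _ => exact CL.h_notsub F h
  | notsub2 _ _ _ _ _ => exact CL.h_notsub2 h8 F h
  | faceA _ _ _ _ _ _ => exact CL.h_faceA F h
  | faceB _ _ _ _ _ _ => exact CL.h_faceB F h
  | faceC _ _ _ _ _ _ => exact CL.h_faceC h8 F h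
  | faceD _ _ _ _ _ _ _ => exact CL.h_faceD h8 F h
  | faceE _ _ _ _ _ _ _ => exact CL.h_faceE h8 F h
  | hubA _ _ _ _ _ _ => exact CL.h_hubA F h
  | hubB _ _ _ _ _ _ => exact CL.h_hubB h8 F h
  | insubA _ _ _ _ _ => exact CL.h_insubA hG F h
  | insubB _ _ _ _ _ => exact CL.h_insubB h8 hG F h
  | two _ _ _ _ _ _ _ _ => exact CL.h_two h8 F h
  | n0L _ _ _ => exact CL.h_n0L hG F h
  | n0R _ _ _ => exact CL.h_n0R hG F h
  | opp _ _ _ => exact CL.h_opp hG F h
  | conv _ _ _ _ _ => exact CL.h_conv hG F h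
  | convM _ _ _ _ _ => exact CL.h_convM hG F h
  | convM2 _ _ _ _ _ => exact CL.h_convM2 hG F h
  | M _ _ _ _ => exact CL.h_M hG F h
  | mix _ _ _ _ => exact CL.h_mix hG F h
  | line1 _ _ _ _ _ => exact CL.h_line1 hG F h
  | rkind _ _ _ _ _ => exact CL.h_rkind hG F h
  | mkind _ _ _ _ _ _ => exact CL.h_mkind hG F h
  | lab1 _ _ _ => exact CL.h_lab1 hG F h
  | pairlab _ _ _ _ => exact CL.h_pairlab hG F h
  | letlab _ _ _ _ => exact CL.h_letlab hG F h
  | gline _ _ _ _ => exact CL.h_gline hG F h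
  | gset _ _ _ _ => exact CL.h_gset hG F h
  | gmono _ _ => exact CL.h_gmono F h
  | E1 _ _ _ _ => exact CL.h_E1 F h
  | E2 _ _ _ => exact CL.h_E2 F h
  | E3 _ _ _ _ => exact CL.h_E3 F h
  | absent _ _ _ => exact CL.h_absent F h
  | pres _ _ _ => exact CL.h_pres F h
  | c1 _ _ _ _ => exact CL.h_c1 F h
  | c2 _ _ _ _ => exact CL.h_c2 F h
  | c3 _ _ _ _ _ => exact CL.h_c3 F h
  | c4 _ _ _ _ => exact CL.h_c4 F h
  | c5 _ _ _ _ _ => exact CL.h_c5 F h
  | c6 _ _ _ _ => exact CL.h_c6 F h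
  | c7 _ _ _ _ _ => exact CL.h_c7 F h
  | c8 _ _ _ _ _ _ => exact CL.h_c8 F h
  | c9 _ _ _ => exact CL.h_c9 F h
  | c10 _ _ => exact CL.h_c10 F h
  | c11 _ _ => exact CL.h_c11 F h
  | c12 _ _ _ => exact CL.h_c12 F h
  | vis _ _ _ _ _ => exact CL.h_vis F h
  | norz _ _ _ => exact CL.h_norz F h
  | first => exact CL.h_first F h
  | anchor _ _ _ _ => exact CL.h_anchor F h
  | done _ _ _ _ _ => exact CL.h_done F h
  | ident _ _ _ _ _ => exact CL.h_ident F h
  | identD _ _ _ _ _ _ => exact CL.h_identD F h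
  | ctC _ _ _ _ _ => exact CL.h_ctC F h
  | ctD _ _ _ _ _ => exact CL.h_ctD F h
  | same _ _ _ _ _ => exact CL.h_same F h
  | sameH _ _ _ _ => exact CL.h_sameH F h
  | sameD _ _ _ _ _ _ => exact CL.h_sameD F h
  | agree _ _ _ _ _ => exact CL.h_agree hG F h
  | tight _ _ _ _ _ _ _ => exact CL.h_tight hG F h
  | ysome _ _ => exact CL.h_ysome F h
  | yuniq _ _ _ _ => exact CL.h_yuniq F h
  | ylegal _ _ _ => exact CL.h_ylegal F h
  | ylegal2 _ _ _ _ => exact CL.h_ylegal2 F h
  | nodir _ _ _ => exact CL.h_nodir F h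
  | tpY _ _ _ _ _ => exact CL.h_tpY hG F h
  | sameY _ _ _ _ _ => exact CL.h_sameY F h
  | sameZ _ _ _ => exact CL.h_sameZ F h
  | tpkeep _ _ _ _ => exact CL.h_tpkeep F h
  | tpend _ _ _ _ _ => exact CL.h_tpend hG F h
  | anch _ _ _ => exact CL.h_anch F h
  | anchX _ _ _ => exact CL.h_anchX F h
  | anchD _ _ => exact CL.h_anchD F h
  | nc _ _ _ _ => exact CL.h_nc hG F h
  | ncD _ _ _ _ => exact CL.h_ncD hG F h
  | out2 _ _ _ _ _ _ _ => exact CL.h_out2 hG F h

/-- **the clauses about the start hold** -/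
theorem CI.sound (hG : Good G) (F : IF G S) {f : CI} (h : f.ok G = true) :
    Hd (val S) (f.cl G) := by
  cases f with
  | initX r k l x =>
    simp only [CI.ok, Bool.and_eq_true, lt_iff] at h
    obtain ⟨⟨h1, h2⟩, h3⟩ := h
    have f : S.X 0 r k l ↔ S.I r k l := by
      by_cases hr : r < G.R
      · exact F.initX r hr k h2 l h3
      · exact F.initY r (by omega) h1 k h2 l h3
    delta CI.cl
    dsimp only
    split
    · simp (disch := omega) only [hd_ng, hd_ps, hd_nil, val_X, val_I]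
      exact fun a b => b (f.1 a)
    · simp (disch := omega) only [hd_ng, hd_ps, hd_nil, val_X, val_I]
      exact fun a b => a (f.2 b)
  | initn r j k x =>
    simp only [CI.ok, Bool.and_eq_true, lt_iff] at h
    obtain ⟨⟨h1, h2⟩, h3⟩ := h
    have f := F.initn r h1 j h2 k h3
    have hs := hG r h1 j (by omega)
    delta CI.cl
    dsimp only
    split
    · simp (disch := omega) only [hd_ng, hd_ps, hd_nil, val_n, val_J]
      exact fun a b => b (f.1 a)
    · simp (disch := omega) only [hd_ng, hd_ps, hd_nil, val_n, val_J]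
      exact fun a b => a (f.2 b)
  | M0 r j k =>
    simp only [CI.ok, Bool.and_eq_true, lt_iff] at h
    obtain ⟨⟨h1, h2⟩, h3⟩ := h
    have hs := hG r h1 j (by omega)
    simp (disch := omega) only [CI.cl, hd_ng, hd_nil, val_M]
    exact F.M0 r h1 j h2 k h3
  | g0 r j =>
    simp only [CI.ok, Bool.and_eq_true, lt_iff] at h
    simp (disch := omega) only [CI.cl, hd_ng, hd_nil, val_g]
    exact F.g0 r h.1 j h.2
  | cnt0 r a j =>
    simp only [CI.ok, Bool.and_eq_true, lt_iff] at h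
    obtain ⟨⟨h1, h2⟩, h3⟩ := h
    simp (disch := omega) only [CI.cl, hd_ng, hd_nil, val_N]
    exact F.cnt0 r h1 a h2 j h3
  | done0 r s =>
    simp only [CI.ok, Bool.and_eq_true, lt_iff] at h
    obtain ⟨⟨h1, h2⟩, h3⟩ := h
    simp (disch := omega) only [CI.cl, hd_ng, hd_nil, val_dn]
    exact F.done0 r h1 s h2
  | first =>
    simp (disch := omega) only [CI.cl, hd_ps, hd_nil, val_F]
    exact fun a => a F.first
  | initF r p k x =>
    simp only [CI.ok, Bool.and_eq_true, lt_iff] at h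
    obtain ⟨⟨⟨h1, h2⟩, h3⟩, h4⟩ := h
    have f := F.initF r h1 p h2 h3 k h4
    delta CI.cl
    dsimp only
    split
    · simp (disch := omega) only [hd_ng, hd_ps, hd_nil, val_ty, val_ti]
      exact fun a b => b (f.1 a)
    · simp (disch := omega) only [hd_ng, hd_ps, hd_nil, val_ty, val_ti]
      exact fun a b => a (f.2 b)

/-- **the clauses about the end hold** -/
theorem CB.sound (hG : Good G) (F : BF G S) {f : CB} (h : f.ok G = true) :
    Hd (val S) (f.cl G) := by
  cases f with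
  | closeX r k l x =>
    simp only [CB.ok, Bool.and_eq_true, lt_iff] at h
    obtain ⟨⟨h1, h2⟩, h3⟩ := h
    have f : S.X 0 r k l ↔ S.I r ((k + 1) % 6) l := by
      by_cases hr : r < G.R
      · exact F.closeX r hr k h2 l h3
      · exact F.closeY r (by omega) h1 k h2 l h3
    delta CB.cl
    dsimp only
    split
    · simp (disch := omega) only [hd_ng, hd_ps, hd_nil, val_X, val_I]
      exact fun a b => b (f.1 a)
    · simp (disch := omega) only [hd_ng, hd_ps, hd_nil, val_X, val_I]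
      exact fun a b => a (f.2 b)
  | closen r j k x =>
    simp only [CB.ok, Bool.and_eq_true, lt_iff] at h
    obtain ⟨⟨h1, h2⟩, h3⟩ := h
    have f := F.closen r h1 j h2 k h3
    have hs := hG r h1 j (by omega)
    delta CB.cl
    dsimp only
    split
    · simp (disch := omega) only [hd_ng, hd_ps, hd_nil, val_n, val_J]
      exact fun a b => b (f.1 a)
    · simp (disch := omega) only [hd_ng, hd_ps, hd_nil, val_n, val_J]
      exact fun a b => a (f.2 b)
  | cntend1 r a =>
    simp only [CB.ok, Bool.and_eq_true, lt_iff] at h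
    obtain ⟨⟨⟨h1, h2⟩, h3⟩, h4⟩ := h
    simp (disch := omega) only [CB.cl, hd_ps, hd_nil, val_N]
    exact fun f => f (F.cntend1 r h1 a h2 (by omega) (by omega))
  | cntend2 r a =>
    simp only [CB.ok, Bool.and_eq_true, lt_iff, beq_iff] at h
    obtain ⟨⟨h1, h2⟩, h3⟩ := h
    simp (disch := omega) only [CB.cl, hd_ps, hd_nil, val_N]
    exact fun f => f (F.cntend2 r h1 a h2 h3)
  | cntend r a =>
    simp only [CB.ok, Bool.and_eq_true, lt_iff, beq_iff] at h
    obtain ⟨⟨h1, h2⟩, h3⟩ := h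
    simp (disch := omega) only [CB.cl, hd_ng, hd_ps, hd_nil, val_N, val_P]
    exact fun a b c => c (F.cntend r h1 _ h2 h3 a b)
  | doneend r s =>
    simp only [CB.ok, Bool.and_eq_true, lt_iff, beq_iff] at h
    obtain ⟨⟨⟨⟨h1, h2⟩, h3⟩, h4⟩, h5⟩ := h
    simp (disch := omega) only [CB.cl, hd_ps, hd_nil, val_dn]
    exact fun a => a (F.doneend r h1 s h2 h3 h4)
  | first =>
    simp (disch := omega) only [CB.cl, hd_ng, hd_nil, val_F]
    exact F.first
  | closeF r p k x =>
    simp only [CB.ok, Bool.and_eq_true, lt_iff] at h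
    obtain ⟨⟨⟨h1, h2⟩, h3⟩, h4⟩ := h
    have f := F.closeF r h1 p h2 h3 k h4
    delta CB.cl
    dsimp only
    split
    · simp (disch := omega) only [hd_ng, hd_ps, hd_nil, val_X, val_ty, val_ti]
      exact fun a b c => c ((f a).1 b)
    · simp (disch := omega) only [hd_ng, hd_ps, hd_nil, val_X, val_ty, val_ti]
      exact fun a b c => b ((f a).2 c)

end Vale.Agent.P032.R2.H741.Tp
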