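import Vale.Agent.P032.R2.H741.TpC

/-!
# P032: auxiliary lemmas for the soundness of the clauses
-/

set_option autoImplicit false

namespace Vale.Agent.P032.R2.H741.Tp

open Vale.Agent.P032.R2.H805.Rup (Lit)

theorem Good.lt {G : RD} (h : Good G) {r j : ℕ} (hr : r < G.R) (hj : j < 6) : G.sg r j < 6 :=
  h r hr j hj

theorem beq_iff {a b : ℕ} : Nat.beq a b = true ↔ a = b :=
  ⟨Nat.eq_of_beq_eq_true, fun h => h ▸ Nat.beq_refl a⟩

theorem beq_ff {a b : ℕ} : Nat.beq a b = false ↔ a ≠ b := by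
  rw [← Bool.not_eq_true, beq_iff]

theorem o5_iff {s : ℕ} : o5 s = true ↔ s = 1 ∨ s = 5 := by
  unfold o5
  rw [Bool.or_eq_true, beq_iff, beq_iff]

theorem iq_iff {i q : ℕ} : iq i q = true ↔ i < 2 ∧ 2 ≤ q ∧ q < 4 := by
  unfold iq
  rw [Bool.and_eq_true, Bool.and_eq_true, lt_iff, lt_iff, lt_iff]
  omega

theorem aj_iff {G : RD} {r s : ℕ} :
    aj G r s = true ↔ r < G.R ∧ s < G.R ∧ (G.adj r s || G.adj s r) = true := by
  unfold aj
  rw [Bool.and_eq_true, Bool.and_eq_true, lt_iff, lt_iff, and_assoc]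

section
variable {v : ℕ → Prop} {L : List ℕ}

theorem hd_left {c d : List ℕ} (h : Hd v c) : Hd v (c ++ d) := hd_append.2 (Or.inl h)

theorem hd_right {c d : List ℕ} (h : Hd v d) : Hd v (c ++ d) := hd_append.2 (Or.inr h)

/-- positive literals of a selection -/
theorem sel_pos {P : ℕ → Bool} {f : ℕ → ℕ}
    (h : (∀ i < 6, v (f i) → P i = false) → Hd v L) : Hd v (sel P (fun i => ps (f i)) ++ L) := by
  by_cases h1 : ∀ i < 6, v (f i) → P i = false
  · exact hd_right (h h1)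
  · push Not at h1
    obtain ⟨i, hi, h2, h3⟩ := h1
    exact hd_left (hd_sel.2 ⟨i, hi, by simpa using h3, lit_ps.2 h2⟩)

/-- negative literals of a selection -/
theorem sel_neg {P : ℕ → Bool} {f : ℕ → ℕ}
    (h : (∀ i < 6, P i = true → v (f i)) → Hd v L) : Hd v (sel P (fun i => ng (f i)) ++ L) := by
  by_cases h1 : ∀ i < 6, P i = true → v (f i)
  · exact hd_right (h h1)
  · push Not at h1
    obtain ⟨i, hi, h2, h3⟩ := h1
    exact hd_left (hd_sel.2 ⟨i, hi, h2, lit_ng.2 h3⟩)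

/-- a face clause -/
theorem hd_fc {p u : ℕ → ℕ} {A B t : ℕ}
    (h : (∀ i < 6, v (p i) → i = t ∨ v (u i)) →
      (∀ i < 6, v (u i) → i ∈ (six.filter (tb B)).toFinset) → Hd v L) :
    Hd v (fc p u A B t ++ L) := by
  unfold fc
  rw [List.append_assoc, List.append_assoc]
  refine sel_pos fun h1 => sel_neg fun h2 => sel_pos fun h3 => h ?_ ?_
  · intro i hi hp
    have h4 := h1 i hi hp
    simp only [Bool.not_eq_false', Bool.or_eq_true, beq_iff] at h4
    rcases h4 with h4 | h4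
    · exact Or.inr (h2 i hi h4)
    · exact Or.inl h4
  · intro i hi hu
    have h4 := h3 i hi hu
    simp only [Bool.not_eq_false'] at h4
    exact mem_small.2 ⟨hi, h4⟩

end

section
variable {G : RD} {S : Sem} {r s k a j i : ℕ}

/-- exceptions -/
theorem off_or (h8 : max r s < 8) : Off S r s j ∨ Hd (val S) (exc r s j) := by
  unfold exc Off
  have e1 : val S (act (min r s) (max r s) (j % 6)) = S.ct (min r s) (max r s) (j % 6) :=
    val_ct h8 (Nat.mod_lt _ (by omega))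
  have e2 : val S (act (min r s) (max r s) ((j + 3) % 6)) =
      S.ct (min r s) (max r s) ((j + 3) % 6) := val_ct h8 (Nat.mod_lt _ (by omega))
  rw [hd_ps, hd_ps, hd_nil, e1, e2]
  tauto

/-- the contact variable -/
theorem val_cta (hr : r < 8) (hs : s < 8) (hk : k < 6) :
    val S (cta r s k) = CT G S r s k := by
  unfold cta CT
  split_ifs
  · exact val_ct hs hk
  · exact val_ct hr (Nat.mod_lt _ (by omega))

/-- the palette -/
theorem hd_nis (hk : k < 6) : Hd (val S) (nis G r k a) ↔ ¬ IsT G S r k a := by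
  unfold nis IsT
  rw [hd_map]
  constructor
  · rintro ⟨i, hi, h⟩ h2
    rw [mem_six] at hi
    have h3 := h2 i hi
    by_cases hm : i ∈ tc G r a
    · rw [if_pos (inl_iff.2 hm), lit_ng, val_C hk hi] at h
      exact h (h3.2 hm)
    · rw [if_neg (fun h5 => hm (inl_iff.1 h5)), lit_ps, val_C hk hi] at h
      exact hm (h3.1 h)
  · intro h
    push Not at h
    obtain ⟨i, hi, h2⟩ := h
    refine ⟨i, mem_six.2 hi, ?_⟩
    by_cases hm : i ∈ tc G r a
    · rw [if_pos (inl_iff.2 hm), lit_ng, val_C hk hi]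
      intro h4
      rcases h2 with h2 | h2
      · exact h2.2 hm
      · exact h2.1 h4
    · rw [if_neg (fun h5 => hm (inl_iff.1 h5)), lit_ps, val_C hk hi]
      rcases h2 with h2 | h2
      · exact h2.1
      · exact absurd h2.2 hm

/-- the atom `E` or the palette -/
theorem hd_lst (F : TF G S) {b : ℕ} (hr : r < G.R) (ha : a < 4) (hk : k < 6) :
    Hd (val S) (lst G b r k a) ↔ ¬ S.E r a k := by
  unfold lst
  split_ifs with hb
  · rw [hd_ng, hd_nil, val_E ha hk]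
  · rw [hd_nis hk, F.E r hr a ha k hk]
    push Not at hb
    tauto

/-- the positions with the atom `E` -/
theorem hd_es {x : ℕ} (ha : a < 4) :
    Hd (val S) (es r a x) ↔ ∃ k < 6, k ≠ x ∧ S.E r a k := by
  unfold es
  rw [hd_sel]
  constructor
  · rintro ⟨k, hk, h1, h2⟩
    rw [lit_ps, val_E ha hk] at h2
    simp only [Bool.not_eq_true', beq_ff] at h1
    exact ⟨k, hk, h1, h2⟩
  · rintro ⟨k, hk, h1, h2⟩
    refine ⟨k, hk, by simpa only [Bool.not_eq_true', beq_ff] using h1, ?_⟩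
    rw [lit_ps, val_E ha hk]
    exact h2

theorem hd_pick {b : Bool} {c : ℕ} : Hd (val S) [pick b c] ↔ (b = true ↔ val S c) := by
  unfold pick
  cases b
  · simp [hd_ng, hd_nil]
  · simp [hd_ps, hd_nil]

end

/-! ### numbers of positions -/

section
variable {E : ℕ → Prop}

theorem fin_pos : {k : ℕ | k < 6 ∧ E k}.Finite := (Set.finite_lt_nat 6).subset fun _ h => h.1

theorem pos_one {k : ℕ} (hk : k < 6) (h : E k) : 1 ≤ {k : ℕ | k < 6 ∧ E k}.ncard := by
  rw [← Set.ncard_singleton k]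
  exact Set.ncard_le_ncard (by rintro _ rfl; exact ⟨hk, h⟩) fin_pos

theorem pos_two {k m : ℕ} (hk : k < 6) (hm : m < 6) (hkm : k ≠ m) (h : E k) (h' : E m) :
    2 ≤ {k : ℕ | k < 6 ∧ E k}.ncard := by
  rw [← Set.ncard_pair hkm]
  refine Set.ncard_le_ncard ?_ fin_pos
  rintro x (rfl | rfl)
  · exact ⟨hk, h⟩
  · exact ⟨hm, h'⟩

theorem pos_three {k m n : ℕ} (hk : k < 6) (hm : m < 6) (hn : n < 6) (hkm : k ≠ m) (hkn : k ≠ n)
    (hmn : m ≠ n) (h : E k) (h' : E m) (h'' : E n) : 3 ≤ {k : ℕ | k < 6 ∧ E k}.ncard := by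
  have e : ({k, m, n} : Set ℕ).ncard = 3 := by
    rw [Set.ncard_insert_of_notMem (by simp [hkm, hkn]), Set.ncard_pair hmn]
  rw [← e]
  refine Set.ncard_le_ncard ?_ fin_pos
  rintro x (rfl | rfl | rfl)
  · exact ⟨hk, h⟩
  · exact ⟨hm, h'⟩
  · exact ⟨hn, h''⟩

theorem one_pos (h : 1 ≤ {k : ℕ | k < 6 ∧ E k}.ncard) : ∃ k < 6, E k := by
  obtain ⟨k, hk⟩ := Set.nonempty_of_ncard_ne_zero (by omega : {k : ℕ | k < 6 ∧ E k}.ncard ≠ 0)
  exact ⟨k, hk.1, hk.2⟩

theorem two_pos {x : ℕ} (h : 2 ≤ {k : ℕ | k < 6 ∧ E k}.ncard) : ∃ k < 6, k ≠ x ∧ E k := by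
  obtain ⟨k, hk, hx⟩ :=
    Set.exists_ne_of_one_lt_ncard (show 1 < {k : ℕ | k < 6 ∧ E k}.ncard by omega) x
  exact ⟨k, hk.1, hx, hk.2⟩

end

end Vale.Agent.P032.R2.H741.Tp
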