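import Vale.Agent.P032.R2.H741.TpH0

/-!
# P032: soundness of the clauses, letters and palettes
-/

set_option autoImplicit false
set_option linter.unusedSimpArgs false

namespace Vale.Agent.P032.R2.H741.Tp

open Vale.Agent.P032.R2.H805.Rup (Lit)

variable {G : RD} {S : Sem}

namespace CL

theorem h_some (F : TF G S) {r k : ℕ} (h : (CL.some r k).ok G = true) :
    Hd (val S) ((CL.some r k).cl G) := by
  simp only [CL.ok, Bool.and_eq_true, Bool.or_eq_true, Bool.not_eq_true', lt_iff, beq_iff,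
    beq_ff, o5_iff, iq_iff, yk_iff, inl_iff] at h
  obtain ⟨h1, h2⟩ := h
  have := F.some r h1 k h2
  simp (disch := omega) only [CL.cl, hd_ps, hd_nil, val_X]
  tauto

theorem h_uniq (F : TF G S) {r k l m : ℕ} (h : (CL.uniq r k l m).ok G = true) :
    Hd (val S) ((CL.uniq r k l m).cl G) := by
  simp only [CL.ok, Bool.and_eq_true, Bool.or_eq_true, Bool.not_eq_true', lt_iff, beq_iff,
    beq_ff, o5_iff, iq_iff, yk_iff, inl_iff] at h
  obtain ⟨⟨⟨⟨h1, h2⟩, h3⟩, h4⟩, h5⟩ := h
  simp (disch := omega) only [CL.cl, hd_ng, hd_nil, val_X]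
  exact fun a b => h5 (F.uniq r h1 k h2 l h3 m h4 a b)

theorem h_legal (F : TF G S) {r k l : ℕ} (h : (CL.legal r k l).ok G = true) :
    Hd (val S) ((CL.legal r k l).cl G) := by
  simp only [CL.ok, Bool.and_eq_true, Bool.or_eq_true, Bool.not_eq_true', lt_iff, beq_iff,
    beq_ff, o5_iff, iq_iff, yk_iff, inl_iff] at h
  obtain ⟨⟨h1, h2⟩, h3⟩ := h
  simp (disch := omega) only [CL.cl, hd_ng, hd_nil, val_X]
  exact F.legal r h1 k h2 l h3

theorem h_legal2 (F : TF G S) {r s k l m : ℕ} (h : (CL.legal2 r s k l m).ok G = true) :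
    Hd (val S) ((CL.legal2 r s k l m).cl G) := by
  simp only [CL.ok, Bool.and_eq_true, Bool.or_eq_true, Bool.not_eq_true', lt_iff, beq_iff,
    beq_ff, o5_iff, iq_iff, yk_iff, inl_iff] at h
  obtain ⟨⟨⟨⟨⟨⟨h1, h2⟩, h3⟩, h4⟩, h5⟩, h6⟩, h7⟩ := h
  simp (disch := omega) only [CL.cl, hd_ng, hd_nil, val_X]
  unfold com at h7
  rw [List.any_eq_true] at h7
  obtain ⟨i, hi, hi'⟩ := h7
  exact F.legal2 r h1 s h2 h6 k h3 l h4 m h5 i hi (inl_iff.1 hi')

theorem h_LC (hG : Good G) (F : TF G S) {t r k l i : ℕ} (h : (CL.LC t r k l i).ok G = true) :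
    Hd (val S) ((CL.LC t r k l i).cl G) := by
  simp only [CL.ok, Bool.and_eq_true, Bool.or_eq_true, Bool.not_eq_true', lt_iff, beq_iff,
    beq_ff, o5_iff, iq_iff, yk_iff, inl_iff] at h
  obtain ⟨⟨⟨⟨h1, h2⟩, h3⟩, h4⟩, h5⟩ := h
  have hi := lc_lt hG h2 h5
  simp (disch := omega) only [CL.cl, hd_ng, hd_ps, hd_nil, val_X, val_C]
  exact fun a b => b (F.LC t h1 r h2 k h3 l h4 i h5 a)

theorem h_le4 (F : TF G S) {r k j : ℕ} (h : (CL.le4 r k j).ok G = true) :
    Hd (val S) ((CL.le4 r k j).cl G) := by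
  simp only [CL.ok, Bool.and_eq_true, Bool.or_eq_true, Bool.not_eq_true', lt_iff, beq_iff,
    beq_ff, o5_iff, iq_iff, yk_iff, inl_iff] at h
  obtain ⟨⟨h1, h2⟩, h3⟩ := h
  obtain ⟨i, hi, hj, hc⟩ := F.le4 r h1 k h2 j h3
  refine hd_sel.2 ⟨i, hi, by simpa only [Bool.not_eq_true', beq_ff] using hj, ?_⟩
  rw [lit_ng, val_C h2 hi]
  exact hc

theorem h_isb {x0 x1 x2 x3 x : ℕ} {v : ℕ → Prop} (h : (v x0 ↔ v x1) ∧ (v x2 ↔ v x3) ∧
    ¬ (v x0 ∧ v x2)) : Hd v (isb x0 x1 x2 x3 x) := by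
  unfold isb
  split <;> simp only [hd_ps, hd_ng, hd_nil] <;> tauto

theorem h_inside (hG : Good G) (F : TF G S) {r k w : ℕ} (h : (CL.inside r k w).ok G = true) :
    Hd (val S) ((CL.inside r k w).cl G) := by
  simp only [CL.ok, Bool.and_eq_true, Bool.or_eq_true, Bool.not_eq_true', lt_iff, beq_iff,
    beq_ff, o5_iff, iq_iff, yk_iff, inl_iff] at h
  obtain ⟨h1, h2⟩ := h
  have f := F.inside r h1 k h2
  rw [CL.cl, hd_ps, hd_ps, val_C h2 (hG r h1 4 (by omega)), val_C h2 (hG r h1 5 (by omega))]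
  intro a b
  apply h_isb
  rw [val_C h2 (hG r h1 0 (by omega)), val_C h2 (hG r h1 1 (by omega)),
    val_C h2 (hG r h1 2 (by omega)), val_C h2 (hG r h1 3 (by omega))]
  exact f a b

theorem h_insideM (hG : Good G) (F : TF G S) {r k i q : ℕ} (h : (CL.insideM r k i q).ok G = true) :
    Hd (val S) ((CL.insideM r k i q).cl G) := by
  simp only [CL.ok, Bool.and_eq_true, Bool.or_eq_true, Bool.not_eq_true', lt_iff, beq_iff,
    beq_ff, o5_iff, iq_iff, yk_iff, inl_iff] at h
  obtain ⟨⟨h1, h2⟩, h3, h4, h5⟩ := h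
  have f := F.inside r h1 k h2
  rw [CL.cl]
  simp (disch := first | omega | exact hG.lt (by omega) (by omega)) only [hd_ng, hd_ps, hd_nil,
      val_X, val_C, val_Q, val_H, val_D, val_n, val_M, val_g, val_I, val_J, val_N, val_E, val_ct,
      val_dn, val_F, val_P, val_U, val_V, val_ty, val_ti]
  intro a b c d
  obtain ⟨f1, f2, f3⟩ := f a b
  have e1 : i = 0 ∨ i = 1 := by omega
  have e2 : q = 2 ∨ q = 3 := by omega
  rcases e1 with rfl | rfl <;> rcases e2 with rfl | rfl <;> tauto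

theorem h_q4i (F : TF G S) {r k i j m n : ℕ} (h : (CL.q4i r k i j m n).ok G = true) :
    Hd (val S) ((CL.q4i r k i j m n).cl G) := by
  simp only [CL.ok, Bool.and_eq_true, Bool.or_eq_true, Bool.not_eq_true', lt_iff, beq_iff,
    beq_ff, o5_iff, iq_iff, yk_iff, inl_iff] at h
  obtain ⟨⟨⟨⟨⟨h1, h2⟩, h3⟩, h4⟩, h5⟩, h6⟩ := h
  simp (disch := omega) only [CL.cl, hd_ng, hd_ps, hd_nil, val_C, val_Q]
  exact fun a b c d e => e (F.q4i r h1 k h2 i j m n h3 h4 h5 h6 a b c d)

theorem h_q4e (hG : Good G) (F : TF G S) {r k b : ℕ} (h : (CL.q4e r k b).ok G = true) :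
    Hd (val S) ((CL.q4e r k b).cl G) := by
  simp only [CL.ok, Bool.and_eq_true, Bool.or_eq_true, Bool.not_eq_true', lt_iff, beq_iff,
    beq_ff, o5_iff, iq_iff, yk_iff, inl_iff] at h
  obtain ⟨⟨h1, h2⟩, h3⟩ := h
  rw [CL.cl]
  simp (disch := first | omega | exact hG.lt (by omega) (by omega)) only [hd_ng, hd_ps, hd_nil,
      val_X, val_C, val_Q, val_H, val_D, val_n, val_M, val_g, val_I, val_J, val_N, val_E, val_ct,
      val_dn, val_F, val_P, val_U, val_V, val_ty, val_ti]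
  intro a e
  have f := F.q4e r h1 k h2 a
  have e1 : b = 0 ∨ b = 1 := by omega
  rcases e1 with rfl | rfl
  · exact e f.1
  · exact e f.2

theorem h_q4ge (F : TF G S) {r k i j m : ℕ} (h : (CL.q4ge r k i j m).ok G = true) :
    Hd (val S) ((CL.q4ge r k i j m).cl G) := by
  simp only [CL.ok, Bool.and_eq_true, Bool.or_eq_true, Bool.not_eq_true', lt_iff, beq_iff,
    beq_ff, o5_iff, iq_iff, yk_iff, inl_iff] at h
  obtain ⟨⟨⟨⟨h1, h2⟩, h3⟩, h4⟩, h5⟩ := h
  simp (disch := omega) only [CL.cl, hd_ng, hd_ps, hd_nil, val_C, val_Q]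
  intro a b c d
  have f := F.q4ge r h1 k h2 a i j m h3 h4 h5
  tauto

theorem h_dQ (F : TF G S) {r k w : ℕ} (h : (CL.dQ r k w).ok G = true) :
    Hd (val S) ((CL.dQ r k w).cl G) := by
  simp only [CL.ok, Bool.and_eq_true, Bool.or_eq_true, Bool.not_eq_true', lt_iff, beq_iff,
    beq_ff, o5_iff, iq_iff, yk_iff, inl_iff] at h
  obtain ⟨⟨h1, h2⟩, h3⟩ := h
  simp (disch := omega) only [CL.cl, hd_ng, hd_ps, hd_nil, val_D, val_Q]
  exact fun a b => b (F.dQ r h1 k h2 w h3 a)

theorem inD_iff {r w i : ℕ} : inD G r w i = true ↔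
    i = pc G r w 0 ∨ i = pc G r w 1 ∨ i = pc G r w 2 ∨ i = pc G r w 3 := by
  unfold inD
  simp only [Bool.or_eq_true, beq_iff, or_assoc]

theorem h_dC (F : TF G S) {r k w i : ℕ} (h : (CL.dC r k w i).ok G = true) :
    Hd (val S) ((CL.dC r k w i).cl G) := by
  simp only [CL.ok, Bool.and_eq_true, Bool.or_eq_true, Bool.not_eq_true', lt_iff, beq_iff,
    beq_ff, o5_iff, iq_iff, yk_iff, inl_iff] at h
  obtain ⟨⟨⟨h1, h2⟩, h3⟩, h4⟩ := h
  rw [CL.cl, hd_ng, hd_pick, val_D h2 h3, val_C h2 h4, inD_iff]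
  exact fun a => (F.dC r h1 k h2 w h3 a i h4).symm

theorem h_dd (F : TF G S) {r k w w' : ℕ} (h : (CL.dd r k w w').ok G = true) :
    Hd (val S) ((CL.dd r k w w').cl G) := by
  simp only [CL.ok, Bool.and_eq_true, Bool.or_eq_true, Bool.not_eq_true', lt_iff, beq_iff,
    beq_ff, o5_iff, iq_iff, yk_iff, inl_iff] at h
  obtain ⟨⟨⟨⟨h1, h2⟩, h3⟩, h4⟩, h5⟩ := h
  simp (disch := omega) only [CL.cl, hd_ng, hd_ps, hd_nil, val_D]
  exact fun a b => F.dd r h1 k h2 w h3 w' h4 h5 a b

theorem h_dH (F : TF G S) {r k w : ℕ} (h : (CL.dH r k w).ok G = true) :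
    Hd (val S) ((CL.dH r k w).cl G) := by
  simp only [CL.ok, Bool.and_eq_true, Bool.or_eq_true, Bool.not_eq_true', lt_iff, beq_iff,
    beq_ff, o5_iff, iq_iff, yk_iff, inl_iff] at h
  obtain ⟨⟨h1, h2⟩, h3⟩ := h
  simp (disch := omega) only [CL.cl, hd_ng, hd_ps, hd_nil, val_D, val_H]
  exact fun a b => F.dH r h1 k h2 w h3 a b

theorem h_hQ (F : TF G S) {r k : ℕ} (h : (CL.hQ r k).ok G = true) :
    Hd (val S) ((CL.hQ r k).cl G) := by
  simp only [CL.ok, Bool.and_eq_true, Bool.or_eq_true, Bool.not_eq_true', lt_iff, beq_iff,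
    beq_ff, o5_iff, iq_iff, yk_iff, inl_iff] at h
  obtain ⟨h1, h2⟩ := h
  simp (disch := omega) only [CL.cl, hd_ng, hd_ps, hd_nil, val_Q, val_H]
  exact fun a b => b (F.hQ r h1 k h2 a)

theorem h_q4cases (F : TF G S) {r k : ℕ} (h : (CL.q4cases r k).ok G = true) :
    Hd (val S) ((CL.q4cases r k).cl G) := by
  simp only [CL.ok, Bool.and_eq_true, Bool.or_eq_true, Bool.not_eq_true', lt_iff, beq_iff,
    beq_ff, o5_iff, iq_iff, yk_iff, inl_iff] at h
  obtain ⟨h1, h2⟩ := h
  rw [CL.cl, hd_ng, hd_ps, hd_map, val_Q h2, val_H h2]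
  intro a b
  rcases F.q4cases r h1 k h2 a with f | ⟨w, hw, f⟩
  · exact absurd f b
  · refine ⟨w, ?_, ?_⟩
    · simp only [List.mem_cons, List.not_mem_nil, or_false]
      omega
    · rw [lit_ps, val_D h2 hw]
      exact f

theorem h_notri (F : TF G S) {r k : ℕ} (h : (CL.notri r k).ok G = true) :
    Hd (val S) ((CL.notri r k).cl G) := by
  simp only [CL.ok, Bool.and_eq_true, Bool.or_eq_true, Bool.not_eq_true', lt_iff, beq_iff,
    beq_ff, o5_iff, iq_iff, yk_iff, inl_iff] at h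
  obtain ⟨h1, h2⟩ := h
  simp (disch := omega) only [CL.cl, hd_ng, hd_ps, hd_nil, val_Q]
  exact fun a b => F.notri r h1 k h2 a b

theorem h_swap4 (hG : Good G) (F : TF G S) {r k s : ℕ} (h : (CL.swap4 r k s).ok G = true) :
    Hd (val S) ((CL.swap4 r k s).cl G) := by
  simp only [CL.ok, Bool.and_eq_true, Bool.or_eq_true, Bool.not_eq_true', lt_iff, beq_iff,
    beq_ff, o5_iff, iq_iff, yk_iff, inl_iff] at h
  obtain ⟨⟨h1, h2⟩, h3⟩ := h
  rw [CL.cl]
  simp (disch := first | omega | exact hG.lt (by omega) (by omega)) only [hd_ng, hd_ps, hd_nil,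
      val_X, val_C, val_Q, val_H, val_D, val_n, val_M, val_g, val_I, val_J, val_N, val_E, val_ct,
      val_dn, val_F, val_P, val_U, val_V, val_ty, val_ti]
  intro a b c
  have f := F.swap4 r h1 k h2 s h3 a b c
  tauto

theorem h_flanksame (hG : Good G) (F : TF G S) {r k s p x : ℕ}
    (h : (CL.flanksame r k s p x).ok G = true) : Hd (val S) ((CL.flanksame r k s p x).cl G) := by
  simp only [CL.ok, Bool.and_eq_true, Bool.or_eq_true, Bool.not_eq_true', lt_iff, beq_iff,
    beq_ff, o5_iff, iq_iff, yk_iff, inl_iff] at h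
  obtain ⟨⟨⟨h1, h2⟩, h3⟩, h4⟩ := h
  have f := F.flanksame r h1 k h2 s h3 p h4
  delta CL.cl
  dsimp only
  split
  · simp (disch := first | omega | exact hG.lt (by omega) (by omega)) only [hd_ng, hd_ps, hd_nil,
      val_X, val_C, val_Q, val_H, val_D, val_n, val_M, val_g, val_I, val_J, val_N, val_E, val_ct,
      val_dn, val_F, val_P, val_U, val_V, val_ty, val_ti]
    intro a b c
    have f' := f a b c
    tauto
  · simp (disch := first | omega | exact hG.lt (by omega) (by omega)) only [hd_ng, hd_ps, hd_nil,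
      val_X, val_C, val_Q, val_H, val_D, val_n, val_M, val_g, val_I, val_J, val_N, val_E, val_ct,
      val_dn, val_F, val_P, val_U, val_V, val_ty, val_ti]
    intro a b c
    have f' := f a b c
    tauto
  · simp (disch := first | omega | exact hG.lt (by omega) (by omega)) only [hd_ng, hd_ps, hd_nil,
      val_X, val_C, val_Q, val_H, val_D, val_n, val_M, val_g, val_I, val_J, val_N, val_E, val_ct,
      val_dn, val_F, val_P, val_U, val_V, val_ty, val_ti]
    intro a b c
    have f' := f a b c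
    tauto
  · simp (disch := first | omega | exact hG.lt (by omega) (by omega)) only [hd_ng, hd_ps, hd_nil,
      val_X, val_C, val_Q, val_H, val_D, val_n, val_M, val_g, val_I, val_J, val_N, val_E, val_ct,
      val_dn, val_F, val_P, val_U, val_V, val_ty, val_ti]
    intro a b c
    have f' := f a b c
    tauto

theorem h_flank4 (hG : Good G) (F : TF G S) {r k s w : ℕ}
    (h : (CL.flank4 r k s w).ok G = true) : Hd (val S) ((CL.flank4 r k s w).cl G) := by
  simp only [CL.ok, Bool.and_eq_true, Bool.or_eq_true, Bool.not_eq_true', lt_iff, beq_iff,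
    beq_ff, o5_iff, iq_iff, yk_iff, inl_iff] at h
  obtain ⟨⟨⟨h1, h2⟩, h3⟩, h4⟩ := h
  rw [CL.cl]
  simp (disch := first | omega | exact hG.lt (by omega) (by omega)) only [hd_ng, hd_ps, hd_nil,
      val_X, val_C, val_Q, val_H, val_D, val_n, val_M, val_g, val_I, val_J, val_N, val_E, val_ct,
      val_dn, val_F, val_P, val_U, val_V, val_ty, val_ti]
  intro a b c
  exact F.flank4 r h1 k h2 s h3 w h4 a ⟨b, c⟩

theorem h_flankr (hG : Good G) (F : TF G S) {r k s i q x : ℕ}
    (h : (CL.flankr r k s i q x).ok G = true) : Hd (val S) ((CL.flankr r k s i q x).cl G) := by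
  simp only [CL.ok, Bool.and_eq_true, Bool.or_eq_true, Bool.not_eq_true', lt_iff, beq_iff,
    beq_ff, o5_iff, iq_iff, yk_iff, inl_iff] at h
  obtain ⟨⟨⟨h1, h2⟩, h3⟩, h4, h5, h6⟩ := h
  have f := F.flankr r h1 k h2 s h3 i h4 q h5 h6
  have hw : rq i q < 16 := by unfold rq; omega
  have hd : ∀ L : List ℕ, (S.D r k (rq i q) → Hd (val S) L) → Hd (val S) (ng (aD r k (rq i q)) :: L) :=
    fun L hL => by rw [hd_ng, val_D h2 hw]; exact hL
  delta CL.cl
  dsimp only
  refine hd _ fun a => ?_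
  have f' := f a
  split
  · simp (disch := first | omega | exact hG.lt (by omega) (by omega)) only [hd_ng, hd_ps, hd_nil,
      val_X, val_C, val_Q, val_H, val_D, val_n, val_M, val_g, val_I, val_J, val_N, val_E, val_ct,
      val_dn, val_F, val_P, val_U, val_V, val_ty, val_ti]
    tauto
  · simp (disch := first | omega | exact hG.lt (by omega) (by omega)) only [hd_ng, hd_ps, hd_nil,
      val_X, val_C, val_Q, val_H, val_D, val_n, val_M, val_g, val_I, val_J, val_N, val_E, val_ct,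
      val_dn, val_F, val_P, val_U, val_V, val_ty, val_ti]
    tauto
  · simp (disch := first | omega | exact hG.lt (by omega) (by omega)) only [hd_ng, hd_ps, hd_nil,
      val_X, val_C, val_Q, val_H, val_D, val_n, val_M, val_g, val_I, val_J, val_N, val_E, val_ct,
      val_dn, val_F, val_P, val_U, val_V, val_ty, val_ti]
    tauto
  · simp (disch := first | omega | exact hG.lt (by omega) (by omega)) only [hd_ng, hd_ps, hd_nil,
      val_X, val_C, val_Q, val_H, val_D, val_n, val_M, val_g, val_I, val_J, val_N, val_E, val_ct,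
      val_dn, val_F, val_P, val_U, val_V, val_ty, val_ti]
    tauto
  · simp (disch := first | omega | exact hG.lt (by omega) (by omega)) only [hd_ng, hd_ps, hd_nil,
      val_X, val_C, val_Q, val_H, val_D, val_n, val_M, val_g, val_I, val_J, val_N, val_E, val_ct,
      val_dn, val_F, val_P, val_U, val_V, val_ty, val_ti]
    tauto

theorem h_s4word (F : TF G S) {r k w x : ℕ}
    (h : (CL.s4word r k w x).ok G = true) : Hd (val S) ((CL.s4word r k w x).cl G) := by
  simp only [CL.ok, Bool.and_eq_true, Bool.or_eq_true, Bool.not_eq_true', lt_iff, beq_iff,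
    beq_ff, o5_iff, iq_iff, yk_iff, inl_iff] at h
  obtain ⟨⟨h1, h2⟩, h3⟩ := h
  have f := F.s4word r h1 k h2 w h3
  delta CL.cl
  dsimp only
  split
  · simp (disch := omega) only [hd_ng, hd_ps, hd_nil, val_D, val_X]
    intro a
    have f' := f a
    tauto
  · simp (disch := omega) only [hd_ng, hd_ps, hd_nil, val_D, val_X]
    intro a
    have f' := f a
    tauto

end CL

end Vale.Agent.P032.R2.H741.Tp
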