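import Vale.Agent.P032.R2.H741.Fst2

/-!
# P032, W4.CERT: refutation trees

A static system: positions `q`, letters `< m`, for every atom `j = m * q + l` a mask `E j` (block `j`, width
`W`, of the table `tab`) of the atoms which are impossible together with `j`, and a test `dead` for
codes which contain a bigger window.  A selection `g` is *good* if `E (m * q + g q)` does not
contain the atom `m * q' + g q'`, for all `q`, `q'`.

`Tr`: a tree of positions.  `run t x b A c`: at the position with the block `b` the letters of the mask `x`
are left, `A` is the union of the masks of the chosen atoms, `c` the code of the chosen atoms.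
`run_sound`: no good selection is compatible with the state.  `Tr.alt q t r`: take the highest letter of
`x`, then continue with the position `q` (tree `t`), and `r` for the other letters.
-/

set_option autoImplicit false

namespace Vale.Agent.P032.R2.H741

namespace Tree

open Fst Clo

/-- trees of positions -/
inductive Tr
  | nil : Tr
  | alt (q : ℕ) (t r : Tr) : Tr

/-- letters which are free at the block `b` -/
noncomputable def fr (M A b : ℕ) : ℕ := Nat.sub M (Nat.land M (Nat.shiftRight A b))

/-- the check of a tree -/
noncomputable def run (m M W MW tab : ℕ) (dead : ℕ → Bool) (t : Tr) : ℕ → ℕ → ℕ → ℕ → Bool :=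
  @Tr.rec (fun _ => ℕ → ℕ → ℕ → ℕ → Bool) (fun x _ _ _ => Nat.beq x 0)
    (fun q _ _ iht ihr x b A c =>
      @Nat.rec (fun _ => Bool) true (fun y _ => force (Nat.log2 (Nat.succ y)) fun l =>
        force (Nat.sub (Nat.succ y) (Nat.pow 2 l)) fun x1 => force (Nat.add b l) fun j =>
        force (Nat.lor c (Nat.pow 2 j)) fun c' =>
        @Bool.rec (fun _ => Bool)
          (@Bool.rec (fun _ => Bool) false (ihr x1 b A c)
            (force (Nat.lor A (blk W MW tab j)) fun A' => force (Nat.mul m q) fun b' =>
              force (fr M A' b') fun x' => iht x' b' A' c'))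
          (ihr x1 b A c) (dead c')) x) t

/-- the check of a tree with a first position -/
noncomputable def ref (m M W MW tab : ℕ) (dead : ℕ → Bool) (q : ℕ) (t : Tr) (A c : ℕ) : Bool :=
  run m M W MW tab dead t (fr M A (Nat.mul m q)) (Nat.mul m q) A c

/-- a good selection -/
structure Good (m W MW tab : ℕ) (dead : ℕ → Bool) (g : ℕ → ℕ) : Prop where
  lt : ∀ q, g q < m
  free : ∀ q q', (blk W MW tab (m * q + g q)).testBit (m * q' + g q') = false
  live : ∀ c, (∀ i, c.testBit i = true → ∃ q, i = m * q + g q) → dead c = false

theorem testBit_fr {m A b l : ℕ} (hl : l < m) (h1 : A.testBit (b + l) = false) :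
    (fr (2 ^ m - 1) A b).testBit l = true := by
  have hX : (2 ^ m - 1) &&& (A >>> b) < 2 ^ m :=
    lt_of_le_of_lt Nat.and_le_left (by have := Nat.two_pow_pos m; omega)
  have e : fr (2 ^ m - 1) A b = 2 ^ m - (((2 ^ m - 1) &&& (A >>> b)) + 1) := by
    have e1 : ∀ x y : ℕ, Nat.sub x y = x - y := fun _ _ => rfl
    have e2 : ∀ x y : ℕ, Nat.land x y = x &&& y := fun _ _ => rfl
    have e4 : ∀ x y : ℕ, Nat.shiftRight x y = x >>> y := fun _ _ => rfl
    unfold fr
    rw [e1, e2, e4]
    omega
  rw [e, Nat.testBit_two_pow_sub_succ hX, Nat.testBit_and, Nat.testBit_shiftRight, h1]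
  simp [hl]

/-- the state is compatible with the selection -/
structure Comp (m : ℕ) (g : ℕ → ℕ) (A c : ℕ) : Prop where
  free : ∀ q, A.testBit (m * q + g q) = false
  mem : ∀ i, c.testBit i = true → ∃ q, i = m * q + g q

variable {m W MW tab : ℕ} {dead : ℕ → Bool} {g : ℕ → ℕ}

theorem Comp.next (G : Good m W MW tab dead g) {A c : ℕ} (C : Comp m g A c) (q : ℕ) :
    Comp m g (Nat.lor A (blk W MW tab (m * q + g q))) (Nat.lor c (2 ^ (m * q + g q))) where
  free := by
    intro q'
    rw [lor_bit, C.free q', G.free q q']; rfl
  mem := by
    intro i hi
    rw [lor_bit, Bool.or_eq_true, Nat.testBit_two_pow, decide_eq_true_eq] at hi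
    rcases hi with hi | hi
    · exact C.mem i hi
    · exact ⟨q, hi.symm⟩

/-- **Trees are refutations.** -/
theorem run_sound (G : Good m W MW tab dead g) : ∀ (t : Tr) {x q A c : ℕ}, Comp m g A c →
    x.testBit (g q) = true → run m (2 ^ m - 1) W MW tab dead t x (m * q) A c = true → False
  | .nil, x, q, A, c, _, hx, hr => by
      have h1 : Nat.beq x 0 = true := hr
      have := Nat.eq_of_beq_eq_true h1
      subst this
      rw [Nat.zero_testBit] at hx
      exact absurd hx (by simp)
  | .alt q' t r, x, q, A, c, C, hx, hr => by
      cases x with
      | zero => rw [Nat.zero_testBit] at hx; exact absurd hx (by simp)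
      | succ y =>
          have h1 : force (Nat.log2 (Nat.succ y)) (fun l =>
            force (Nat.sub (Nat.succ y) (Nat.pow 2 l)) fun x1 => force (Nat.add (m * q) l) fun j =>
            force (Nat.lor c (Nat.pow 2 j)) fun c' =>
            @Bool.rec (fun _ => Bool)
              (@Bool.rec (fun _ => Bool) false
                (run m (2 ^ m - 1) W MW tab dead r x1 (m * q) A c)
                (force (Nat.lor A (blk W MW tab j)) fun A' => force (Nat.mul m q') fun b' =>
                  force (fr (2 ^ m - 1) A' b') fun x' =>
                  run m (2 ^ m - 1) W MW tab dead t x' b' A' c'))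
              (run m (2 ^ m - 1) W MW tab dead r x1 (m * q) A c) (dead c')) = true := hr
          simp only [force_eq] at h1
          have h1' : @Bool.rec (fun _ => Bool)
              (@Bool.rec (fun _ => Bool) false
                (run m (2 ^ m - 1) W MW tab dead r (y + 1 - 2 ^ Nat.log2 (y + 1)) (m * q) A c)
                (run m (2 ^ m - 1) W MW tab dead t
                  (fr (2 ^ m - 1) (Nat.lor A (blk W MW tab (m * q + Nat.log2 (y + 1)))) (m * q'))
                  (m * q') (Nat.lor A (blk W MW tab (m * q + Nat.log2 (y + 1))))
                  (Nat.lor c (2 ^ (m * q + Nat.log2 (y + 1))))))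
              (run m (2 ^ m - 1) W MW tab dead r (y + 1 - 2 ^ Nat.log2 (y + 1)) (m * q) A c)
              (dead (Nat.lor c (2 ^ (m * q + Nat.log2 (y + 1))))) = true := h1
          clear h1 hr
          -- the rest is true
          have hrest : run m (2 ^ m - 1) W MW tab dead r (y + 1 - 2 ^ Nat.log2 (y + 1)) (m * q) A c =
              true := by
            cases hd : dead (Nat.lor c (2 ^ (m * q + Nat.log2 (y + 1)))) with
            | true => rw [hd] at h1'; exact h1'
            | false =>
                rw [hd] at h1'
                cases hb : run m (2 ^ m - 1) W MW tab dead t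
                  (fr (2 ^ m - 1) (Nat.lor A (blk W MW tab (m * q + Nat.log2 (y + 1)))) (m * q'))
                  (m * q') (Nat.lor A (blk W MW tab (m * q + Nat.log2 (y + 1))))
                  (Nat.lor c (2 ^ (m * q + Nat.log2 (y + 1)))) with
                | false => simp only [hb] at h1'; exact absurd h1' (by simp)
                | true => simp only [hb] at h1'; exact h1'
          by_cases e : g q = Nat.log2 (y + 1)
          · rw [← e] at h1'
            have C' := C.next G q
            have hd : dead (Nat.lor c (2 ^ (m * q + g q))) = false := G.live _ C'.mem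
            rw [hd] at h1'
            have hb : run m (2 ^ m - 1) W MW tab dead t
                  (fr (2 ^ m - 1) (Nat.lor A (blk W MW tab (m * q + g q))) (m * q'))
                  (m * q') (Nat.lor A (blk W MW tab (m * q + g q)))
                  (Nat.lor c (2 ^ (m * q + g q))) = true := by
              cases hb : run m (2 ^ m - 1) W MW tab dead t
                  (fr (2 ^ m - 1) (Nat.lor A (blk W MW tab (m * q + g q))) (m * q'))
                  (m * q') (Nat.lor A (blk W MW tab (m * q + g q)))
                  (Nat.lor c (2 ^ (m * q + g q))) with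
              | true => rfl
              | false => simp only [hb] at h1'; exact absurd h1' (by simp)
            exact run_sound G t C' (testBit_fr (G.lt q') (C'.free q')) hb
          · exact run_sound G r C (testBit_sub_log2 (by omega) e hx) hrest

/-- **A refutation** of a state. -/
theorem ref_sound (G : Good m W MW tab dead g) {q : ℕ} {t : Tr} {A c : ℕ} (C : Comp m g A c)
    (hr : ref m (2 ^ m - 1) W MW tab dead q t A c = true) : False :=
  run_sound G t (q := q) C (testBit_fr (G.lt q) (C.free q)) hr

end Tree

end Vale.Agent.P032.R2.H741
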